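import Vale.Agent.P032.H913.Height
import Vale.Agent.P032.H594.JSign
import Vale.Agent.P032.H695.Par
import Vale.Agent.P032.H98.AntiP

/-!
# P032: heights of two `J`-partners (helper913)

`z`, `y` two `J`-partners (`JPair`), `y = pt z φ`.  `Qd T z .. u t` : the labels (`0 = e`, `1 = f`,
`2` = a closed exact arc) of the direction `u + t` of `S(z)`.
`JPair.inc` : the labels of `z` and `y` in the same direction are incomparable, hence
`JPair.W_eq` : the winding numbers are equal.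
`JPair.T` : if `ab` has no point in the directions `[φ + 1, φ + 5]`, the window of `y` changes by an
odd number over `[φ + 2, φ + 4]`, and the window of `z` by `2` modulo `4` over `[φ + 1, φ + 5]`.
`JPair.no_N0` : then not (one free label never meets an arc of `y` in these directions).
-/

open Set Filter Topology Metric

noncomputable section

namespace Vale.Agent.P032.H913

open Vale.Agent.P032.Six Vale.Agent.P032.S5.H767 Vale.Agent.P032.S5.H122 Vale.Agent.P032.Sweep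
open Vale.Agent.P032.H594 (JPair Ad)
open Vale.Agent.P032.H695 (Q3 Q3_zero Q3_one Q3_two Q3_mg Q3_closed Swp not_sub Cov)

variable {U : Fin 6 → Set ℂ} {T : ℂ → Set (Fin 6)} {z y : ℂ} {a b c d e f : Fin 6}

/-- the labels of the direction `u + t` of the circle about `z` -/
def Qd (T : ℂ → Set (Fin 6)) (z : ℂ) (a b c d e f : Fin 6) (u t : ℝ) : Set (Fin 3) :=
  Q3 T z a b c d e f (pt z (u + t))

theorem mem_Qd0 {u t : ℝ} : 0 ∈ Qd T z a b c d e f u t ↔ e ∈ T (pt z (u + t)) := by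
  unfold Qd; rw [Q3_zero]
  exact ⟨fun h => h.2, fun h => ⟨dist_pt _ _, h⟩⟩

theorem mem_Qd1 {u t : ℝ} : 1 ∈ Qd T z a b c d e f u t ↔ f ∈ T (pt z (u + t)) := by
  unfold Qd; rw [Q3_one]
  exact ⟨fun h => h.2, fun h => ⟨dist_pt _ _, h⟩⟩

theorem mem_Qd2 {u t : ℝ} : 2 ∈ Qd T z a b c d e f u t ↔ u + t ∈ Ad T z {a, b} {c, d} := by
  unfold Qd; rw [Q3_two]; rfl

theorem cov913 (S : JPair U T z y a b c d e f) (u : ℝ) : Cov (Qd T z a b c d e f u) := by
  have C := S.ctr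
  refine ⟨fun t => ?_, fun t => ?_, fun t => ?_, fun t => ?_⟩
  · unfold Qd
    rw [show u + (t + 6) = u + t + 6 by ring, pt_six]
  · obtain ⟨l, hl⟩ := C.cover (dist_pt z (u + t))
    exact ⟨_, Q3_mg hl⟩
  · by_contra hcon
    push Not at hcon
    have he := mem_Qd0.1 (hcon 0)
    have hf := mem_Qd1.1 (hcon 1)
    have h3 := S.three_of (dist_pt z (u + t)) he
    rcases mem_Qd2.1 (hcon 2) with k | k
    · rcases C.noEF h3 he hf (l := 2) k with k' | k' <;> exact absurd k' (by decide)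
    · rcases C.noEF h3 he hf (l := 3) k with k' | k' <;> exact absurd k' (by decide)
  · have h1 : Tendsto (fun s : ℝ => pt z (u + s)) (𝓝 t) (𝓝 (pt z (u + t))) :=
      ((continuous_pt z).comp (continuous_const_add u)).tendsto t
    have h3 : ∀ l, ∀ᶠ x in 𝓝 (pt z (u + t)), l ∈ Q3 T z a b c d e f x →
        l ∈ Q3 T z a b c d e f (pt z (u + t)) := by
      intro l
      by_cases hl : l ∈ Q3 T z a b c d e f (pt z (u + t))
      · exact Eventually.of_forall fun _ _ => hl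
      · filter_upwards [(Q3_closed C.irr l).isOpen_compl.mem_nhds hl] with x hx hx'
        exact absurd hx' hx
    filter_upwards [h1.eventually (eventually_all.2 h3)] with s hs l hl
    exact hs l hl

/-- the colour `e` in the same direction on both circles -/
theorem aux913 (S : JPair U T z y a b c d e f) {t : ℝ} (he : e ∈ T (pt z t)) (he' : e ∈ T (pt y t))
    (hf : f ∈ T (pt z t) → f ∈ T (pt y t))
    (hP : t ∈ Ad T z {a, b} {c, d} → t ∈ Ad T y {a, c} {b, d}) : False := by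
  have C := S.ctr
  by_cases hf0 : f ∈ T (pt z t)
  · exact S.no_com (Ne.symm S.e_ne_f) he he' hf0 (hf hf0)
  by_cases hZ : t ∈ Ad T z {a, b} {c, d}
  · obtain ⟨P, hP1, hP2⟩ : ∃ P : Set (Fin 6), (P = {a, b} ∨ P = {c, d}) ∧ P ⊆ T (pt z t) := by
      rcases hZ with k | k
      · exact ⟨_, Or.inl rfl, sub_of_closure S.irr k⟩
      · exact ⟨_, Or.inr rfl, sub_of_closure S.irr k⟩
    obtain ⟨R, hR1, hR2⟩ : ∃ R : Set (Fin 6), (R = {a, c} ∨ R = {b, d}) ∧ R ⊆ T (pt y t) := by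
      rcases hP hZ with k | k
      · exact ⟨_, Or.inl rfl, sub_of_closure S.irr k⟩
      · exact ⟨_, Or.inr rfl, sub_of_closure S.irr k⟩
    obtain ⟨i, h1, h2⟩ := S.meet hP1 hR1
    refine S.no_com (i := i) ?_ he he' (hP2 h1) (hR2 h2)
    rintro rfl
    refine S.e_not ?_
    rw [S.hz.pal]
    rcases hP1 with rfl | rfl
    · rcases h1 with h1 | h1
      · rw [h1]; simp
      · rw [mem_singleton_iff] at h1; rw [h1]; simp
    · rcases h1 with h1 | h1
      · rw [h1]; simp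
      · rw [mem_singleton_iff] at h1; rw [h1]; simp
  -- only `e` near `t` on the circle about `z`
  have hall : ∀ m : Fin 4, m = 0 ∨ m = 1 ∨ m = 2 ∨ m = 3 := by decide
  have hev : ∀ᶠ q in 𝓝[sphere z 1] (pt z t), e ∈ T q := by
    have h1 : ∀ᶠ q in 𝓝 (pt z t), q ∉ Lt T z a b c d e f 1 :=
      (Lt_closed C.irr 1).isOpen_compl.mem_nhds fun h => hf0 h.2
    have h2 : ∀ᶠ q in 𝓝 (pt z t), q ∉ Lt T z a b c d e f 2 :=
      (Lt_closed C.irr 2).isOpen_compl.mem_nhds fun h => hZ (Or.inl h)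
    have h3 : ∀ᶠ q in 𝓝 (pt z t), q ∉ Lt T z a b c d e f 3 :=
      (Lt_closed C.irr 3).isOpen_compl.mem_nhds fun h => hZ (Or.inr h)
    filter_upwards [mem_nhdsWithin_of_mem_nhds h1, mem_nhdsWithin_of_mem_nhds h2,
      mem_nhdsWithin_of_mem_nhds h3, self_mem_nhdsWithin] with q k1 k2 k3 k4
    obtain ⟨m, hm⟩ := C.cover (y := q) k4
    rcases hall m with rfl | rfl | rfl | rfl
    exacts [hm.2, absurd hm k1, absurd hm k2, absurd hm k3]
  refine line_free S.irr (dist_pt z t) hev (S.dist_pq t) (fun h => ?_) (fun h => ?_)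
    (S.irr.sub _ he')
  · rw [h] at he'; exact S.e_not he'
  · have h1 : pt z t = y := by
      unfold pt at h ⊢
      linear_combination -h
    rw [h1, S.Tyz] at he
    exact S.e_not he

/-- **the labels in the same direction are incomparable** -/
theorem inc913 (S : JPair U T z y a b c d e f) (u t : ℝ) :
    ¬ Qd T z a b c d e f u t ⊆ Qd T y a c b d e f u t := by
  intro hsub
  have h0 : e ∈ T (pt z (u + t)) → e ∈ T (pt y (u + t)) := fun h =>
    mem_Qd0.1 (hsub (mem_Qd0.2 h))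
  have h1 : f ∈ T (pt z (u + t)) → f ∈ T (pt y (u + t)) := fun h =>
    mem_Qd1.1 (hsub (mem_Qd1.2 h))
  have h2 : u + t ∈ Ad T z {a, b} {c, d} → u + t ∈ Ad T y {a, c} {b, d} := fun h =>
    mem_Qd2.1 (hsub (mem_Qd2.2 h))
  by_cases he : e ∈ T (pt z (u + t))
  · exact aux913 S he (h0 he) h1 h2
  by_cases hf : f ∈ T (pt z (u + t))
  · exact aux913 S.efs hf (h1 hf) h0 h2
  -- only arcs near `t`
  have C := S.ctr
  have hint : u + t ∈ interior (Ad T z {a, b} {c, d}) := by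
    rw [mem_interior_iff_mem_nhds]
    have k1 : ∀ᶠ s in 𝓝 (u + t), e ∉ T (pt z s) :=
      ((S.irr.closed e).preimage (continuous_pt z)).isOpen_compl.mem_nhds he
    have k2 : ∀ᶠ s in 𝓝 (u + t), f ∉ T (pt z s) :=
      ((S.irr.closed f).preimage (continuous_pt z)).isOpen_compl.mem_nhds hf
    have hall : ∀ m : Fin 4, m = 0 ∨ m = 1 ∨ m = 2 ∨ m = 3 := by decide
    filter_upwards [k1, k2] with s j1 j2
    obtain ⟨m, hm⟩ := C.cover (dist_pt z s)
    rcases hall m with rfl | rfl | rfl | rfl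
    exacts [absurd hm.2 j1, absurd hm.2 j2, Or.inl hm, Or.inr hm]
  exact S.s1 (h2 (interior_subset hint)) hint

theorem inc913' (S : JPair U T z y a b c d e f) (u t : ℝ) :
    ¬ Qd T y a c b d e f u t ⊆ Qd T z a b c d e f u t := inc913 S.swap u t

/-- labels at distance one without the pair `ab` -/
theorem incz913 (S : JPair U T z y a b c d e f) {u t : ℝ}
    (h1 : pt z (u + t) ∉ closure (Ex T z {a, b}))
    (h2 : pt z (u + (t + 1)) ∉ closure (Ex T z {a, b})) :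
    ¬ Qd T z a b c d e f u t ⊆ Qd T z a b c d e f u (t + 1) ∧
      ¬ Qd T z a b c d e f u (t + 1) ⊆ Qd T z a b c d e f u t := by
  have C := S.ctr
  have hd : dist (pt z (u + t)) (pt z (u + (t + 1))) = 1 := by
    rw [show u + (t + 1) = u + t + 1 by ring]; exact dist_pt_one z _
  have hall : ∀ m : Fin 4, m = 0 ∨ m = 1 ∨ m = 2 ∨ m = 3 := by decide
  have key : ∀ {p q : ℂ}, dist p z = 1 → dist q z = 1 → dist p q = 1 →
      p ∉ closure (Ex T z {a, b}) → ¬ Swp T z a b c d e f p q := by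
    rintro p q hp hq hpq hp2 ⟨l, m, hlm, k1, k2, k3, k4⟩
    have h3 : ∀ l : Fin 4, (l = 0 ∨ l = 1) → ∀ {x : ℂ}, x ∈ Lt T z a b c d e f l →
        (T x).ncard ≤ 3 := by
      rintro l (rfl | rfl) x hx
      · exact S.three_of hx.1 hx.2
      · exact S.efs.three_of hx.1 hx.2
    have hl : (l = 0 ∨ l = 1) ∨ (m = 0 ∨ m = 1) := by
      rcases hall l with rfl | rfl | rfl | rfl
      · exact Or.inl (Or.inl rfl)
      · exact Or.inl (Or.inr rfl)
      · exact absurd k1 hp2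
      · rcases hall m with rfl | rfl | rfl | rfl
        · exact Or.inr (Or.inl rfl)
        · exact Or.inr (Or.inr rfl)
        · exact absurd k2 hp2
        · exact absurd rfl hlm
    rcases hl with hl | hl
    · exact C.noswap hlm hpq (h3 l hl k1) (h3 l hl k3) k1 k2 k3 k4
    · exact C.noswap hlm hpq (h3 m hl k2) (h3 m hl k4) k1 k2 k3 k4
  refine ⟨not_sub C (dist_pt _ _) (dist_pt _ _) hd h1 h2 (key (dist_pt _ _) (dist_pt _ _) hd h1),
    not_sub C (dist_pt _ _) (dist_pt _ _) (by rw [dist_comm]; exact hd) h2 h1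
      (key (dist_pt _ _) (dist_pt _ _) (by rw [dist_comm]; exact hd) h2)⟩

/-- the first common point of the two circles -/
theorem pt_common {φ : ℝ} (hφ : pt z φ = y) : pt y (φ + 2) = pt z (φ + 1) := by
  have h1 := pt_sum z φ
  have h2 : pt y (φ + 2) = y + (pt z (φ + 2) - z) := by unfold pt; ring
  rw [h2, ← hφ]
  linear_combination h1

/-- the second common point of the two circles -/
theorem pt_common' {φ : ℝ} (hφ : pt z φ = y) : pt y (φ + 4) = pt z (φ + 5) := by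
  have h1 := pt_sum z (φ + 4)
  rw [show φ + 4 + 2 = φ + 6 by ring, pt_six, show φ + 4 + 1 = φ + 5 by ring] at h1
  have h2 : pt y (φ + 4) = y + (pt z (φ + 4) - z) := by unfold pt; ring
  rw [h2, ← hφ]
  linear_combination h1

/-- a common point of the circles of two `J`-partners with another palette has a free colour -/
theorem free913 (S : JPair U T z y a b c d e f) {x : ℂ} (hx : dist x z = 1) (hx' : dist x y = 1)
    (hT : T x ≠ T z) : e ∈ T x ∨ f ∈ T x := by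
  have C := S.ctr
  by_contra hcon
  rw [not_or] at hcon
  have h3 : (T x).ncard ≤ 3 := (S.wz x hx).resolve_right hT
  have hall : ∀ m : Fin 4, m = 0 ∨ m = 1 ∨ m = 2 ∨ m = 3 := by decide
  have key : ∀ l m : Fin 4, (l = 2 ∧ m = 3 ∨ l = 3 ∧ m = 2) → x ∈ Lt T z a b c d e f l → False := by
    intro l m hlm hl
    have hm : x ∉ Lt T z a b c d e f m := by
      intro hm
      rcases hlm with ⟨rfl, rfl⟩ | ⟨rfl, rfl⟩
      · exact C.noAC h3 hl hm
      · exact C.noAC h3 hm hl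
    obtain ⟨i, hi⟩ := col_nonempty (a := a) (b := b) (c := c) (d := d) (e := e) (f := f) l
    have hiz : i ∈ T z := by
      rw [S.hz.pal]
      rcases hlm with ⟨rfl, rfl⟩ | ⟨rfl, rfl⟩
      · have hi : i ∈ ({a, b} : Set (Fin 6)) := hi
        rcases hi with rfl | hi
        · simp
        · rw [mem_singleton_iff] at hi; subst hi; simp
      · have hi : i ∈ ({c, d} : Set (Fin 6)) := hi
        rcases hi with rfl | hi
        · simp
        · rw [mem_singleton_iff] at hi; subst hi; simp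
    have hev : ∀ᶠ q in 𝓝[sphere z 1] x, i ∈ T q := by
      have h0 : ∀ᶠ q in 𝓝 x, q ∉ Lt T z a b c d e f 0 :=
        (Lt_closed C.irr 0).isOpen_compl.mem_nhds fun h => hcon.1 h.2
      have h1 : ∀ᶠ q in 𝓝 x, q ∉ Lt T z a b c d e f 1 :=
        (Lt_closed C.irr 1).isOpen_compl.mem_nhds fun h => hcon.2 h.2
      have h2 : ∀ᶠ q in 𝓝 x, q ∉ Lt T z a b c d e f m :=
        (Lt_closed C.irr m).isOpen_compl.mem_nhds hm
      filter_upwards [mem_nhdsWithin_of_mem_nhds h0, mem_nhdsWithin_of_mem_nhds h1,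
        mem_nhdsWithin_of_mem_nhds h2, self_mem_nhdsWithin] with q k0 k1 k2 k4
      obtain ⟨n, hn⟩ := C.cover (y := q) k4
      have hnl : n = l := by
        rcases hall n with rfl | rfl | rfl | rfl
        · exact absurd hn k0
        · exact absurd hn k1
        · rcases hlm with ⟨rfl, rfl⟩ | ⟨rfl, rfl⟩
          · rfl
          · exact absurd hn k2
        · rcases hlm with ⟨rfl, rfl⟩ | ⟨rfl, rfl⟩
          · exact absurd hn k2
          · rfl
      subst hnl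
      exact Lt_col C.irr hn hi
    refine line_free S.irr hx hev hx' (fun h => ?_) (fun h => ?_) (S.irr.sub _ (S.Tyz ▸ hiz))
    · have := S.dyz
      rw [h, dist_self] at this
      exact zero_ne_one this
    · have h1 : x - z = y - x := by linear_combination -h
      have h2 : y - z = 2 * (x - z) := by linear_combination h
      have h4 := S.dyz
      rw [dist_eq_norm, h2, norm_mul, ← dist_eq_norm, hx] at h4
      norm_num at h4
  obtain ⟨l, hl⟩ := C.cover hx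
  rcases hall l with rfl | rfl | rfl | rfl
  · exact hcon.1 hl.2
  · exact hcon.2 hl.2
  · exact key 2 3 (Or.inl ⟨rfl, rfl⟩) hl
  · exact key 3 2 (Or.inr ⟨rfl, rfl⟩) hl

/-- the antipode of a `J`-partner is on no arc -/
theorem anti913 (S : JPair U T z y a b c d e f) {φ : ℝ} (hφ : pt z φ = y) :
    φ + 3 ∉ Ad T z {a, b} {c, d} := by
  have hin : ∀ i ∈ ({a, b, c, d} : Set (Fin 6)), i ∈ T y := by
    intro i hi
    rw [S.Tyz, S.hz.pal]; exact hi
  intro h
  have h : pt z (φ + 3) ∈ closure (Ex T z {a, b}) ∨ pt z (φ + 3) ∈ closure (Ex T z {c, d}) := h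
  rw [pt_three, hφ] at h
  rcases h with h | h
  · exact S.irr.anti_clo S.hz S.dyz (hin c (by simp)) (hin d (by simp)) h
  · exact S.irr.anti_clo S.hz.swap S.dyz (hin a (by simp)) (hin b (by simp)) h

/-! ### the winding number -/

/-- `W` is the winding number of the circle about `z` (base direction `u`) -/
def Wnd (T : ℂ → Set (Fin 6)) (z : ℂ) (a b c d e f : Fin 6) (u : ℝ) (W : ℤ) : Prop :=
  ∃ M, Ht913 (Qd T z a b c d e f u) M ∧ ∀ t ∈ Icc (0 : ℝ) 6, M (t + 6) = M t + 6 * W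

theorem exists_wnd913 (S : JPair U T z y a b c d e f) (u : ℝ) :
    ∃ W, Wnd T z a b c d e f u W := by
  obtain ⟨M, H⟩ := exists_ht913 (cov913 S u)
  obtain ⟨W, hW⟩ := H.W (cov913 S u)
  exact ⟨W, M, H, hW⟩

/-- **the winding numbers of two `J`-partners are equal** -/
theorem wnd_eq913 (S : JPair U T z y a b c d e f) {u : ℝ} {W W' : ℤ}
    (h : Wnd T z a b c d e f u W) (h' : Wnd T y a c b d e f u W') : W = W' := by
  obtain ⟨M, H, hW⟩ := h
  obtain ⟨M', H', hW'⟩ := h'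
  exact H.W_eq H' (fun t _ => ⟨inc913 S u t, inc913' S u t⟩) hW hW'

/-- **the window theorem for two `J`-partners**: no `ab`-point in the directions `[φ+1, φ+5]` -/
theorem win913 (S : JPair U T z y a b c d e f) {φ : ℝ} (hφ : pt z φ = y)
    (hA : ∀ t ∈ Icc (φ + 1) (φ + 5), pt z t ∉ closure (Ex T z {a, b}))
    (h1 : T (pt z (φ + 1)) ≠ T z) (h5 : T (pt z (φ + 5)) ≠ T z) {M M' : ℝ → ℤ}
    (H : Ht913 (Qd T z a b c d e f (φ - 3)) M) (H' : Ht913 (Qd T y a c b d e f (φ - 3)) M') :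
    ∃ m : ℤ, (M' 7 + 1) / 6 = (M' 5 + 1) / 6 + 2 * m + 1 ∧
      (M 8 + 1) / 6 = (M 4 + 1) / 6 + 4 * m + 2 := by
  have e1 := pt_common hφ
  have e2 := pt_common' hφ
  have f1 := free913 S (dist_pt z (φ + 1)) (by rw [← e1]; exact dist_pt y _) h1
  have f2 := free913 S (dist_pt z (φ + 5)) (by rw [← e2]; exact dist_pt y _) h5
  refine T913 H H' (fun t _ => ⟨inc913 S _ t, inc913' S _ t⟩) (fun t ht => incz913 S
    (hA _ ⟨by linarith [ht.1], by linarith [ht.2]⟩) (hA _ ⟨by linarith [ht.1], by linarith [ht.2]⟩))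
    ?_ ?_ ?_
  · rw [mem_Qd0, mem_Qd0, mem_Qd1, mem_Qd1, show φ - 3 + 4 = φ + 1 by ring,
      show φ - 3 + 5 = φ + 2 by ring, e1]
    rcases f1 with f1 | f1
    · exact Or.inl ⟨f1, f1⟩
    · exact Or.inr ⟨f1, f1⟩
  · rw [mem_Qd0, mem_Qd0, mem_Qd1, mem_Qd1, show φ - 3 + 8 = φ + 5 by ring,
      show φ - 3 + 7 = φ + 4 by ring, e2]
    rcases f2 with f2 | f2
    · exact Or.inl ⟨f2, f2⟩
    · exact Or.inr ⟨f2, f2⟩
  · rw [mem_Qd2, show φ - 3 + 6 = φ + 3 by ring]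
    exact anti913 S hφ

/-- one free colour is on no arc of the circle about `z` in the directions `[u, v]` -/
def N0 (T : ℂ → Set (Fin 6)) (z : ℂ) (a b c d e f : Fin 6) (u v : ℝ) : Prop :=
  (∀ t ∈ Icc u v, e ∈ T (pt z t) → t ∉ Ad T z {a, b} {c, d}) ∨
    ∀ t ∈ Icc u v, f ∈ T (pt z t) → t ∉ Ad T z {a, b} {c, d}

/-- **no `ab`-point of `z` in `[φ+1, φ+5]` and `N0` at `y` in `[φ+2, φ+4]` is impossible** -/
theorem no_N0_913 (S : JPair U T z y a b c d e f) {φ : ℝ} (hφ : pt z φ = y)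
    (hA : ∀ t ∈ Icc (φ + 1) (φ + 5), pt z t ∉ closure (Ex T z {a, b}))
    (h1 : T (pt z (φ + 1)) ≠ T z) (h5 : T (pt z (φ + 5)) ≠ T z)
    (hN : N0 T y a c b d e f (φ + 2) (φ + 4)) : False := by
  obtain ⟨M, H⟩ := exists_ht913 (cov913 S (φ - 3))
  obtain ⟨M', H'⟩ := exists_ht913 (cov913 S.swap (φ - 3))
  obtain ⟨m, hm, -⟩ := win913 S hφ hA h1 h5 H H'
  have e1 := pt_common hφ
  have e2 := pt_common' hφ
  have f1 := free913 S (dist_pt z (φ + 1)) (by rw [← e1]; exact dist_pt y _) h1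
  have f2 := free913 S (dist_pt z (φ + 5)) (by rw [← e2]; exact dist_pt y _) h5
  have h := H'.N0 (s := 5) (t := 7) (by norm_num) (by norm_num) (by norm_num) ?_ ?_ ?_
  · omega
  · rcases hN with hN | hN
    · left
      rintro t ht ⟨k1, k2⟩
      exact hN _ ⟨by linarith [ht.1], by linarith [ht.2]⟩ (mem_Qd0.1 k1) (mem_Qd2.1 k2)
    · right
      rintro t ht ⟨k1, k2⟩
      exact hN _ ⟨by linarith [ht.1], by linarith [ht.2]⟩ (mem_Qd1.1 k1) (mem_Qd2.1 k2)
  · rw [mem_Qd0, mem_Qd1, show φ - 3 + 5 = φ + 2 by ring, e1]; exact f1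
  · rw [mem_Qd0, mem_Qd1, show φ - 3 + 7 = φ + 4 by ring, e2]; exact f2

/-- **no `ab`-point of `z` in `[φ+1, φ+5]` and `N0` at `z` in `[φ-1, φ+1]`: the winding number is
`2` modulo `4`** -/
theorem wnd_iv913 (S : JPair U T z y a b c d e f) {φ : ℝ} (hφ : pt z φ = y)
    (hA : ∀ t ∈ Icc (φ + 1) (φ + 5), pt z t ∉ closure (Ex T z {a, b}))
    (h1 : T (pt z (φ + 1)) ≠ T z) (h5 : T (pt z (φ + 5)) ≠ T z)
    (hN : N0 T z a b c d e f (φ - 1) (φ + 1)) {W : ℤ} (hW : Wnd T z a b c d e f (φ - 3) W) :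
    W % 4 = 2 := by
  obtain ⟨M, H, hW⟩ := hW
  obtain ⟨M', H'⟩ := exists_ht913 (cov913 S.swap (φ - 3))
  obtain ⟨m, -, hm⟩ := win913 S hφ hA h1 h5 H H'
  have e1 := pt_common hφ
  have e2 := pt_common' hφ
  have f1 := free913 S (dist_pt z (φ + 1)) (by rw [← e1]; exact dist_pt y _) h1
  have f2 := free913 S (dist_pt z (φ + 5)) (by rw [← e2]; exact dist_pt y _) h5
  have h := H.N0 (s := 2) (t := 4) (by norm_num) (by norm_num) (by norm_num) ?_ ?_ ?_
  · have h2 := hW 2 ⟨by norm_num, by norm_num⟩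
    rw [show (2 : ℝ) + 6 = 8 by norm_num] at h2
    omega
  · rcases hN with hN | hN
    · left
      rintro t ht ⟨k1, k2⟩
      exact hN _ ⟨by linarith [ht.1], by linarith [ht.2]⟩ (mem_Qd0.1 k1) (mem_Qd2.1 k2)
    · right
      rintro t ht ⟨k1, k2⟩
      exact hN _ ⟨by linarith [ht.1], by linarith [ht.2]⟩ (mem_Qd1.1 k1) (mem_Qd2.1 k2)
  · rw [mem_Qd0, mem_Qd1, show φ - 3 + 2 = φ - 1 by ring, ← pt_six z (φ - 1),
      show φ - 1 + 6 = φ + 5 by ring]
    exact f2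
  · rw [mem_Qd0, mem_Qd1, show φ - 3 + 4 = φ + 1 by ring]; exact f1

/-- the change of the window over a block from `s` to `t`: free labels at the two ends -/
def Cx (Q : ℝ → Set (Fin 3)) (s t : ℝ) (n : ℤ) : Prop :=
  (n = 0 ∧ ((0 ∈ Q s ∧ 0 ∈ Q t) ∨ (1 ∈ Q s ∧ 1 ∈ Q t))) ∨ (n = 1 ∧ 1 ∈ Q s ∧ 0 ∈ Q t) ∨
    (n = -1 ∧ 0 ∈ Q s ∧ 1 ∈ Q t)

theorem Cx.win {Q : ℝ → Set (Fin 3)} {M : ℝ → ℤ} (H : Ht913 Q M) {s t : ℝ} (hs : 0 ≤ s)
    (hst : s ≤ t) (ht : t ≤ 12) (h : ∀ u ∈ Icc s t, 2 ∈ Q u) {n : ℤ} (hn : Cx Q s t n) :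
    (M t + 1) / 6 = (M s + 1) / 6 + n := by
  rcases hn with ⟨rfl, h1⟩ | ⟨rfl, h1, h2⟩ | ⟨rfl, h1, h2⟩
  · rw [H.blk_eq hs hst ht h h1, add_zero]
  · exact H.blk_up hs hst ht h h1 h2
  · rw [H.blk_dn hs hst ht h h1 h2]; ring

/-- **the winding number from three blocks** -/
theorem wnd_blk913 {Q : ℝ → Set (Fin 3)} {M : ℝ → ℤ} (H : Ht913 Q M) {W : ℤ}
    (hW : ∀ t ∈ Icc (0 : ℝ) 6, M (t + 6) = M t + 6 * W) {x0 x0' x1 x1' x2 x2' : ℝ}
    (h0 : 0 ≤ x0) (h1 : x0 ≤ x0') (h2 : x0' ≤ x1) (h3 : x1 ≤ x1') (h4 : x1' ≤ x2) (h5 : x2 ≤ x2')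
    (h6 : x2' ≤ x0 + 6) (h7 : x0 ≤ 6) (b0 : ∀ u ∈ Icc x0 x0', 2 ∈ Q u)
    (g0 : ∀ u ∈ Icc x0' x1, 0 ∈ Q u ∨ 1 ∈ Q u) (b1 : ∀ u ∈ Icc x1 x1', 2 ∈ Q u)
    (g1 : ∀ u ∈ Icc x1' x2, 0 ∈ Q u ∨ 1 ∈ Q u) (b2 : ∀ u ∈ Icc x2 x2', 2 ∈ Q u)
    (g2 : ∀ u ∈ Icc x2' (x0 + 6), 0 ∈ Q u ∨ 1 ∈ Q u) {n0 n1 n2 : ℤ} (c0 : Cx Q x0 x0' n0)
    (c1 : Cx Q x1 x1' n1) (c2 : Cx Q x2 x2' n2) : W = n0 + n1 + n2 := by
  have k0 := c0.win H h0 h1 (by linarith) b0
  have k1 := c1.win H (by linarith) h3 (by linarith) b1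
  have k2 := c2.win H (by linarith) h5 (by linarith) b2
  have l0 := H.gap913 (by linarith) h2 (by linarith) g0
  have l1 := H.gap913 (by linarith) h4 (by linarith) g1
  have l2 := H.gap913 (by linarith) h6 (by linarith) g2
  have l3 := hW x0 ⟨h0, h7⟩
  omega

end Vale.Agent.P032.H913
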