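import Vale.Agent.P032.H913.Par
import Vale.Agent.P032.H913.Deg
import Vale.Agent.P032.H546.FFin
import Vale.Agent.P032.H987.Arcs
import Vale.Agent.P032.H987.Sign

/-!
# P032: the parity of the winding number from the numbers of the ends (helper913)

`wnd_cnt913` : if all types of ends are labelled, the winding number has the parity of the number of
the ends with the colour `f`.
-/

open Set Filter Topology Metric

noncomputable section

namespace Vale.Agent.P032.H913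

open Vale.Agent.P032.Six Vale.Agent.P032.S5.H767 Vale.Agent.P032.S5.H122 Vale.Agent.P032.Sweep
open Vale.Agent.P032.H594 (Ad)
open Vale.Agent.P032.H987 (CzF CzE Cz lbF aftP befP Fr pt_int)
open Vale.Agent.P032.H546 (Cnt)
open Vale.Agent.P032.H695 (Cov)
open Vale.Agent.P032.H838 (Ht)

variable {U : Fin 6 → Set ℂ} {T : ℂ → Set (Fin 6)} {z : ℂ} {a b c d e f : Fin 6}

/-- the label of a point `{c, d, f}` -/
theorem lab_cdf (S : Cz U T z a b c d e f) {y : ℂ} (hT : T y = {c, d, f}) :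
    lbF true true T z a b c d e f y = 3 ∨ lbF true true T z a b c d e f y = 4 := by
  have h1 : T y ≠ T z := H546.ne_four S.four hT
  have h2 : T y ≠ {a, b, e} := by rw [hT]; exact (H546.nd_ne S.nd).1.symm
  unfold lbF
  rw [if_neg h1, if_neg h2, if_pos hT]
  split_ifs <;> simp

/-- the label of an end `{a, b, f}` -/
theorem lab_abf (S : Cz U T z a b c d e f) {y : ℂ} (hT : T y = {a, b, f})
    (hcl : y ∈ closure (Ex T z {a, b})) :
    lbF true true T z a b c d e f y = 7 ∨ lbF true true T z a b c d e f y = 8 := by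
  have h1 : T y ≠ T z := H546.ne_four S.four hT
  have h2 : T y ≠ {a, b, e} := by rw [hT]; exact (H546.nd_ne S.nd).2.1.symm
  have h3 : T y ≠ {c, d, f} := by rw [hT]; exact (H546.nd_ne S.nd).2.2.2.1.symm
  unfold lbF
  rw [if_neg h1, if_neg h2, if_neg h3, if_pos ⟨rfl, hT, hcl⟩]
  split_ifs <;> simp

/-- points after a direction -/
theorem ev_gt {P : ℂ → Prop} {φ x : ℝ} (h : ∃ β > φ + x, ∀ v ∈ Ioo (φ + x) β, P (pt z v)) :
    ∀ᶠ s in 𝓝[>] x, P (pt z (φ + s)) := by
  obtain ⟨β, hβ, h⟩ := h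
  filter_upwards [Ioo_mem_nhdsGT (show x < β - φ by linarith)] with s hs
  exact h _ ⟨by linarith [hs.1], by linarith [hs.2]⟩

theorem ev_lt {P : ℂ → Prop} {φ x : ℝ} (h : ∃ α < φ + x, ∀ v ∈ Ioo α (φ + x), P (pt z v)) :
    ∀ᶠ s in 𝓝[<] x, P (pt z (φ + s)) := by
  obtain ⟨α, hα, h⟩ := h
  filter_upwards [Ioo_mem_nhdsLT (show α - φ < x by linarith)] with s hs
  exact h _ ⟨by linarith [hs.1], by linarith [hs.2]⟩

/-- a point of an exact arc has no other colours -/
theorem ex_not_f (S : Cz U T z a b c d e f) {y : ℂ}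
    (h : y ∈ Ex T z {a, b} ∨ y ∈ Ex T z {c, d}) : f ∉ T y := by
  obtain ⟨⟨ab, ac, ad, ae, af⟩, ⟨bc, bd, be, bf⟩, ⟨cd, ce, cf⟩, ⟨de, df⟩, ef⟩ :=
    S5.H349.nd_ne S.nd
  rcases h with h | h
  · rw [ex_self h]
    rintro (k | k)
    exacts [af k.symm, bf k.symm]
  · rw [ex_self h]
    rintro (k | k)
    exacts [cf k.symm, df k.symm]

/-- the `f`-points of the arcs -/
theorem f_cases (S : Cz U T z a b c d e f) {y : ℂ} (hf : f ∈ T y)
    (h : y ∈ closure (Ex T z {a, b}) ∨ y ∈ closure (Ex T z {c, d})) :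
    (T y = {a, b, f} ∧ y ∈ closure (Ex T z {a, b})) ∨ T y = {c, d, f} := by
  obtain ⟨⟨ab, ac, ad, ae, af⟩, ⟨bc, bd, be, bf⟩, ⟨cd, ce, cf⟩, ⟨de, df⟩, ef⟩ :=
    S5.H349.nd_ne S.nd
  have fz : f ∉ T z := by
    rw [S.dpt.pal]
    simp only [mem_insert_iff, mem_singleton_iff, not_or]
    exact ⟨af.symm, bf.symm, cf.symm, df.symm⟩
  rcases h with h | h
  · rcases S.cl_cases h with k | k | k | k
    · exact absurd hf (ex_not_f S (Or.inl k))
    · rw [k] at hf; exact absurd hf fz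
    · rw [k] at hf
      rcases hf with k' | k' | k'
      exacts [absurd k'.symm af, absurd k'.symm bf, absurd k'.symm ef]
    · exact Or.inl ⟨k, h⟩
  · rcases S.swapP.cl_cases h with k | k | k | k
    · exact absurd hf (ex_not_f S (Or.inr k))
    · rw [k] at hf; exact absurd hf fz
    · rw [k] at hf
      rcases hf with k' | k' | k'
      exacts [absurd k'.symm cf, absurd k'.symm df, absurd k'.symm ef]
    · exact Or.inr k

theorem mem_Xs {φ t : ℝ} : t ∈ Xs (Qd T z a b c d e f φ) ↔ f ∈ T (pt z (φ + t)) ∧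
    (pt z (φ + t) ∈ closure (Ex T z {a, b}) ∨ pt z (φ + t) ∈ closure (Ex T z {c, d})) := by
  unfold Xs
  rw [mem_ofPred_eq, mem_Qd1, mem_Qd2]
  rfl

/-- the label changes at these points -/
theorem cr_913 (S : CzF true true U T z a b c d e f) {φ x : ℝ}
    (hx : x ∈ Xs (Qd T z a b c d e f φ)) : Cr (Qd T z a b c d e f φ) x := by
  have C := S.toCz
  obtain ⟨h1, h2⟩ := mem_Xs.1 hx
  obtain ⟨s1, s2⟩ := S.sides (φ + x)
  have n2 : ∀ {y : ℂ}, Fr T z a b c d f e y → ¬ (y ∈ closure (Ex T z {a, b}) ∨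
      y ∈ closure (Ex T z {c, d})) := by
    rintro y ⟨⟨k1, k2⟩, -⟩ (k | k)
    exacts [k1 k, k2 k]
  have up : (∃ β > φ + x, ∀ v ∈ Ioo (φ + x) β, Fr T z a b c d f e (pt z v)) →
      ∀ᶠ s in 𝓝[>] x, 2 ∉ Qd T z a b c d e f φ s := by
    intro h
    filter_upwards [ev_gt h] with s hs
    rw [mem_Qd2]
    exact n2 hs
  have dn : (∃ α < φ + x, ∀ v ∈ Ioo α (φ + x), Fr T z a b c d f e (pt z v)) →
      ∀ᶠ s in 𝓝[<] x, 2 ∉ Qd T z a b c d e f φ s := by
    intro h
    filter_upwards [ev_lt h] with s hs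
    rw [mem_Qd2]
    exact n2 hs
  have up' : ∀ P : Set (Fin 6), (P = {a, b} ∨ P = {c, d}) →
      (∃ β > φ + x, ∀ v ∈ Ioo (φ + x) β, pt z v ∈ Ex T z P) →
      ∀ᶠ s in 𝓝[>] x, 1 ∉ Qd T z a b c d e f φ s := by
    intro P hP h
    filter_upwards [ev_gt h] with s hs
    rw [mem_Qd1]
    exact ex_not_f C (by rcases hP with rfl | rfl; exacts [Or.inl hs, Or.inr hs])
  have dn' : ∀ P : Set (Fin 6), (P = {a, b} ∨ P = {c, d}) →
      (∃ α < φ + x, ∀ v ∈ Ioo α (φ + x), pt z v ∈ Ex T z P) →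
      ∀ᶠ s in 𝓝[<] x, 1 ∉ Qd T z a b c d e f φ s := by
    intro P hP h
    filter_upwards [ev_lt h] with s hs
    rw [mem_Qd1]
    exact ex_not_f C (by rcases hP with rfl | rfl; exacts [Or.inl hs, Or.inr hs])
  rcases f_cases C h1 h2 with ⟨k1, k2⟩ | k1
  · rcases lab_abf C k1 k2 with k3 | k3
    · rw [k3] at s1 s2
      exact Or.inr ⟨dn' _ (Or.inl rfl) s2, up s1⟩
    · rw [k3] at s1 s2
      exact Or.inl ⟨dn s2, up' _ (Or.inl rfl) s1⟩
  · rcases lab_cdf C k1 with k3 | k3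
    · rw [k3] at s1 s2
      exact Or.inr ⟨dn' _ (Or.inr rfl) s2, up s1⟩
    · rw [k3] at s1 s2
      exact Or.inl ⟨dn s2, up' _ (Or.inr rfl) s1⟩

/-- the points `{c, d, f}` are ends -/
theorem cdf_cl (S : CzF true true U T z a b c d e f) {y : ℂ} (hy : dist y z = 1)
    (hT : T y = {c, d, f}) : y ∈ closure (Ex T z {c, d}) := by
  obtain ⟨u, rfl⟩ := S5.H349.exists_pt hy
  obtain ⟨s1, s2⟩ := S.sides u
  have hc := (continuous_pt z).tendsto u
  rcases lab_cdf S.toCz hT with k3 | k3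
  · rw [k3] at s2
    obtain ⟨α, hα, h⟩ := s2
    refine mem_closure_of_tendsto (hc.mono_left (nhdsWithin_le_nhds (s := Iio u))) ?_
    filter_upwards [Ioo_mem_nhdsLT hα] with s hs
    exact h s hs
  · rw [k3] at s1
    obtain ⟨β, hβ, h⟩ := s1
    refine mem_closure_of_tendsto (hc.mono_left (nhdsWithin_le_nhds (s := Ioi u))) ?_
    filter_upwards [Ioo_mem_nhdsGT hβ] with s hs
    exact h s hs

/-- **the number of the directions with an arc and the colour `f`** -/
theorem card_Xs (S : CzF true true U T z a b c d e f)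
    (hfin : {y | dist y z = 1 ∧ lbF true true T z a b c d e f y ≠ 0}.Finite) {φ : ℝ}
    (hJ : T (pt z φ) = T z) {n0 n1 n2 n3 n4 : ℕ} (C : Cnt T z a b c d e f n0 n1 n2 n3 n4) :
    (0 : ℝ) ∉ Xs (Qd T z a b c d e f φ) ∧ (Xs (Qd T z a b c d e f φ) ∩ Ioo 0 6).Finite ∧
      (Xs (Qd T z a b c d e f φ) ∩ Ioo 0 6).ncard = n1 + n3 := by
  obtain ⟨⟨ab, ac, ad, ae, af⟩, ⟨bc, bd, be, bf⟩, ⟨cd, ce, cf⟩, ⟨de, df⟩, ef⟩ :=
    S5.H349.nd_ne S.nd
  have fz : f ∉ T z := by
    rw [S.dpt.pal]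
    simp only [mem_insert_iff, mem_singleton_iff, not_or]
    exact ⟨af.symm, bf.symm, cf.symm, df.symm⟩
  have h0 : (0 : ℝ) ∉ Xs (Qd T z a b c d e f φ) := by
    intro h
    have := (mem_Xs.1 h).1
    rw [add_zero, hJ] at this
    exact fz this
  set A1 : Set ℂ := {y | dist y z = 1 ∧ T y = {a, b, f} ∧ y ∈ closure (Ex T z {a, b})} with hA1
  set A3 : Set ℂ := {y | dist y z = 1 ∧ T y = {c, d, f}} with hA3
  have f1 : A1.Finite := hfin.subset fun y hy => ⟨hy.1, fun h => by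
    rcases lab_abf S.toCz hy.2.1 hy.2.2 with k | k <;> rw [k] at h <;> exact absurd h (by decide)⟩
  have f3 : A3.Finite := hfin.subset fun y hy => ⟨hy.1, fun h => by
    rcases lab_cdf S.toCz hy.2 with k | k <;> rw [k] at h <;> exact absurd h (by decide)⟩
  have hdis : Disjoint A1 A3 := by
    rw [Set.disjoint_left]
    intro y h1 h3
    exact (H546.nd_ne S.nd).2.2.2.1 (by rw [← h3.2, h1.2.1])
  have himg : (fun t : ℝ => pt z (φ + t)) '' (Xs (Qd T z a b c d e f φ) ∩ Ioo 0 6) = A1 ∪ A3 := by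
    ext y
    constructor
    · rintro ⟨t, ⟨ht, -⟩, rfl⟩
      obtain ⟨k1, k2⟩ := mem_Xs.1 ht
      rcases f_cases S.toCz k1 k2 with k | k
      · exact Or.inl ⟨dist_pt z _, k.1, k.2⟩
      · exact Or.inr ⟨dist_pt z _, k⟩
    · intro hy
      have hyz : dist y z = 1 := by rcases hy with h | h; exacts [h.1, h.1]
      have hfy : f ∈ T y := by
        rcases hy with h | h
        · rw [h.2.1]; simp
        · rw [h.2]; simp
      have hcl : y ∈ closure (Ex T z {a, b}) ∨ y ∈ closure (Ex T z {c, d}) := by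
        rcases hy with h | h
        · exact Or.inl h.2.2
        · exact Or.inr (cdf_cl S h.1 h.2)
      obtain ⟨s, hs, rfl⟩ := H987.exists_pt_Ico hyz φ
      refine ⟨s - φ, ⟨mem_Xs.2 ?_, ?_, by linarith [hs.2]⟩, by show pt z (φ + (s - φ)) = pt z s; congr 1; ring⟩
      · rw [show φ + (s - φ) = s by ring]; exact ⟨hfy, hcl⟩
      · rcases hs.1.lt_or_eq with k | k
        · linarith
        · exfalso
          rw [← k, hJ] at hfy
          exact fz hfy
  have hinj : InjOn (fun t : ℝ => pt z (φ + t)) (Xs (Qd T z a b c d e f φ) ∩ Ioo 0 6) := by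
    rintro s ⟨-, hs⟩ t ⟨-, ht⟩ hst
    have hst : pt z (φ + s) = pt z (φ + t) := hst
    obtain ⟨n, hn⟩ := S5.H349.pt_eq hst
    have h1 := hs.1
    have h2 := hs.2
    have h3 := ht.1
    have h4 := ht.2
    have hn0 : n = 0 := by
      have k1 : (n : ℝ) < 1 := by linarith
      have k2 : (-1 : ℝ) < n := by linarith
      have k3 : n < 1 := by exact_mod_cast k1
      have k4 : -1 < n := by exact_mod_cast k2
      omega
    rw [hn0] at hn
    push_cast at hn
    linarith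
  refine ⟨h0, Set.Finite.of_finite_image (by rw [himg]; exact f1.union f3) hinj, ?_⟩
  rw [← hinj.ncard_image, himg, Set.ncard_union_eq hdis f1 f3, hA1, hA3, C.abf, C.cdf]

/-- **the parity of the winding number is the parity of the number of the `f`-ends** -/
theorem wnd_cnt913 (S : CzF true true U T z a b c d e f)
    (hfin : {y | dist y z = 1 ∧ lbF true true T z a b c d e f y ≠ 0}.Finite) {φ : ℝ}
    (hJ : T (pt z φ) = T z) {n0 n1 n2 n3 n4 : ℕ} (C : Cnt T z a b c d e f n0 n1 n2 n3 n4)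
    (hcov : Cov (Qd T z a b c d e f φ)) {M : ℝ → ℤ} {W : ℤ} (H : Ht (Qd T z a b c d e f φ) M W) :
    W % 2 = ((n1 + n3 : ℕ) : ℤ) % 2 := by
  obtain ⟨h0, h1, h2⟩ := card_Xs S hfin hJ C
  rw [par913 hcov H h0 h1 (fun x hx => cr_913 S hx.1), h2]

end Vale.Agent.P032.H913
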