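import Vale.Agent.P032.H913.F1
import Vale.Agent.P032.H913.Cnt
import Vale.Agent.P032.H824.JJ
import Vale.Agent.P032.H594.NCTop

/-!
# P032: no comp centre has exactly one `J`-partner, the glue (helper913)

Class facts of a centre `z` with the `J`-partner `y`, names free:
* `F1c T z y` : a full word `F1`;
* `IVc T z y` : one pair has no point in the directions `[φ + 1, φ + 5]`, one free colour meets no
  arc in `[φ - 1, φ + 1]`;
* `K2 U T z` : all ends labelled, `1, 1, 2, 2` or `2, 2, 1, 1` of them.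

`noJ1_913` : if every comp centre with exactly one `J`-partner is `F1c` or `IVc` and every comp
centre with two of them is `K2`, then `NoJ1 T`.
-/

open Set Filter Topology Metric

noncomputable section

namespace Vale.Agent.P032.H913

open Vale.Agent.P032.Six Vale.Agent.P032.S5.H767 Vale.Agent.P032.S5.H122 Vale.Agent.P032.Sweep
open Vale.Agent.P032.H594 (JPair Ad Ad_swap Comp Jp NoJ1 OnlyJT)
open Vale.Agent.P032.H471 (Sec4)
open Vale.Agent.P032.H987 (CzF lbF pt_int)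
open Vale.Agent.P032.H546 (Cnt)
open Vale.Agent.P032.H838 (Ht ind ind_one ind_zero pairs_eq Q3_congr pair_W exHtz)
open Vale.Agent.P032.H180 (Res)
open Vale.Agent.P032.H695 (Cov nd_all)

variable {U : Fin 6 → Set ℂ} {T : ℂ → Set (Fin 6)} {z y : ℂ} {a b c d e f : Fin 6}
  {φ x0 x0' x1 x1' x2 x2' : ℝ}

/-! ### Names -/

/-- two namings of a two-pair point -/
theorem names913 (h : Irr U T) {a' b' c' d' e' f' : Fin 6} (hz : DPt T z a b c d)
    (nd : [a, b, c, d, e, f].Nodup) (hz' : DPt T z a' b' c' d')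
    (nd' : [a', b', c', d', e', f'].Nodup) :
    ((({a', b'} : Set (Fin 6)) = {a, b} ∧ ({c', d'} : Set (Fin 6)) = {c, d}) ∨
      (({a', b'} : Set (Fin 6)) = {c, d} ∧ ({c', d'} : Set (Fin 6)) = {a, b})) ∧
      ((e' = e ∧ f' = f) ∨ (e' = f ∧ f' = e)) := by
  refine ⟨pairs_eq h hz hz', ?_⟩
  obtain ⟨⟨ab, ac, ad, ae, af⟩, ⟨bc, bd, be, bf⟩, ⟨cd, ce, cf⟩, ⟨de, df⟩, ef⟩ :=
    S5.H349.nd_ne nd
  obtain ⟨⟨ab', ac', ad', ae', af'⟩, ⟨bc', bd', be', bf'⟩, ⟨cd', ce', cf'⟩, ⟨de', df'⟩, ef'⟩ :=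
    S5.H349.nd_ne nd'
  have hn : ∀ i, i ∉ T z → i = e ∨ i = f := by
    intro i hi
    rcases nd_all nd i with rfl | rfl | rfl | rfl | rfl | rfl
    · exact absurd (by rw [hz.pal]; simp) hi
    · exact absurd (by rw [hz.pal]; simp) hi
    · exact absurd (by rw [hz.pal]; simp) hi
    · exact absurd (by rw [hz.pal]; simp) hi
    · exact Or.inl rfl
    · exact Or.inr rfl
  have e1 : e' ∉ T z := by
    rw [hz'.pal]
    simp only [mem_insert_iff, mem_singleton_iff, not_or]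
    exact ⟨ae'.symm, be'.symm, ce'.symm, de'.symm⟩
  have f1 : f' ∉ T z := by
    rw [hz'.pal]
    simp only [mem_insert_iff, mem_singleton_iff, not_or]
    exact ⟨af'.symm, bf'.symm, cf'.symm, df'.symm⟩
  rcases hn e' e1 with k | k <;> rcases hn f' f1 with k' | k'
  · exact absurd (k.trans k'.symm) ef'
  · exact Or.inl ⟨k, k'⟩
  · exact Or.inr ⟨k, k'⟩
  · exact absurd (k.trans k'.symm) ef'

theorem Ad_congr {a' b' c' d' : Fin 6}
    (hp : (({a', b'} : Set (Fin 6)) = {a, b} ∧ ({c', d'} : Set (Fin 6)) = {c, d}) ∨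
      (({a', b'} : Set (Fin 6)) = {c, d} ∧ ({c', d'} : Set (Fin 6)) = {a, b})) :
    Ad T z {a', b'} {c', d'} = Ad T z {a, b} {c, d} := by
  rcases hp with ⟨h1, h2⟩ | ⟨h1, h2⟩
  · rw [h1, h2]
  · rw [h1, h2, Ad_swap]

theorem N0_ren {a' b' c' d' e' f' : Fin 6}
    (hp : ((({a', b'} : Set (Fin 6)) = {a, b} ∧ ({c', d'} : Set (Fin 6)) = {c, d}) ∨
      (({a', b'} : Set (Fin 6)) = {c, d} ∧ ({c', d'} : Set (Fin 6)) = {a, b})) ∧
      ((e' = e ∧ f' = f) ∨ (e' = f ∧ f' = e))) {u v : ℝ} (hN : N0 T z a' b' c' d' e' f' u v) :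
    N0 T z a b c d e f u v := by
  obtain ⟨h1, h2⟩ := hp
  have h3 := Ad_congr (T := T) (z := z) h1
  unfold N0 at hN ⊢
  rw [h3] at hN
  rcases h2 with ⟨rfl, rfl⟩ | ⟨rfl, rfl⟩
  · exact hN
  · exact hN.symm

theorem N0_shift {u v : ℝ} (n : ℤ) (hN : N0 T z a b c d e f u v) :
    N0 T z a b c d e f (u + n * 6) (v + n * 6) := by
  have key : ∀ g : Fin 6, (∀ t ∈ Icc u v, g ∈ T (pt z t) → t ∉ Ad T z {a, b} {c, d}) →
      ∀ t ∈ Icc (u + n * 6) (v + n * 6), g ∈ T (pt z t) → t ∉ Ad T z {a, b} {c, d} := by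
    intro g hg t ht h1 h2
    have e1 : pt z t = pt z (t - n * 6) := by
      have := pt_int z (t - n * 6) n
      rw [sub_add_cancel] at this
      exact this
    refine hg (t - n * 6) ⟨by linarith [ht.1], by linarith [ht.2]⟩ (by rw [← e1]; exact h1) ?_
    show pt z (t - n * 6) ∈ _ ∨ pt z (t - n * 6) ∈ _
    rw [← e1]; exact h2
  rcases hN with hN | hN
  · exact Or.inl (key e hN)
  · exact Or.inr (key f hN)

/-! ### Parity -/

/-- the winding numbers have the parity `r` -/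
def PW (T : ℂ → Set (Fin 6)) (z : ℂ) (a b c d e f : Fin 6) (r : ℤ) : Prop :=
  ∀ u M W, Ht (Qd T z a b c d e f u) M W → W % 2 = r

theorem PW.of {r : ℤ} {u0 : ℝ} (h : ∀ M W, Ht (Qd T z a b c d e f u0) M W → W % 2 = r) :
    PW T z a b c d e f r := by
  intro u M W H
  refine h (fun t => M (u0 - u + t)) W ?_
  have h1 := H.shift (u0 - u)
  have e1 : (fun t => Qd T z a b c d e f u (u0 - u + t)) = Qd T z a b c d e f u0 := by
    funext t
    unfold Qd
    congr 2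
    ring
  rw [e1] at h1
  exact h1

theorem Qd_ef (u t : ℝ) : (0 ∈ Qd T z a b c d f e u t ↔ 1 ∈ Qd T z a b c d e f u t) ∧
    (1 ∈ Qd T z a b c d f e u t ↔ 0 ∈ Qd T z a b c d e f u t) ∧
    (2 ∈ Qd T z a b c d f e u t ↔ 2 ∈ Qd T z a b c d e f u t) := by
  rw [mem_Qd0, mem_Qd0, mem_Qd1, mem_Qd1, mem_Qd2, mem_Qd2]
  exact ⟨Iff.rfl, Iff.rfl, Iff.rfl⟩

/-- exchange of the free colours: opposite winding number -/
theorem ht_ef {u : ℝ} {M : ℝ → ℤ} {W : ℤ} (H : Ht (Qd T z a b c d e f u) M W) :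
    Ht (Qd T z a b c d f e u) (fun t => 2 - M t) (-W) where
  mem t l := by
    obtain ⟨h0, h1, h2⟩ := Qd_ef (T := T) (z := z) (a := a) (b := b) (c := c) (d := d) (e := e)
      (f := f) u t
    have m0 := H.mem t 0
    have m1 := H.mem t 1
    have m2 := H.mem t 2
    have hl : l = 0 ∨ l = 1 ∨ l = 2 := by revert l; decide
    unfold Res at m0 m1 m2 ⊢
    rcases hl with rfl | rfl | rfl
    · rw [h0, m1]; simp; omega
    · rw [h1, m0]; simp; omega
    · rw [h2, m2]; simp; omega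
  loc t := by
    filter_upwards [H.loc t] with s hs
    rw [abs_le] at hs ⊢
    omega
  per t := by
    show 2 - M (t + 6) = 2 - M t + 6 * -W
    rw [H.per]; ring

theorem PW_ren {a' b' c' d' e' f' : Fin 6} {r : ℤ}
    (hp : ((({a', b'} : Set (Fin 6)) = {a, b} ∧ ({c', d'} : Set (Fin 6)) = {c, d}) ∨
      (({a', b'} : Set (Fin 6)) = {c, d} ∧ ({c', d'} : Set (Fin 6)) = {a, b})) ∧
      ((e' = e ∧ f' = f) ∨ (e' = f ∧ f' = e))) (h : PW T z a' b' c' d' e' f' r) :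
    PW T z a b c d e f r := by
  obtain ⟨h1, h2⟩ := hp
  intro u M W H
  have e1 : ∀ {i j : Fin 6} {u : ℝ}, Qd T z a' b' c' d' i j u = Qd T z a b c d i j u := by
    intro i j u
    funext t
    exact Q3_congr h1 _
  rcases h2 with ⟨rfl, rfl⟩ | ⟨rfl, rfl⟩
  · exact h u M W (by rw [e1]; exact H)
  · have := h u _ _ (by rw [e1]; exact ht_ef H)
    omega

/-- parities of two `J`-partners -/
theorem pw_false (S : JPair U T z y a b c d e f) (h0 : PW T z a b c d e f 0)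
    (h1 : PW T y a c b d e f 1) : False := by
  obtain ⟨M, W, H⟩ := exHtz S 0
  obtain ⟨M', W', H'⟩ := exHtz S.swap 0
  have e1 := pair_W S H H'
  have e2 := h0 _ _ _ H
  have e3 := h1 _ _ _ H'
  omega

/-- **the winding number of a full word is even** -/
theorem F1.pw (S : JPair U T z y a b c d e f) (F : F1 T z a b c d e f φ x0 x0' x1 x1' x2 x2') :
    PW T z a b c d e f 0 := by
  refine PW.of (u0 := 0) fun M W H => ?_
  have L := lrs913 S.nd
  have B := F.blk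
  rw [← H838.Ad_eq (e := e) (f := f)] at B
  obtain ⟨hW, -⟩ := H.blk (cov913 S 0).per B
  have out : ∀ {x : ℝ}, e ∉ T (pt z x) → ind (Qd T z a b c d e f 0) x = 0 := by
    intro x hx
    exact ind_zero (by rw [mem_Qd0, zero_add]; exact hx)
  have inn : ∀ {x : ℝ}, e ∈ T (pt z x) → ind (Qd T z a b c d e f 0) x = 1 := by
    intro x hx
    exact ind_one (by rw [mem_Qd0, zero_add]; exact hx)
  rw [out (x := x0) (by rw [F.p0]; exact L.cdf), out (x := x0') (by rw [F.p0']; exact L.abf)] at hW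
  rcases F.w1 with w | w <;> rcases F.w2 with w' | w'
  · rw [inn (x := x1) (by rw [w.1]; simp), out (x := x1') (by rw [w.2]; exact L.cdf),
      out (x := x2) (by rw [w'.1]; exact L.abf), inn (x := x2') (by rw [w'.2]; simp)] at hW
    omega
  · rw [inn (x := x1) (by rw [w.1]; simp), out (x := x1') (by rw [w.2]; exact L.cdf),
      inn (x := x2) (by rw [w'.1]; simp), out (x := x2') (by rw [w'.2]; exact L.abf)] at hW
    omega
  · rw [out (x := x1) (by rw [w.1]; exact L.cdf), inn (x := x1') (by rw [w.2]; simp),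
      out (x := x2) (by rw [w'.1]; exact L.abf), inn (x := x2') (by rw [w'.2]; simp)] at hW
    omega
  · rw [out (x := x1) (by rw [w.1]; exact L.cdf), inn (x := x1') (by rw [w.2]; simp),
      inn (x := x2) (by rw [w'.1]; simp), out (x := x2') (by rw [w'.2]; exact L.abf)] at hW
    omega

/-! ### The classes -/

/-- a full word -/
def F1c (T : ℂ → Set (Fin 6)) (z y : ℂ) : Prop :=
  ∃ a b c d e f φ x0 x0' x1 x1' x2 x2', [a, b, c, d, e, f].Nodup ∧ DPt T z a b c d ∧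
    pt z φ = y ∧ F1 T z a b c d e f φ x0 x0' x1 x1' x2 x2'

/-- the half network -/
def IVc (T : ℂ → Set (Fin 6)) (z y : ℂ) : Prop :=
  ∃ a b c d e f φ, [a, b, c, d, e, f].Nodup ∧ DPt T z a b c d ∧ pt z φ = y ∧
    (∀ t ∈ Icc (φ + 1) (φ + 5), pt z t ∉ closure (Ex T z {a, b})) ∧
    N0 T z a b c d e f (φ - 1) (φ + 1)

/-- one free colour meets no arc near the `J`-partner -/
def NNc (T : ℂ → Set (Fin 6)) (z y : ℂ) : Prop :=
  ∃ a b c d e f φ, [a, b, c, d, e, f].Nodup ∧ DPt T z a b c d ∧ pt z φ = y ∧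
    N0 T z a b c d e f (φ - 1) (φ + 1)

/-- all ends labelled, two `J`-partners -/
def K2 (U : Fin 6 → Set ℂ) (T : ℂ → Set (Fin 6)) (z : ℂ) : Prop :=
  ∃ a b c d e f, CzF true true U T z a b c d e f ∧
    {y | dist y z = 1 ∧ lbF true true T z a b c d e f y ≠ 0}.Finite ∧
    (Cnt T z a b c d e f 1 1 2 2 2 ∨ Cnt T z a b c d e f 2 2 1 1 2)

/-- the direction of the partner, seen from it -/
theorem pt_back (hφ : pt z φ = y) : pt y (φ + 3) = z := by
  have h2 : pt y (φ + 3) = y + (pt z (φ + 3) - z) := by unfold pt; ring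
  rw [h2, pt_three, hφ]; ring

/-- the half network against `N0` at the partner -/
theorem iv_nn913 (S : JPair U T z y a b c d e f) (hφ : pt z φ = y)
    (hA : ∀ t ∈ Icc (φ + 1) (φ + 5), pt z t ∉ closure (Ex T z {a, b}))
    (h1 : T (pt z (φ + 1)) ≠ T z) (h5 : T (pt z (φ + 5)) ≠ T z) (hN : NNc T y z) : False := by
  obtain ⟨a', b', c', d', e', f', ψ, nd', hy', hψ, hN⟩ := hN
  have hp := names913 S.irr S.hy S.swap.nd hy' nd'
  have hN1 := N0_ren hp hN
  obtain ⟨n, hn⟩ := S5.H349.pt_eq (hψ.trans (pt_back hφ).symm)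
  have hN2 := N0_shift (-n) hN1
  refine no_N0_913 S hφ hA h1 h5 ?_
  have e1 : ψ - 1 + ((-n : ℤ) : ℝ) * 6 = φ + 2 := by rw [hn]; push_cast; ring
  have e2 : ψ + 1 + ((-n : ℤ) : ℝ) * 6 = φ + 4 := by rw [hn]; push_cast; ring
  rw [e1, e2] at hN2
  exact hN2

/-- the names for a `J`-partner -/
theorem jpair913 (h : Irr U T) (hz : DPt T z a b c d) (nd : [a, b, c, d, e, f].Nodup)
    (hy : dist y z = 1) (hTy : T y = T z) (wz : ∀ v, dist v z = 1 → (T v).ncard ≤ 3 ∨ T v = T z)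
    (wy : ∀ v, dist v y = 1 → (T v).ncard ≤ 3 ∨ T v = T y) :
    JPair U T z y a b c d e f ∨ JPair U T z y a b d c e f := by
  obtain ⟨⟨ab, ac, ad, ae, af⟩, ⟨bc, bd, be, bf⟩, ⟨cd, ce, cf⟩, ⟨de, df⟩, ef⟩ :=
    S5.H349.nd_ne nd
  rcases h.dpt_cross824 hz hy hTy with k | k
  · exact Or.inl ⟨h, hz, k, nd, hy, wz, wy⟩
  · refine Or.inr ⟨h, hz.swap34, k, ?_, hy, wz, wy⟩
    simp only [List.nodup_cons, List.mem_cons, List.not_mem_nil, or_false, not_or, List.nodup_nil,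
      and_true, not_false_eq_true]
    exact ⟨⟨ab, ad, ac, ae, af⟩, ⟨bd, bc, be, bf⟩, ⟨cd.symm, de, df⟩, ⟨ce, cf⟩, ef⟩

/-- the half network, in the names of a `JPair` -/
theorem IVc.names (h : Irr U T) (hy : dist y z = 1) (hTy : T y = T z)
    (wz : ∀ v, dist v z = 1 → (T v).ncard ≤ 3 ∨ T v = T z)
    (wy : ∀ v, dist v y = 1 → (T v).ncard ≤ 3 ∨ T v = T y) (I : IVc T z y) :
    ∃ a b c d e f φ, JPair U T z y a b c d e f ∧ pt z φ = y ∧
    (∀ t ∈ Icc (φ + 1) (φ + 5), pt z t ∉ closure (Ex T z {a, b})) ∧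
    N0 T z a b c d e f (φ - 1) (φ + 1) := by
  obtain ⟨a, b, c, d, e, f, φ, nd, hz, hφ, hA, hN⟩ := I
  rcases jpair913 h hz nd hy hTy wz wy with S | S
  · exact ⟨a, b, c, d, e, f, φ, S, hφ, hA, hN⟩
  · exact ⟨a, b, d, c, e, f, φ, S, hφ, hA,
      N0_ren ⟨Or.inl ⟨rfl, Set.pair_comm _ _⟩, Or.inl ⟨rfl, rfl⟩⟩ hN⟩

/-- the full word, in the names of a `JPair` -/
theorem F1c.names (h : Irr U T) (hy : dist y z = 1) (hTy : T y = T z)
    (wz : ∀ v, dist v z = 1 → (T v).ncard ≤ 3 ∨ T v = T z)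
    (wy : ∀ v, dist v y = 1 → (T v).ncard ≤ 3 ∨ T v = T y) (I : F1c T z y) :
    ∃ a b c d e f φ x0 x0' x1 x1' x2 x2', JPair U T z y a b c d e f ∧ pt z φ = y ∧
    F1 T z a b c d e f φ x0 x0' x1 x1' x2 x2' := by
  obtain ⟨a, b, c, d, e, f, φ, x0, x0', x1, x1', x2, x2', nd, hz, hφ, F⟩ := I
  rcases jpair913 h hz nd hy hTy wz wy with S | S
  · exact ⟨a, b, c, d, e, f, φ, _, _, _, _, _, _, S, hφ, F⟩
  · exact ⟨a, b, d, c, e, f, φ, _, _, _, _, _, _, S, hφ, F.congr rfl (Set.pair_comm _ _)⟩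

/-- a shift of the base of the full word -/
theorem F1.shift (F : F1 T z a b c d e f φ x0 x0' x1 x1' x2 x2') (n : ℤ) :
    F1 T z a b c d e f (φ + n * 6) (x0 + n * 6) (x0' + n * 6) (x1 + n * 6) (x1' + n * 6)
      (x2 + n * 6) (x2' + n * 6) := by
  have B := F.blk
  have ptE : ∀ t : ℝ, pt z t = pt z (t - n * 6) := by
    intro t
    have := pt_int z (t - n * 6) n
    rw [sub_add_cancel] at this
    exact this
  refine ⟨⟨by linarith [B.a0], by linarith [B.b0], by linarith [B.c0], by linarith [B.d0],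
    by linarith [B.a1], by linarith [B.b1], by linarith [B.c1], by linarith [B.a2],
    by linarith [B.b2], by linarith [B.c2], ?_⟩, ?_, ?_, ?_, ?_, ?_, ?_, ?_, ?_⟩
  · intro t h1 h2
    have h3 := B.mem (t - n * 6) (by linarith) (by linarith)
    have h4 : t ∈ Ad T z {a, b} {c, d} ↔ t - n * 6 ∈ Ad T z {a, b} {c, d} := by
      show (pt z t ∈ _ ∨ pt z t ∈ _) ↔ (pt z (t - n * 6) ∈ _ ∨ pt z (t - n * 6) ∈ _)
      rw [← ptE t]
    rw [h4, h3]
    simp only [sub_le_iff_le_add, le_sub_iff_add_le]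
  · intro t ht
    rw [ptE t]; exact F.A0 _ ⟨by linarith [ht.1], by linarith [ht.2]⟩
  · intro t ht
    rw [ptE t]; exact F.A0' _ ⟨by linarith [ht.1], by linarith [ht.2]⟩
  · intro t ht
    rw [ptE t]; exact F.A1 _ ⟨by linarith [ht.1], by linarith [ht.2]⟩
  · intro t ht
    rw [ptE t]; exact F.A2 _ ⟨by linarith [ht.1], by linarith [ht.2]⟩
  · rw [pt_int]; exact F.p0
  · rw [pt_int]; exact F.p0'
  · rw [pt_int, pt_int]; exact F.w1
  · rw [pt_int, pt_int]; exact F.w2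

/-- **two `J`-partners with full words do not exist** -/
theorem f1f1_913 (h : Irr U T) (hS : Sec4 T) (hy : dist y z = 1) (hTy : T y = T z)
    (wz : ∀ v, dist v z = 1 → (T v).ncard ≤ 3 ∨ T v = T z)
    (wy : ∀ v, dist v y = 1 → (T v).ncard ≤ 3 ∨ T v = T y) (Iz : F1c T z y) (Iy : F1c T y z) :
    False := by
  obtain ⟨a, b, c, d, e, f, φ, x0, x0', x1, x1', x2, x2', S, hφ, FZ⟩ := Iz.names h hy hTy wz wy
  obtain ⟨a', b', c', d', e', f', ψ, y0, y0', y1, y1', y2, y2', nd', hy', hψ, FY⟩ := Iy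
  obtain ⟨hp, hq⟩ := names913 h S.hy S.swap.nd hy' nd'
  obtain ⟨n, hn⟩ := S5.H349.pt_eq (hψ.trans (pt_back hφ).symm)
  have FY1 := FY.shift (-n)
  have e1 : ψ + ((-n : ℤ) : ℝ) * 6 = φ + 3 := by rw [hn]; push_cast; ring
  rw [e1] at FY1
  rcases hp with ⟨h1, h2⟩ | ⟨h1, h2⟩
  · -- `{a', b'} = {a, c}` : exchange the names inside the pairs
    have FZ' : F1 T z b a d c e f φ x0 x0' x1 x1' x2 x2' :=
      FZ.congr (Set.pair_comm _ _) (Set.pair_comm _ _)
    refine f1f1_core913 hS (ren1 S) hφ FZ' (y0 := y0 + ((-n : ℤ) : ℝ) * 6)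
      (y0' := y0' + ((-n : ℤ) : ℝ) * 6) (y1 := y1 + ((-n : ℤ) : ℝ) * 6)
      (y1' := y1' + ((-n : ℤ) : ℝ) * 6) (y2 := y2 + ((-n : ℤ) : ℝ) * 6)
      (y2' := y2' + ((-n : ℤ) : ℝ) * 6) ?_
    rcases hq with ⟨rfl, rfl⟩ | ⟨rfl, rfl⟩
    · exact Or.inr (FY1.congr h1 h2)
    · exact Or.inl (FY1.congr h1 h2)
  · refine f1f1_core913 hS S hφ FZ (y0 := y0 + ((-n : ℤ) : ℝ) * 6)
      (y0' := y0' + ((-n : ℤ) : ℝ) * 6) (y1 := y1 + ((-n : ℤ) : ℝ) * 6)
      (y1' := y1' + ((-n : ℤ) : ℝ) * 6) (y2 := y2 + ((-n : ℤ) : ℝ) * 6)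
      (y2' := y2' + ((-n : ℤ) : ℝ) * 6) ?_
    rcases hq with ⟨rfl, rfl⟩ | ⟨rfl, rfl⟩
    · exact Or.inr (FY1.congr h1 h2)
    · exact Or.inl (FY1.congr h1 h2)

theorem four913 (hz : DPt T z a b c d) : (T z).ncard = 4 := by
  rw [hz.pal, Set.ncard_insert_of_notMem, Set.ncard_insert_of_notMem, Set.ncard_pair hz.cd]
  · simp only [mem_insert_iff, mem_singleton_iff, not_or]
    exact ⟨hz.bc, hz.bd⟩
  · simp only [mem_insert_iff, mem_singleton_iff, not_or]
    exact ⟨hz.ab, hz.ac, hz.ad⟩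

/-- the neighbours of a `J`-partner on the circle are no `J`-partners -/
theorem no_JJ913 (h : Irr U T) (h5 : NoPair5 T) (hz : DPt T z a b c d) (hφ : pt z φ = y)
    (hTy : T y = T z) : T (pt z (φ + 1)) ≠ T z ∧ T (pt z (φ + 5)) ≠ T z := by
  have h4 : (T z).ncard = 4 := four913 hz
  have hy : dist y z = 1 := by rw [← hφ]; exact dist_pt z φ
  have key : ∀ w : ℂ, dist w z = 1 → dist y w = 1 → T w ≠ T z := by
    intro w hw hyw hT
    refine h.no_JJ824 hz hy hw hyw hTy hT ?_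
    by_contra hcon
    refine h5 (y + w - z) y ?_ (by omega) (by rw [hTy, h4])
    rw [dist_eq_norm] at hw ⊢
    rw [show y + w - z - y = w - z by ring]; exact hw
  constructor
  · refine key _ (dist_pt z _) ?_
    rw [← hφ]; exact dist_pt_one z φ
  · refine key _ (dist_pt z _) ?_
    have := dist_pt_one z (φ + 5)
    rw [show φ + 5 + 1 = φ + 6 by ring, pt_six, hφ, dist_comm] at this
    exact this

/-- **the glue**: no comp centre has exactly one `J`-partner -/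
theorem noJ1_913 (h : Irr U T) (h5 : NoPair5 T) (hT : OnlyJT T) (hS : Sec4 T)
    (HA : ∀ z y, Comp T z → Jp T z y → (∀ y', Jp T z y' → y' = y) → F1c T z y ∨ IVc T z y)
    (HB : ∀ z y y', Comp T z → Jp T z y → Jp T z y' → y ≠ y' → K2 U T z) : NoJ1 T := by
  intro z y hz hj h1
  obtain ⟨hy, hTy⟩ := hj
  obtain ⟨a₀, b₀, c₀, d₀, hD⟩ := hz.dpt h
  have hzy : dist z y = 1 := by rw [dist_comm]; exact hy
  have wz : ∀ v, dist v z = 1 → (T v).ncard ≤ 3 ∨ T v = T z := fun v hv =>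
    hT.w0 h5 ⟨_, _, _, _, hD⟩ hv
  have hDy : ∃ a b c d, DPt T y a b c d := by
    rcases h.dpt_cross824 hD hy hTy with k | k
    exacts [⟨_, _, _, _, k⟩, ⟨_, _, _, _, k⟩]
  have wy : ∀ v, dist v y = 1 → (T v).ncard ≤ 3 ∨ T v = T y := fun v hv => hT.w0 h5 hDy hv
  have H1 := HA z y hz ⟨hy, hTy⟩ h1
  -- facts of a half network
  have ivF : ∀ {z y : ℂ}, dist y z = 1 → T y = T z →
      (∀ v, dist v z = 1 → (T v).ncard ≤ 3 ∨ T v = T z) →
      (∀ v, dist v y = 1 → (T v).ncard ≤ 3 ∨ T v = T y) → IVc T z y → NNc T y z → False := by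
    intro z y hy hTy wz wy I N
    obtain ⟨a, b, c, d, e, f, φ, S, hφ, hA, -⟩ := I.names h hy hTy wz wy
    obtain ⟨k1, k2⟩ := no_JJ913 h h5 S.hz hφ hTy
    exact iv_nn913 S hφ hA k1 k2 N
  have nnF : ∀ {z y : ℂ}, dist y z = 1 → T y = T z →
      (∀ v, dist v z = 1 → (T v).ncard ≤ 3 ∨ T v = T z) →
      (∀ v, dist v y = 1 → (T v).ncard ≤ 3 ∨ T v = T y) → F1c T z y ∨ IVc T z y → NNc T z y := by
    intro z y hy hTy wz wy I
    rcases I with I | I
    · obtain ⟨a, b, c, d, e, f, φ, _, _, _, _, _, _, S, hφ, F⟩ := I.names h hy hTy wz wy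
      exact ⟨a, b, c, d, e, f, φ, S.nd, S.hz, hφ, Or.inl (F.N0 S hS hφ)⟩
    · obtain ⟨a, b, c, d, e, f, φ, nd, hz, hφ, -, hN⟩ := I
      exact ⟨a, b, c, d, e, f, φ, nd, hz, hφ, hN⟩
  -- the winding number of `z` is even
  have ev : ∃ a b c d e f, JPair U T z y a b c d e f ∧ PW T z a b c d e f 0 := by
    rcases H1 with I | I
    · obtain ⟨a, b, c, d, e, f, φ, _, _, _, _, _, _, S, hφ, F⟩ := I.names h hy hTy wz wy
      exact ⟨a, b, c, d, e, f, S, F.pw S⟩
    · obtain ⟨a, b, c, d, e, f, φ, S, hφ, hA, hN⟩ := I.names h hy hTy wz wy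
      obtain ⟨k1, k2⟩ := no_JJ913 h h5 S.hz hφ hTy
      refine ⟨a, b, c, d, e, f, S, PW.of (u0 := φ - 3) fun M W H => ?_⟩
      have := wnd_iv913 S hφ hA k1 k2 hN H.wnd
      omega
  obtain ⟨a, b, c, d, e, f, S, hev⟩ := ev
  by_cases hcy : Comp T y
  swap
  · refine pw_false S hev fun u M W H => ?_
    obtain ⟨N, hN⟩ := H838.ht_nc S hS hcy H
    omega
  by_cases h2 : ∀ y', Jp T y y' → y' = z
  · have H2 := HA y z hcy ⟨hzy, hTy.symm⟩ h2
    rcases H1 with I | I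
    · rcases H2 with I' | I'
      · exact f1f1_913 h hS hy hTy wz wy I I'
      · exact ivF hzy hTy.symm wy wz I' (nnF hy hTy wz wy (Or.inl I))
    · exact ivF hy hTy wz wy I (nnF hzy hTy.symm wy wz H2)
  · push Not at h2
    obtain ⟨y', hj', hne⟩ := h2
    obtain ⟨a', b', c', d', e', f', CF, hfin, hC⟩ := HB y z y' hcy ⟨hzy, hTy.symm⟩ hj' hne.symm
    obtain ⟨ψ, hψ⟩ := S5.H349.exists_pt hzy
    refine pw_false S hev (PW_ren (names913 h S.hy S.swap.nd CF.dpt CF.nd) (PW.of (u0 := ψ)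
      fun M W H => ?_))
    have hcov : Cov (Qd T y a' b' c' d' e' f' ψ) := by
      rcases jpair913 h CF.dpt CF.nd hzy hTy.symm wy wz with S' | S'
      · exact cov913 S' ψ
      · have e1 : Qd T y a' b' d' c' e' f' ψ = Qd T y a' b' c' d' e' f' ψ := by
          funext t
          exact Q3_congr (Or.inl ⟨rfl, Set.pair_comm _ _⟩) _
        rw [← e1]
        exact cov913 S' ψ
    have hJ : T (pt y ψ) = T y := by rw [← hψ]; exact hTy.symm
    rcases hC with C | C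
    · have := wnd_cnt913 CF hfin hJ C hcov H
      push_cast at this
      omega
    · have := wnd_cnt913 CF hfin hJ C hcov H
      push_cast at this
      omega

end Vale.Agent.P032.H913
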