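import Vale.Agent.P032.H913.Deg
import Vale.Agent.P032.H471.Inst
import Vale.Agent.P032.H594.JZero

/-!
# P032: the ends at distance one from a `J`-partner (helper913)

`z`, `y` two `J`-partners, `X` a common point of the two circles with `e`, without `f` and without
the pairs of `y`.  Then `e` is on the circle about `y` near `X`, and (`line_free`) in no palette on
the circle about `X` off the line `X y`.  So an end `X` of a comp network of `z` has only one
possible complementary end: `z + X - y`.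
-/

open Set Filter Topology Metric

noncomputable section

namespace Vale.Agent.P032.H913

open Vale.Agent.P032.Six Vale.Agent.P032.S5.H767 Vale.Agent.P032.S5.H122 Vale.Agent.P032.Sweep
open Vale.Agent.P032.H594 (JPair Ad)
open Vale.Agent.P032.H471 (Sec4 cov471)

variable {U : Fin 6 → Set ℂ} {T : ℂ → Set (Fin 6)} {z y X v w : ℂ} {a b c d e f : Fin 6}

/-- `e` is on the whole circle about `y` near a common point with `e`, without `f` and without the
pairs of `y` -/
theorem apex_ev913 (S : JPair U T z y a b c d e f)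
    (hf : f ∉ T X) (hac : ¬ ({a, c} : Set (Fin 6)) ⊆ T X) (hbd : ¬ ({b, d} : Set (Fin 6)) ⊆ T X) :
    ∀ᶠ q in 𝓝[sphere y 1] X, e ∈ T q := by
  have C := S.swap.ctr
  have hall : ∀ m : Fin 4, m = 0 ∨ m = 1 ∨ m = 2 ∨ m = 3 := by decide
  have h1 : ∀ᶠ q in 𝓝 X, q ∉ Lt T y a c b d e f 1 :=
    (Lt_closed C.irr 1).isOpen_compl.mem_nhds fun h => hf h.2
  have h2 : ∀ᶠ q in 𝓝 X, q ∉ Lt T y a c b d e f 2 :=
    (Lt_closed C.irr 2).isOpen_compl.mem_nhds fun h => hac (sub_of_closure S.irr h)
  have h3 : ∀ᶠ q in 𝓝 X, q ∉ Lt T y a c b d e f 3 :=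
    (Lt_closed C.irr 3).isOpen_compl.mem_nhds fun h => hbd (sub_of_closure S.irr h)
  filter_upwards [mem_nhdsWithin_of_mem_nhds h1, mem_nhdsWithin_of_mem_nhds h2,
    mem_nhdsWithin_of_mem_nhds h3, self_mem_nhdsWithin] with q k1 k2 k3 k4
  obtain ⟨m, hm⟩ := C.cover (y := q) k4
  rcases hall m with rfl | rfl | rfl | rfl
  exacts [hm.2, absurd hm k1, absurd hm k2, absurd hm k3]

/-- **the apex lemma**: the free colour of a common point is in no palette around it, off the line
through the `J`-partner -/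
theorem apex913 (S : JPair U T z y a b c d e f) (hX' : dist X y = 1)
    (hf : f ∉ T X) (hac : ¬ ({a, c} : Set (Fin 6)) ⊆ T X) (hbd : ¬ ({b, d} : Set (Fin 6)) ⊆ T X)
    (hw : dist X w = 1) (h1 : w ≠ y) (h2 : w + y ≠ 2 * X) : e ∉ T w := fun he =>
  line_free S.irr hX' (apex_ev913 S hf hac hbd) hw h1 h2 (S.irr.sub w he)

/-- **no complementary ends**: an end `X` of `z` on the circle of the `J`-partner `y` with the free
colour `e` has no complementary end except `z + X - y` -/
theorem no_end913 (S : JPair U T z y a b c d e f) (hS : Sec4 T) (hX' : dist X y = 1)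
    (hf : f ∉ T X) (hac : ¬ ({a, c} : Set (Fin 6)) ⊆ T X)
    (hbd : ¬ ({b, d} : Set (Fin 6)) ⊆ T X) (hX : EE T z X) (hv : EE T z v) (hc : T v = (T X)ᶜ)
    (hne : v ≠ z + X - y) : False := by
  have hez : e ∉ T z := S.e_not
  have hew : e ∈ T (X + v - z) := (cov471 S.irr hS hX hv hc e).resolve_left hez
  refine apex913 S hX' hf hac hbd (w := X + v - z) ?_ ?_ ?_ hew
  · have h := hv.dist
    rw [dist_eq_norm] at h ⊢
    rw [show X - (X + v - z) = -(v - z) by ring, norm_neg]; exact h
  · intro h
    rw [h, S.Tyz] at hew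
    exact hez hew
  · intro h
    exact hne (by linear_combination h)

/-- the case `T X = {a, b, e}` or `T X = {c, d, e}` -/
theorem no_end_e913 (S : JPair U T z y a b c d e f) (hS : Sec4 T) (hX' : dist X y = 1)
    (hT : T X = {a, b, e} ∨ T X = {c, d, e}) (hX : EE T z X) (hv : EE T z v) (hc : T v = (T X)ᶜ)
    (hne : v ≠ z + X - y) : False := by
  have nd := S.nd
  simp only [List.nodup_cons, List.mem_cons, List.not_mem_nil, not_or, or_false, not_false_eq_true,
    List.nodup_nil, and_true] at nd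
  obtain ⟨⟨ab, ac, ad, ae, af⟩, ⟨bc, bd, be, bf⟩, ⟨cd, ce, cf⟩, ⟨de, df⟩, ef⟩ := nd
  have h2 : f ∉ T X := by
    rcases hT with h | h
    · rw [h]; rintro (h | h | h)
      exacts [af h.symm, bf h.symm, ef h.symm]
    · rw [h]; rintro (h | h | h)
      exacts [cf h.symm, df h.symm, ef h.symm]
  have h3 : ¬ ({a, c} : Set (Fin 6)) ⊆ T X := by
    intro k
    rcases hT with h | h
    · have := k (show c ∈ ({a, c} : Set (Fin 6)) by simp)
      rw [h] at this
      rcases this with h | h | h
      exacts [ac h.symm, bc h.symm, ce h]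
    · have := k (show a ∈ ({a, c} : Set (Fin 6)) by simp)
      rw [h] at this
      rcases this with h | h | h
      exacts [ac h, ad h, ae h]
  have h4 : ¬ ({b, d} : Set (Fin 6)) ⊆ T X := by
    intro k
    rcases hT with h | h
    · have := k (show d ∈ ({b, d} : Set (Fin 6)) by simp)
      rw [h] at this
      rcases this with h | h | h
      exacts [ad h.symm, bd h.symm, de h]
    · have := k (show b ∈ ({b, d} : Set (Fin 6)) by simp)
      rw [h] at this
      rcases this with h | h | h
      exacts [bc h, bd h, be h]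
  exact no_end913 S hS hX' h2 h3 h4 hX hv hc hne

/-- **all four kinds of ends** -/
theorem no_end_all913 (S : JPair U T z y a b c d e f) (hS : Sec4 T) (hX' : dist X y = 1)
    (hT : (T X = {a, b, e} ∨ T X = {c, d, e}) ∨ T X = {a, b, f} ∨ T X = {c, d, f}) (hX : EE T z X)
    (hv : EE T z v) (hc : T v = (T X)ᶜ) (hne : v ≠ z + X - y) : False := by
  rcases hT with hT | hT
  · exact no_end_e913 S hS hX' hT hX hv hc hne
  · exact no_end_e913 S.efs hS hX' hT hX hv hc hne

/-- in the coordinate: `X = pt z (φ + 1)`, the excluded end is `pt z (φ + 2)` -/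
theorem no_end_pt913 (S : JPair U T z y a b c d e f) (hS : Sec4 T) {φ t : ℝ} (hφ : pt z φ = y)
    (hT : (T (pt z (φ + 1)) = {a, b, e} ∨ T (pt z (φ + 1)) = {c, d, e}) ∨
      T (pt z (φ + 1)) = {a, b, f} ∨ T (pt z (φ + 1)) = {c, d, f})
    (hX : EE T z (pt z (φ + 1))) (hv : EE T z (pt z t)) (hc : T (pt z t) = (T (pt z (φ + 1)))ᶜ)
    (hne : pt z t ≠ pt z (φ + 2)) : False := by
  refine no_end_all913 S hS (by rw [← pt_common hφ]; exact dist_pt y _) hT hX hv hc ?_
  intro h
  apply hne
  rw [h, ← hφ]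
  have := pt_sum z φ
  linear_combination -this

/-- in the coordinate: `X = pt z (φ + 5)`, the excluded end is `pt z (φ + 4)` -/
theorem no_end_pt913' (S : JPair U T z y a b c d e f) (hS : Sec4 T) {φ t : ℝ} (hφ : pt z φ = y)
    (hT : (T (pt z (φ + 5)) = {a, b, e} ∨ T (pt z (φ + 5)) = {c, d, e}) ∨
      T (pt z (φ + 5)) = {a, b, f} ∨ T (pt z (φ + 5)) = {c, d, f})
    (hX : EE T z (pt z (φ + 5))) (hv : EE T z (pt z t)) (hc : T (pt z t) = (T (pt z (φ + 5)))ᶜ)
    (hne : pt z t ≠ pt z (φ + 4)) : False := by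
  refine no_end_all913 S hS (by rw [← pt_common' hφ]; exact dist_pt y _) hT hX hv hc ?_
  intro h
  apply hne
  rw [h, ← hφ]
  have := pt_sum z (φ + 4)
  rw [show φ + 4 + 2 = φ + 6 by ring, pt_six, show φ + 4 + 1 = φ + 5 by ring] at this
  linear_combination -this

end Vale.Agent.P032.H913
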