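import Vale.Agent.P032.H913.ParA
import Vale.Agent.P032.H460.Inst11
import Vale.Agent.P032.H987.InstF
import Vale.Agent.P032.H815.JTie
import Vale.Agent.P032.H815.Base
import Vale.Agent.P032.H594.NCTop

/-!
# P032: the numbers at a comp centre with one `J`-partner (helper913)

`dat1_913` : from the counts of the complementary ends (`Hc913`), the names, the zones with the base
at the `J`-partner, and one of the three types: both networks with the numbers `1, 2, 1, 2`; or one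
network, with the numbers `1, 2` or `2, 1`.
-/

open Set Filter Topology Metric

noncomputable section

namespace Vale.Agent.P032.H913

open Vale.Agent.P032.Six Vale.Agent.P032.S5.H767 Vale.Agent.P032.S5.H349
  Vale.Agent.P032.S5.H450
open Vale.Agent.P032.H987 hiding lb
open Vale.Agent.P032.H546 (Cnt)
open Vale.Agent.P032.H815
open Vale.Agent.P032.H594 (Comp Jp NoJ1 OnlyJT)
open Vale.Agent.P032.H471 (Sec4)

variable {U : Fin 6 → Set ℂ} {T : ℂ → Set (Fin 6)} {z v q y : ℂ} {a b c d e f : Fin 6} {φ : ℝ}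

/-- the numbers of the complementary ends -/
def Hc913 (T : ℂ → Set (Fin 6)) (z : ℂ) : Prop := ∀ v q, EE T z v → EE T z q → T q = (T v)ᶜ →
  ({y | dist y z = 1 ∧ T y = T v}.ncard = 1 ∧ {y | dist y z = 1 ∧ T y = T q}.ncard = 2) ∨
    ({y | dist y z = 1 ∧ T y = T v}.ncard = 2 ∧ {y | dist y z = 1 ∧ T y = T q}.ncard = 1)

theorem lbF_ne'' {g1 g2 : Bool} {y : ℂ} (h : T y = T z ∨ T y = {a, b, e} ∨ T y = {c, d, f} ∨
    (g1 = true ∧ T y = {a, b, f} ∧ y ∈ closure (Ex T z {a, b})) ∨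
    (g2 = true ∧ T y = {c, d, e} ∧ y ∈ closure (Ex T z {c, d}))) :
    lbF g1 g2 T z a b c d e f y ≠ 0 := by
  unfold lbF
  by_cases h1 : T y = T z
  · rw [if_pos h1]; split_ifs <;> decide
  rw [if_neg h1]
  by_cases h2 : T y = {a, b, e}
  · rw [if_pos h2]; split_ifs <;> decide
  rw [if_neg h2]
  by_cases h3 : T y = {c, d, f}
  · rw [if_pos h3]; split_ifs <;> decide
  rw [if_neg h3]
  by_cases h4 : g1 = true ∧ T y = {a, b, f} ∧ y ∈ closure (Ex T z {a, b})
  · rw [if_pos h4]; split_ifs <;> decide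
  rw [if_neg h4]
  have h5 : g2 = true ∧ T y = {c, d, e} ∧ y ∈ closure (Ex T z {c, d}) := by
    rcases h with h | h | h | h | h
    · exact absurd h h1
    · exact absurd h h2
    · exact absurd h h3
    · exact absurd h h4
    · exact h
  rw [if_pos h5]; split_ifs <;> decide

/-- the finiteness after the exchange of the pairs -/
theorem fin_swg913 {g1 g2 : Bool}
    (h : {y | dist y z = 1 ∧ lbF g1 g2 T z a b c d e f y ≠ 0}.Finite) :
    {y | dist y z = 1 ∧ lbF g2 g1 T z c d a b f e y ≠ 0}.Finite := by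
  refine h.subset fun y hy => ⟨hy.1, lbF_ne'' ?_⟩
  rcases lbF_ne hy.2 with k | k | k | k | k
  · exact Or.inl k
  · exact Or.inr (Or.inr (Or.inl k))
  · exact Or.inr (Or.inl k)
  · exact Or.inr (Or.inr (Or.inr (Or.inr k)))
  · exact Or.inr (Or.inr (Or.inr (Or.inl k)))

/-- the finiteness after the exchange of the free colours -/
theorem fin_ef913 (h : {y | dist y z = 1 ∧ lbF true true T z a b c d e f y ≠ 0}.Finite)
    (h1 : {y | dist y z = 1 ∧ T y = {a, b, f}}.Finite)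
    (h2 : {y | dist y z = 1 ∧ T y = {c, d, e}}.Finite) :
    {y | dist y z = 1 ∧ lbF true true T z a b c d f e y ≠ 0}.Finite := by
  refine ((h.union h1).union h2).subset fun y hy => ?_
  rcases lbF_ne hy.2 with k | k | k | k | k
  · exact Or.inl (Or.inl ⟨hy.1, lbF_ne'' (Or.inl k)⟩)
  · exact Or.inl (Or.inr ⟨hy.1, k⟩)
  · exact Or.inr ⟨hy.1, k⟩
  · exact Or.inl (Or.inl ⟨hy.1, lbF_ne'' (Or.inr (Or.inl k.2.1))⟩)
  · exact Or.inl (Or.inl ⟨hy.1, lbF_ne'' (Or.inr (Or.inr (Or.inl k.2.1)))⟩)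

/-- palettes of an end -/
theorem in_ab913 (C : Cz U T z a b c d e f) (hT : T y = {a, b, e}) :
    T z ∩ T y = {a, b} ∧ T z \ T y = {c, d} ∧ (T y).ncard = 3 := by
  obtain ⟨⟨ab, ac, ad, ae, af⟩, ⟨bc, bd, be, bf⟩, ⟨cd, ce, cf⟩, ⟨de, df⟩, ef⟩ := C.nd'
  refine ⟨?_, ?_, by rw [hT]; exact ncard_three ab ae be⟩
  · rw [C.dpt.pal, hT]
    ext i
    simp only [mem_inter_iff, mem_insert_iff, mem_singleton_iff]
    constructor
    · rintro ⟨h1, h2 | h2 | h2⟩
      · exact Or.inl h2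
      · exact Or.inr h2
      · exfalso
        rw [h2] at h1
        rcases h1 with h1 | h1 | h1 | h1
        exacts [ae h1.symm, be h1.symm, ce h1.symm, de h1.symm]
    · rintro (h1 | h1)
      · exact ⟨Or.inl h1, Or.inl h1⟩
      · exact ⟨Or.inr (Or.inl h1), Or.inr (Or.inl h1)⟩
  · rw [C.dpt.pal, hT]
    ext i
    simp only [Set.mem_sdiff, mem_insert_iff, mem_singleton_iff, not_or]
    constructor
    · rintro ⟨h1, h2, h3, -⟩
      rcases h1 with h1 | h1 | h1 | h1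
      exacts [absurd h1 h2, absurd h1 h3, Or.inl h1, Or.inr h1]
    · rintro (rfl | rfl)
      · exact ⟨by simp, ac.symm, bc.symm, ce⟩
      · exact ⟨by simp, ad.symm, bd.symm, de⟩

theorem ee_V913 (S : CzE U T z a b c d e f) (hy : dist y z = 1) (hT : T y = {a, b, e}) :
    EE T z y ∧ y ∈ closure (Ex T z {a, b}) := by
  obtain ⟨hin, hdf, h3⟩ := in_ab913 S.toCz hT
  have hc := S.cln y hy (Or.inl hT)
  obtain ⟨o, ε, ho, hε, h1, -⟩ := hc
  refine ⟨⟨⟨o, ho, hy, S.four, h3, ?_, ε, hε, h1⟩, ?_⟩, ?_⟩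
  · rw [hin]; exact Set.ncard_pair S.dpt.ab
  · obtain ⟨r, hr⟩ := S.dpt.arc2
    exact ⟨r, by rw [hdf]; exact hr⟩
  · obtain ⟨s, rfl⟩ := S5.H349.exists_pt hy
    rw [hin] at h1
    rcases ho with rfl | rfl
    · obtain ⟨α, hα, k⟩ := bef_of (P := fun y => T y = {a, b}) (z := z) (u := s)
        ⟨ε, hε, fun t ht => by have := h1 t ht; rwa [one_mul] at this⟩
      exact cl_side815' hα (ex_of_Ioo k)
    · obtain ⟨β, hβ, k⟩ := aft_of (P := fun y => T y = {a, b}) (z := z) (u := s)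
        ⟨ε, hε, fun t ht => by have := h1 t ht; rwa [neg_one_mul, neg_neg] at this⟩
      exact cl_side815 hβ (ex_of_Ioo k)

theorem ee_Q913 (S : CzE U T z a b c d e f) (hy : dist y z = 1) (hT : T y = {c, d, f}) :
    EE T z y ∧ y ∈ closure (Ex T z {c, d}) := ee_V913 S.swap460 hy hT

/-- the data of a comp centre with one `J`-partner -/
def Dat913 (U : Fin 6 → Set ℂ) (T : ℂ → Set (Fin 6)) (z : ℂ) (φ : ℝ) : Prop :=
  ∃ a b c d e f q', Zn T z a b c d φ q' ∧
    ((CzF true true U T z a b c d e f ∧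
        {y | dist y z = 1 ∧ lbF true true T z a b c d e f y ≠ 0}.Finite ∧
        Cnt T z a b c d e f 1 2 1 2 1 ∧ lbF true true T z a b c d e f (pt z φ) = 6) ∨
      (∃ v w, CzF true false U T z a b c d e f ∧
        {y | dist y z = 1 ∧ lbF true false T z a b c d e f y ≠ 0}.Finite ∧
        {y | dist y z = 1 ∧ T y = {a, b, e}}.ncard = 1 ∧
        {y | dist y z = 1 ∧ T y = {c, d, f}}.ncard = 2 ∧
        {y | dist y z = 1 ∧ T y = T z}.ncard = 1 ∧ (∀ y, dist y z = 1 → T y ≠ {a, b, f}) ∧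
        lbF true false T z a b c d e f (pt z φ) = 6 ∧ EE T z v ∧ T v = {a, b, e} ∧ EE T z w ∧
        T w = {c, d, f}) ∨
      (∃ v w, CzF false true U T z a b c d e f ∧
        {y | dist y z = 1 ∧ lbF false true T z a b c d e f y ≠ 0}.Finite ∧
        {y | dist y z = 1 ∧ T y = {a, b, e}}.ncard = 2 ∧
        {y | dist y z = 1 ∧ T y = {c, d, f}}.ncard = 1 ∧
        {y | dist y z = 1 ∧ T y = T z}.ncard = 1 ∧ (∀ y, dist y z = 1 → T y ≠ {c, d, e}) ∧
        lbF false true T z a b c d e f (pt z φ) = 6 ∧ EE T z v ∧ T v = {a, b, e} ∧ EE T z w ∧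
        T w = {c, d, f}))

theorem dat_main913 (h5 : ∀ x y, dist x y = 1 → 5 ≤ (T x).ncard → 4 ≤ (T y).ncard → False)
    (S : CzE U T z a b c d e f)
    (hfin : {y | dist y z = 1 ∧ H987.lb T z a b c d e f y ≠ 0}.Finite)
    (ev : EE T z v) (eq : EE T z q) (Tv : T v = {a, b, e}) (Tq : T q = {c, d, f})
    (hc : T q = (T v)ᶜ) {q' : ℝ} (Z : Zn T z a b c d φ q')
    (h6 : ∀ g1 g2 e f, lbF g1 g2 T z a b c d e f (pt z φ) = 6)
    (hj : {y | dist y z = 1 ∧ T y = T z}.ncard = 1) (HC : Hc913 T z) : Dat913 U T z φ := by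
  have hc0 := HC v q ev eq hc
  rw [Tv, Tq] at hc0
  -- parities
  have parC : ∀ {g1 : Bool} {n2 n3 : ℕ}, CzF g1 true U T z a b c d e f →
      {y | dist y z = 1 ∧ lbF g1 true T z a b c d e f y ≠ 0}.Finite →
      {y | dist y z = 1 ∧ T y = {c, d, f}}.ncard = n3 →
      {y | dist y z = 1 ∧ T y = {c, d, e} ∧ y ∈ closure (Ex T z {c, d})}.ncard = n2 →
      (n3 + n2 + 1) % 2 = 0 := fun F hF k1 k2 =>
    parA_913 (czf_swg815 F) (fin_swg913 hF) k1 k2 hj
  have parA : ∀ {g2 : Bool} {n0 n1 : ℕ}, CzF true g2 U T z a b c d e f →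
      {y | dist y z = 1 ∧ lbF true g2 T z a b c d e f y ≠ 0}.Finite →
      {y | dist y z = 1 ∧ T y = {a, b, e}}.ncard = n0 →
      {y | dist y z = 1 ∧ T y = {a, b, f} ∧ y ∈ closure (Ex T z {a, b})}.ncard = n1 →
      (n0 + n1 + 1) % 2 = 0 := fun F hF k1 k2 => parA_913 F hF k1 k2 hj
  rcases S.full h5 hfin with ⟨F, hF, hcase⟩ | ⟨F, hF, hno⟩ | ⟨F, hF, hno⟩
  · -- both networks
    rcases hcase with ⟨v', q2, hv', hq', Tv', Tq', hop, S', hfin'⟩ | hno
    · have ev' := (ee_V913 S' hv' Tv').1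
      have eq' := (ee_Q913 S' hq' Tq').1
      have C' := S'.toCz
      have hc' : T q2 = (T v')ᶜ := by rw [Tq', Tv', compl987 C']
      have hc1 := HC v' q2 ev' eq' hc'
      rw [Tv', Tq'] at hc1
      have eA : {y | dist y z = 1 ∧ T y = {a, b, f} ∧ y ∈ closure (Ex T z {a, b})} =
          {y | dist y z = 1 ∧ T y = {a, b, f}} := by
        ext y
        constructor
        · rintro ⟨k1, k2, -⟩; exact ⟨k1, k2⟩
        · rintro ⟨k1, k2⟩; exact ⟨k1, k2, (ee_V913 S' k1 k2).2⟩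
      have eC : {y | dist y z = 1 ∧ T y = {c, d, e} ∧ y ∈ closure (Ex T z {c, d})} =
          {y | dist y z = 1 ∧ T y = {c, d, e}} := by
        ext y
        constructor
        · rintro ⟨k1, k2, -⟩; exact ⟨k1, k2⟩
        · rintro ⟨k1, k2⟩; exact ⟨k1, k2, (ee_Q913 S' k1 k2).2⟩
      have eA' : {y | dist y z = 1 ∧ T y = {a, b, e} ∧ y ∈ closure (Ex T z {a, b})} =
          {y | dist y z = 1 ∧ T y = {a, b, e}} := by
        ext y
        constructor
        · rintro ⟨k1, k2, -⟩; exact ⟨k1, k2⟩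
        · rintro ⟨k1, k2⟩; exact ⟨k1, k2, (ee_V913 S k1 k2).2⟩
      have eC' : {y | dist y z = 1 ∧ T y = {c, d, f} ∧ y ∈ closure (Ex T z {c, d})} =
          {y | dist y z = 1 ∧ T y = {c, d, f}} := by
        ext y
        constructor
        · rintro ⟨k1, k2, -⟩; exact ⟨k1, k2⟩
        · rintro ⟨k1, k2⟩; exact ⟨k1, k2, (ee_Q913 S k1 k2).2⟩
      rcases hc0 with ⟨n0, n3⟩ | ⟨n0, n3⟩
      · -- 1, 2, 1, 2
        have p1 := parA F hF n0 rfl
        rw [eA] at p1
        rcases hc1 with ⟨n1, n2⟩ | ⟨n1, n2⟩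
        · rw [n1] at p1; omega
        · exact ⟨a, b, c, d, e, f, q', Z, Or.inl ⟨F, hF, ⟨n0, by rw [eA]; exact n1,
            by rw [eC]; exact n2, n3, hj⟩, h6 _ _ _ _⟩⟩
      · have p1 := parA F hF n0 rfl
        rw [eA] at p1
        rcases hc1 with ⟨n1, n2⟩ | ⟨n1, n2⟩
        · have F' : CzF true true U T z a b c d f e :=
            ⟨S', fun _ y hy hT _ => S.cln y hy (Or.inl hT), fun _ y hy hT _ =>
              S.cln y hy (Or.inr hT)⟩
          have fA : {y | dist y z = 1 ∧ T y = {a, b, f}}.Finite :=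
            Set.finite_of_ncard_pos (by rw [n1]; norm_num)
          have fC : {y | dist y z = 1 ∧ T y = {c, d, e}}.Finite :=
            Set.finite_of_ncard_pos (by rw [n2]; norm_num)
          exact ⟨a, b, c, d, f, e, q', Z, Or.inl ⟨F', fin_ef913 hF fA fC, ⟨n1, by
            rw [eA']; exact n0, by rw [eC']; exact n3, n2, hj⟩, h6 _ _ _ _⟩⟩
        · rw [n1] at p1; omega
    · -- no second ends
      exfalso
      have p1 := parA (n1 := 0) F hF rfl (by
        have : {y | dist y z = 1 ∧ T y = {a, b, f} ∧ y ∈ closure (Ex T z {a, b})} = ∅ := by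
          ext y
          simp only [mem_ofPred_eq, mem_empty_iff_false, iff_false, not_and]
          exact fun h1 h2 => (hno y h1).1 h2
        rw [this, Set.ncard_empty])
      have p2 := parC (n2 := 0) F hF rfl (by
        have : {y | dist y z = 1 ∧ T y = {c, d, e} ∧ y ∈ closure (Ex T z {c, d})} = ∅ := by
          ext y
          simp only [mem_ofPred_eq, mem_empty_iff_false, iff_false, not_and]
          exact fun h1 h2 => (hno y h1).2 h2
        rw [this, Set.ncard_empty])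
      rcases hc0 with ⟨n0, n3⟩ | ⟨n0, n3⟩
      · rw [n3] at p2; omega
      · rw [n0] at p1; omega
  · have p1 := parA (n1 := 0) F hF rfl (by
      have : {y | dist y z = 1 ∧ T y = {a, b, f} ∧ y ∈ closure (Ex T z {a, b})} = ∅ := by
        ext y
        simp only [mem_ofPred_eq, mem_empty_iff_false, iff_false, not_and]
        exact fun h1 h2 => absurd h2 (hno y h1)
      rw [this, Set.ncard_empty])
    rcases hc0 with ⟨n0, n3⟩ | ⟨n0, n3⟩
    · exact ⟨a, b, c, d, e, f, q', Z, Or.inr (Or.inl ⟨v, q, F, hF, n0, n3, hj, hno, h6 _ _ _ _,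
        ev, Tv, eq, Tq⟩)⟩
    · rw [n0] at p1; omega
  · have p2 := parC (n2 := 0) F hF rfl (by
      have : {y | dist y z = 1 ∧ T y = {c, d, e} ∧ y ∈ closure (Ex T z {c, d})} = ∅ := by
        ext y
        simp only [mem_ofPred_eq, mem_empty_iff_false, iff_false, not_and]
        exact fun h1 h2 => absurd h2 (hno y h1)
      rw [this, Set.ncard_empty])
    rcases hc0 with ⟨n0, n3⟩ | ⟨n0, n3⟩
    · rw [n3] at p2; omega
    · exact ⟨a, b, c, d, e, f, q', Z, Or.inr (Or.inr ⟨v, q, F, hF, n0, n3, hj, hno, h6 _ _ _ _,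
        ev, Tv, eq, Tq⟩)⟩

/-- **the data of a comp centre with one `J`-partner** -/
theorem dat1_913 (h : Irr U T) (h5 : NoPair5 T) (hT : OnlyJT T) (hz : Comp T z) (hy : Jp T z y)
    (hu : ∀ y', Jp T z y' → y' = y) (HC : Hc913 T z) : ∃ φ, pt z φ = y ∧ Dat913 U T z φ := by
  have hD := hz.dpt h
  have w0 : ∀ y, dist y z = 1 → (T y).ncard ≤ 3 ∨ T y = T z := fun y hy => hT.w0 h5 hD hy
  obtain ⟨v, q, ev, eq, hc⟩ := hz
  obtain ⟨a, b, c, d, e, f, p, p', r, r', -, Z, S, hfin, Tv, Tq⟩ := H460.inst460 h w0 h5 ev eq hc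
  obtain ⟨φ, hφ⟩ := S5.H349.exists_pt hy.1
  have hJ : T (pt z φ) = T z := by rw [← hφ]; exact hy.2
  have hj : {y | dist y z = 1 ∧ T y = T z}.ncard = 1 := by
    rw [Set.ncard_eq_one]
    refine ⟨y, ?_⟩
    ext x
    constructor
    · intro hx; exact hu x hx
    · intro hx
      rw [mem_singleton_iff] at hx
      subst hx
      exact hy
  refine ⟨φ, hφ.symm, ?_⟩
  rcases base815 h S.dpt Z hJ with ⟨q', Z', h6⟩ | ⟨q', Z', h6⟩
  · exact dat_main913 h5 S hfin ev eq Tv Tq hc Z' h6 hj HC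
  · have hfin' : {y | dist y z = 1 ∧ H987.lb T z c d a b f e y ≠ 0}.Finite := by
      refine hfin.subset ?_
      rintro x ⟨hx, hl⟩
      refine ⟨hx, fun h0 => hl ?_⟩
      rw [H460.lb_swap460 S hx, h0]
      rfl
    exact dat_main913 h5 S.swap460 hfin' eq ev Tq Tv (by rw [hc, compl_compl]) Z' h6 hj HC

end Vale.Agent.P032.H913
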