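import Vale.Agent.P032.H913.Cnt1
import Vale.Agent.P032.H913.NoJ1

/-!
# P032: the numbers at a comp centre with two `J`-partners (helper913)

`k2_913` : from the counts of the complementary ends (`Hc913`) and the exclusion of one network
with the numbers `2, 1` (`Hx913`): both networks, with the numbers `1, 1, 2, 2` or `2, 2, 1, 1`.
-/

open Set Filter Topology Metric

noncomputable section

namespace Vale.Agent.P032.H913

open Vale.Agent.P032.Six Vale.Agent.P032.S5.H767 Vale.Agent.P032.S5.H349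
  Vale.Agent.P032.S5.H450
open Vale.Agent.P032.H987 hiding lb
open Vale.Agent.P032.H546 (Cnt)
open Vale.Agent.P032.H815
open Vale.Agent.P032.H594 (Comp Jp NoJ1 OnlyJT)
open Vale.Agent.P032.H471 (Sec4)

variable {U : Fin 6 → Set ℂ} {T : ℂ → Set (Fin 6)} {z v q y : ℂ} {a b c d e f : Fin 6} {φ : ℝ}

/-- no single network with two ends `{a, b, e}`, one end `{c, d, f}` and two `J`-partners -/
def Hx913 (U : Fin 6 → Set ℂ) (T : ℂ → Set (Fin 6)) (z : ℂ) : Prop :=
  ∀ a b c d e f p q, CzF true false U T z a b c d e f → Zn T z a b c d p q →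
    {y | dist y z = 1 ∧ lbF true false T z a b c d e f y ≠ 0}.Finite →
    {y | dist y z = 1 ∧ T y = {a, b, e}}.ncard = 2 →
    {y | dist y z = 1 ∧ T y = {c, d, f}}.ncard = 1 →
    {y | dist y z = 1 ∧ T y = T z}.ncard = 2 → (∀ y, dist y z = 1 → T y ≠ {a, b, f}) → False

theorem k2_main913 (h5 : ∀ x y, dist x y = 1 → 5 ≤ (T x).ncard → 4 ≤ (T y).ncard → False)
    (S : CzE U T z a b c d e f)
    (hfin : {y | dist y z = 1 ∧ H987.lb T z a b c d e f y ≠ 0}.Finite)
    (ev : EE T z v) (eq : EE T z q) (Tv : T v = {a, b, e}) (Tq : T q = {c, d, f})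
    (hc : T q = (T v)ᶜ) {p' q' : ℝ} (Z : Zn T z a b c d p' q')
    (hj : {y | dist y z = 1 ∧ T y = T z}.ncard = 2) (HC : Hc913 T z) (HX : Hx913 U T z) :
    ∃ a b c d e f p q, CzF true true U T z a b c d e f ∧ Zn T z a b c d p q ∧
      {y | dist y z = 1 ∧ lbF true true T z a b c d e f y ≠ 0}.Finite ∧
      (Cnt T z a b c d e f 1 1 2 2 2 ∨ Cnt T z a b c d e f 2 2 1 1 2) := by
  have hc0 := HC v q ev eq hc
  rw [Tv, Tq] at hc0
  -- parities
  have parC : ∀ {g1 : Bool} {n2 n3 : ℕ}, CzF g1 true U T z a b c d e f →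
      {y | dist y z = 1 ∧ lbF g1 true T z a b c d e f y ≠ 0}.Finite →
      {y | dist y z = 1 ∧ T y = {c, d, f}}.ncard = n3 →
      {y | dist y z = 1 ∧ T y = {c, d, e} ∧ y ∈ closure (Ex T z {c, d})}.ncard = n2 →
      (n3 + n2 + 2) % 2 = 0 := fun F hF k1 k2 =>
    parA_913 (czf_swg815 F) (fin_swg913 hF) k1 k2 hj
  have parA : ∀ {g2 : Bool} {n0 n1 : ℕ}, CzF true g2 U T z a b c d e f →
      {y | dist y z = 1 ∧ lbF true g2 T z a b c d e f y ≠ 0}.Finite →
      {y | dist y z = 1 ∧ T y = {a, b, e}}.ncard = n0 →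
      {y | dist y z = 1 ∧ T y = {a, b, f} ∧ y ∈ closure (Ex T z {a, b})}.ncard = n1 →
      (n0 + n1 + 2) % 2 = 0 := fun F hF k1 k2 => parA_913 F hF k1 k2 hj
  rcases S.full h5 hfin with ⟨F, hF, hcase⟩ | ⟨F, hF, hno⟩ | ⟨F, hF, hno⟩
  · -- both networks
    rcases hcase with ⟨v', q2, hv', hq', Tv', Tq', hop, S', hfin'⟩ | hno
    · have ev' := (ee_V913 S' hv' Tv').1
      have eq' := (ee_Q913 S' hq' Tq').1
      have C' := S'.toCz
      have hc' : T q2 = (T v')ᶜ := by rw [Tq', Tv', compl987 C']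
      have hc1 := HC v' q2 ev' eq' hc'
      rw [Tv', Tq'] at hc1
      have eA : {y | dist y z = 1 ∧ T y = {a, b, f} ∧ y ∈ closure (Ex T z {a, b})} =
          {y | dist y z = 1 ∧ T y = {a, b, f}} := by
        ext y
        constructor
        · rintro ⟨k1, k2, -⟩; exact ⟨k1, k2⟩
        · rintro ⟨k1, k2⟩; exact ⟨k1, k2, (ee_V913 S' k1 k2).2⟩
      have eC : {y | dist y z = 1 ∧ T y = {c, d, e} ∧ y ∈ closure (Ex T z {c, d})} =
          {y | dist y z = 1 ∧ T y = {c, d, e}} := by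
        ext y
        constructor
        · rintro ⟨k1, k2, -⟩; exact ⟨k1, k2⟩
        · rintro ⟨k1, k2⟩; exact ⟨k1, k2, (ee_Q913 S' k1 k2).2⟩
      rcases hc0 with ⟨n0, n3⟩ | ⟨n0, n3⟩
      · have p1 := parA F hF n0 rfl
        rw [eA] at p1
        rcases hc1 with ⟨n1, n2⟩ | ⟨n1, n2⟩
        · exact ⟨a, b, c, d, e, f, p', q', F, Z, hF, Or.inl ⟨n0, by rw [eA]; exact n1,
            by rw [eC]; exact n2, n3, hj⟩⟩
        · rw [n1] at p1; omega
      · have p1 := parA F hF n0 rfl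
        rw [eA] at p1
        rcases hc1 with ⟨n1, n2⟩ | ⟨n1, n2⟩
        · rw [n1] at p1; omega
        · exact ⟨a, b, c, d, e, f, p', q', F, Z, hF, Or.inr ⟨n0, by rw [eA]; exact n1,
            by rw [eC]; exact n2, n3, hj⟩⟩
    · -- no second ends
      exfalso
      have p1 := parA (n1 := 0) F hF rfl (by
        have : {y | dist y z = 1 ∧ T y = {a, b, f} ∧ y ∈ closure (Ex T z {a, b})} = ∅ := by
          ext y
          simp only [mem_ofPred_eq, mem_empty_iff_false, iff_false, not_and]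
          exact fun h1 h2 => (hno y h1).1 h2
        rw [this, Set.ncard_empty])
      have p2 := parC (n2 := 0) F hF rfl (by
        have : {y | dist y z = 1 ∧ T y = {c, d, e} ∧ y ∈ closure (Ex T z {c, d})} = ∅ := by
          ext y
          simp only [mem_ofPred_eq, mem_empty_iff_false, iff_false, not_and]
          exact fun h1 h2 => (hno y h1).2 h2
        rw [this, Set.ncard_empty])
      rcases hc0 with ⟨n0, n3⟩ | ⟨n0, n3⟩
      · rw [n0] at p1; omega
      · rw [n3] at p2; omega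
  · exfalso
    have p1 := parA (n1 := 0) F hF rfl (by
      have : {y | dist y z = 1 ∧ T y = {a, b, f} ∧ y ∈ closure (Ex T z {a, b})} = ∅ := by
        ext y
        simp only [mem_ofPred_eq, mem_empty_iff_false, iff_false, not_and]
        exact fun h1 h2 => absurd h2 (hno y h1)
      rw [this, Set.ncard_empty])
    rcases hc0 with ⟨n0, n3⟩ | ⟨n0, n3⟩
    · rw [n0] at p1; omega
    · exact HX a b c d e f p' q' F Z hF n0 n3 hj hno
  · exfalso
    have p2 := parC (n2 := 0) F hF rfl (by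
      have : {y | dist y z = 1 ∧ T y = {c, d, e} ∧ y ∈ closure (Ex T z {c, d})} = ∅ := by
        ext y
        simp only [mem_ofPred_eq, mem_empty_iff_false, iff_false, not_and]
        exact fun h1 h2 => absurd h2 (hno y h1)
      rw [this, Set.ncard_empty])
    rcases hc0 with ⟨n0, n3⟩ | ⟨n0, n3⟩
    · exact HX c d a b f e _ _ (czf_swg815 F) (znsw815 Z) (fin_swg913 hF) n3 n0 hj hno
    · rw [n3] at p2; omega

/-- **the numbers of a comp centre with two `J`-partners** -/
theorem k2_913 (h : Irr U T) (h5 : NoPair5 T) (hT : OnlyJT T) (hz : Comp T z) {y y' : ℂ}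
    (hy : Jp T z y) (hy' : Jp T z y') (hne : y ≠ y') (HC : Hc913 T z) (HX : Hx913 U T z) :
    ∃ a b c d e f p q, CzF true true U T z a b c d e f ∧ Zn T z a b c d p q ∧
      {y | dist y z = 1 ∧ lbF true true T z a b c d e f y ≠ 0}.Finite ∧
      (Cnt T z a b c d e f 1 1 2 2 2 ∨ Cnt T z a b c d e f 2 2 1 1 2) := by
  have hD := hz.dpt h
  have w0 : ∀ y, dist y z = 1 → (T y).ncard ≤ 3 ∨ T y = T z := fun y hy => hT.w0 h5 hD hy
  have hj : {y | dist y z = 1 ∧ T y = T z}.ncard = 2 := by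
    rw [Set.ncard_eq_two]
    refine ⟨y, y', hne, ?_⟩
    ext x
    constructor
    · intro hx
      rcases hz.two h hy hy' (y'' := x) hx hne.symm with k | k
      · exact Or.inl k
      · exact Or.inr k
    · rintro (hx | hx)
      · rw [hx]; exact hy
      · rw [mem_singleton_iff] at hx
        rw [hx]; exact hy'
  obtain ⟨v, q, ev, eq, hc⟩ := hz
  obtain ⟨a, b, c, d, e, f, p, p', r, r', -, Z, S, hfin, Tv, Tq⟩ := H460.inst460 h w0 h5 ev eq hc
  exact k2_main913 h5 S hfin ev eq Tv Tq hc Z hj HC HX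

theorem k2_of913 (H : ∃ a b c d e f p q, CzF true true U T z a b c d e f ∧ Zn T z a b c d p q ∧
      {y | dist y z = 1 ∧ lbF true true T z a b c d e f y ≠ 0}.Finite ∧
      (Cnt T z a b c d e f 1 1 2 2 2 ∨ Cnt T z a b c d e f 2 2 1 1 2)) : K2 U T z := by
  obtain ⟨a, b, c, d, e, f, p, q, F, -, hF, hC⟩ := H
  exact ⟨a, b, c, d, e, f, F, hF, hC⟩

end Vale.Agent.P032.H913
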