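import Vale.Agent.P032.H913.Apex
import Vale.Agent.P032.H695.TwoSq3
import Vale.Agent.P032.H838.NC
import Vale.Agent.P032.H594.JSg

/-!
# P032: the full words of a centre with one `J`-partner (helper913)

`F1 T z a b c d e f φ x0 .. x2'` : the circle `S(z)` seen from the `J`-partner in the direction `φ`
(units of 60 degrees): three blocks, the letter `f` before and after the block of `J`, different
letters before and after the two other blocks.

* `F1.even` : the winding number is even;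
* `F1.strict`, `F1.N0` : no tie at distance one from the `J`-partner, `e` meets no arc in
  `[φ - 1, φ + 1]`;
* `f1f1_913` : two `J`-partners with these words do not exist.
-/

open Set Filter Topology Metric

noncomputable section

namespace Vale.Agent.P032.H913

open Vale.Agent.P032.Six Vale.Agent.P032.S5.H767 Vale.Agent.P032.S5.H122 Vale.Agent.P032.Sweep
open Vale.Agent.P032.H594 (JPair Ad Sd Blk Bf Af Eqs Dif SG Ad_swap Ad_per)
open Vale.Agent.P032.H471 (Sec4 cov471 compl_of_nodup)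
open Vale.Agent.P032.H695 (oend_arc ee_arc Wd wd_false)

variable {U : Fin 6 → Set ℂ} {T : ℂ → Set (Fin 6)} {z y : ℂ} {a b c d e f : Fin 6}
  {φ x0 x0' x1 x1' x2 x2' : ℝ}

/-- the label words of a centre with one `J`-partner, seen from it -/
structure F1 (T : ℂ → Set (Fin 6)) (z : ℂ) (a b c d e f : Fin 6)
    (φ x0 x0' x1 x1' x2 x2' : ℝ) : Prop where
  blk : Blk (Ad T z {a, b} {c, d}) φ x0 x0' x1 x1' x2 x2'
  A0 : ∀ t ∈ Ioo x0 φ, T (pt z t) = {c, d}
  A0' : ∀ t ∈ Ioo φ x0', T (pt z t) = {a, b}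
  A1 : ∀ t ∈ Ioo x1 x1', T (pt z t) = {c, d}
  A2 : ∀ t ∈ Ioo x2 x2', T (pt z t) = {a, b}
  p0 : T (pt z x0) = {c, d, f}
  p0' : T (pt z x0') = {a, b, f}
  w1 : (T (pt z x1) = {c, d, e} ∧ T (pt z x1') = {c, d, f}) ∨
    (T (pt z x1) = {c, d, f} ∧ T (pt z x1') = {c, d, e})
  w2 : (T (pt z x2) = {a, b, f} ∧ T (pt z x2') = {a, b, e}) ∨
    (T (pt z x2) = {a, b, e} ∧ T (pt z x2') = {a, b, f})

/-- palettes of ends, membership of the free colours -/
structure Lrs (a b c d e f : Fin 6) : Prop where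
  abe : f ∉ ({a, b, e} : Set (Fin 6))
  abf : e ∉ ({a, b, f} : Set (Fin 6))
  cde : f ∉ ({c, d, e} : Set (Fin 6))
  cdf : e ∉ ({c, d, f} : Set (Fin 6))

theorem lrs913 (nd : [a, b, c, d, e, f].Nodup) : Lrs a b c d e f := by
  obtain ⟨⟨ab, ac, ad, ae, af⟩, ⟨bc, bd, be, bf⟩, ⟨cd, ce, cf⟩, ⟨de, df⟩, ef⟩ :=
    S5.H349.nd_ne nd
  refine ⟨?_, ?_, ?_, ?_⟩
  · rintro (h | h | h)
    exacts [af h.symm, bf h.symm, ef h.symm]
  · rintro (h | h | h)
    exacts [ae h.symm, be h.symm, ef h]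
  · rintro (h | h | h)
    exacts [cf h.symm, df h.symm, ef h.symm]
  · rintro (h | h | h)
    exacts [ce h.symm, de h.symm, ef h]

/-! ### Names -/

theorem tri_congr {a b a' b' : Fin 6} (h : ({a', b'} : Set (Fin 6)) = {a, b}) (e : Fin 6) :
    ({a', b', e} : Set (Fin 6)) = {a, b, e} := by
  have h1 : ∀ p q : Fin 6, ({p, q, e} : Set (Fin 6)) = {p, q} ∪ {e} := by
    intro p q
    ext i
    simp only [mem_insert_iff, mem_singleton_iff, mem_union]
    tauto
  rw [h1, h1, h]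

/-- the names inside the pairs do not matter -/
theorem F1.congr {a' b' c' d' : Fin 6} (F : F1 T z a' b' c' d' e f φ x0 x0' x1 x1' x2 x2')
    (h1 : ({a', b'} : Set (Fin 6)) = {a, b}) (h2 : ({c', d'} : Set (Fin 6)) = {c, d}) :
    F1 T z a b c d e f φ x0 x0' x1 x1' x2 x2' where
  blk := by rw [← h1, ← h2]; exact F.blk
  A0 := by rw [← h2]; exact F.A0
  A0' := by rw [← h1]; exact F.A0'
  A1 := by rw [← h2]; exact F.A1
  A2 := by rw [← h1]; exact F.A2
  p0 := by rw [← tri_congr h2]; exact F.p0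
  p0' := by rw [← tri_congr h1]; exact F.p0'
  w1 := by rw [← tri_congr h2, ← tri_congr h2]; exact F.w1
  w2 := by rw [← tri_congr h1, ← tri_congr h1]; exact F.w2

/-! ### The ends -/

/-- the six far ends are ends in the sense of `EE` -/
theorem F1.ends (F : F1 T z a b c d e f φ x0 x0' x1 x1' x2 x2') (hz : DPt T z a b c d)
    (he : e ∉ T z) (hf : f ∉ T z) : EE T z (pt z x0) ∧ EE T z (pt z x0') ∧ EE T z (pt z x1) ∧
      EE T z (pt z x1') ∧ EE T z (pt z x2) ∧ EE T z (pt z x2') := by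
  have B := F.blk
  have up : ∀ {P Q R S : Fin 6} {g : Fin 6} {x ε : ℝ}, DPt T z P Q R S → g ∉ T z →
      T (pt z x) = {P, Q, g} → 0 < ε → (∀ t ∈ Ioo x (x + ε), T (pt z t) = {P, Q}) →
      EE T z (pt z x) := by
    intro P Q R S g x ε hz hg hT hε h
    refine ee_arc hz hg hT (oend_arc hz hg (Or.inr rfl) hT hε fun r h1 h2 => ?_)
    rw [show x - -1 * r = x + r by ring]
    exact h _ ⟨by linarith, by linarith⟩
  have dn : ∀ {P Q R S : Fin 6} {g : Fin 6} {x ε : ℝ}, DPt T z P Q R S → g ∉ T z →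
      T (pt z x) = {P, Q, g} → 0 < ε → (∀ t ∈ Ioo (x - ε) x, T (pt z t) = {P, Q}) →
      EE T z (pt z x) := by
    intro P Q R S g x ε hz hg hT hε h
    refine ee_arc hz hg hT (oend_arc hz hg (Or.inl rfl) hT hε fun r h1 h2 => ?_)
    rw [show x - 1 * r = x - r by ring]
    exact h _ ⟨by linarith, by linarith⟩
  have b0 := B.b0
  have c0 := B.c0
  have b1 := B.b1
  have b2 := B.b2
  have A0 := F.A0
  have A0' := F.A0'
  have A1 := F.A1
  have A2 := F.A2
  refine ⟨up hz.swap hf F.p0 (ε := φ - x0) (by linarith) ?_, dn hz hf F.p0' (ε := x0' - φ)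
    (by linarith) ?_, ?_, ?_, ?_, ?_⟩
  · intro t ht
    exact A0 t ⟨ht.1, by linarith [ht.2]⟩
  · intro t ht
    exact A0' t ⟨by linarith [ht.1], ht.2⟩
  · have k : ∀ t ∈ Ioo x1 (x1 + (x1' - x1)), T (pt z t) = {c, d} := fun t ht =>
      A1 t ⟨ht.1, by linarith [ht.2]⟩
    rcases F.w1 with w | w
    · exact up hz.swap he w.1 (by linarith) k
    · exact up hz.swap hf w.1 (by linarith) k
  · have k : ∀ t ∈ Ioo (x1' - (x1' - x1)) x1', T (pt z t) = {c, d} := fun t ht =>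
      A1 t ⟨by linarith [ht.1], ht.2⟩
    rcases F.w1 with w | w
    · exact dn hz.swap hf w.2 (by linarith) k
    · exact dn hz.swap he w.2 (by linarith) k
  · have k : ∀ t ∈ Ioo x2 (x2 + (x2' - x2)), T (pt z t) = {a, b} := fun t ht =>
      A2 t ⟨ht.1, by linarith [ht.2]⟩
    rcases F.w2 with w | w
    · exact up hz hf w.1 (by linarith) k
    · exact up hz he w.1 (by linarith) k
  · have k : ∀ t ∈ Ioo (x2' - (x2' - x2)) x2', T (pt z t) = {a, b} := fun t ht =>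
      A2 t ⟨by linarith [ht.1], ht.2⟩
    rcases F.w2 with w | w
    · exact dn hz he w.2 (by linarith) k
    · exact dn hz hf w.2 (by linarith) k

theorem pt_inj913 {s t : ℝ} (h1 : s < t) (h2 : t < s + 6) : pt z s ≠ pt z t := by
  intro h
  obtain ⟨n, hn⟩ := S5.H349.pt_eq h
  rcases lt_trichotomy n 0 with k | k | k
  · have : (n : ℝ) ≤ -1 := by exact_mod_cast Int.le_sub_one_of_lt k
    linarith
  · rw [k] at hn; push_cast at hn; linarith
  · have : (1 : ℝ) ≤ n := by exact_mod_cast k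
    linarith

/-- complements of the palettes of the ends -/
theorem compl913 (nd : [a, b, c, d, e, f].Nodup) :
    ({c, d, f} : Set (Fin 6)) = ({a, b, e} : Set (Fin 6))ᶜ ∧
      ({a, b, f} : Set (Fin 6)) = ({c, d, e} : Set (Fin 6))ᶜ ∧
      ({c, d, e} : Set (Fin 6)) = ({a, b, f} : Set (Fin 6))ᶜ ∧
      ({a, b, e} : Set (Fin 6)) = ({c, d, f} : Set (Fin 6))ᶜ := by
  obtain ⟨⟨ab, ac, ad, ae, af⟩, ⟨bc, bd, be, bf⟩, ⟨cd, ce, cf⟩, ⟨de, df⟩, ef⟩ :=
    S5.H349.nd_ne nd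
  have n1 : [c, d, f, a, b, e].Nodup := by
    simp only [List.nodup_cons, List.mem_cons, List.not_mem_nil, or_false, not_or, List.nodup_nil,
      and_true, not_false_eq_true]
    exact ⟨⟨cd, cf, ac.symm, bc.symm, ce⟩, ⟨df, ad.symm, bd.symm, de⟩, ⟨af.symm, bf.symm, ef.symm⟩,
      ⟨ab, ae⟩, be⟩
  have n2 : [a, b, f, c, d, e].Nodup := by
    simp only [List.nodup_cons, List.mem_cons, List.not_mem_nil, or_false, not_or, List.nodup_nil,
      and_true, not_false_eq_true]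
    exact ⟨⟨ab, af, ac, ad, ae⟩, ⟨bf, bc, bd, be⟩, ⟨cf.symm, df.symm, ef.symm⟩, ⟨cd, ce⟩, de⟩
  have k1 := compl_of_nodup n1
  have k2 := compl_of_nodup n2
  refine ⟨?_, ?_, ?_, ?_⟩
  · rw [← k1, compl_compl]
  · rw [← k2, compl_compl]
  · exact k2.symm
  · exact k1.symm

/-- **no ties at distance one from the `J`-partner** -/
theorem F1.strict (S : JPair U T z y a b c d e f) (hS : Sec4 T) (hφ : pt z φ = y)
    (F : F1 T z a b c d e f φ x0 x0' x1 x1' x2 x2') : φ + 1 < x1 ∧ x2' < φ + 5 := by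
  have B := F.blk
  have a0 := B.a0
  have b0 := B.b0
  have c0 := B.c0
  have d0 := B.d0
  have a1 := B.a1
  have b1 := B.b1
  have c1 := B.c1
  have a2 := B.a2
  have b2 := B.b2
  have c2 := B.c2
  obtain ⟨k1, k2, k3, k4⟩ := compl913 S.nd
  obtain ⟨E0, E0', E1, E1', E2, E2'⟩ := F.ends S.hz S.e_not S.f_not
  constructor
  · by_contra hcon
    have hx : x1 = φ + 1 := by linarith
    subst hx
    rcases F.w1 with w | w
    · exact no_end_pt913 S hS hφ (Or.inl (Or.inr w.1)) E1 E0' (by rw [F.p0', w.1, k2])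
        (pt_inj913 (by linarith) (by linarith))
    · rcases F.w2 with w' | w'
      · exact no_end_pt913 S hS hφ (Or.inr (Or.inr w.1)) E1 E2' (by rw [w'.2, w.1, k4])
          (pt_inj913 (s := φ + 2) (by linarith) (by linarith)).symm
      · exact no_end_pt913 S hS hφ (Or.inr (Or.inr w.1)) E1 E2 (by rw [w'.1, w.1, k4])
          (pt_inj913 (s := φ + 2) (by linarith) (by linarith)).symm
  · by_contra hcon
    have hx : x2' = φ + 5 := by linarith
    subst hx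
    rcases F.w2 with w | w
    · exact no_end_pt913' S hS hφ (Or.inl (Or.inl w.2)) E2' E0 (by rw [F.p0, w.2, k1]) (by
        rw [← pt_six z x0]; exact (pt_inj913 (by linarith) (by linarith)).symm)
    · rcases F.w1 with w' | w'
      · exact no_end_pt913' S hS hφ (Or.inr (Or.inl w.2)) E2' E1 (by rw [w'.1, w.2, k3])
          (pt_inj913 (by linarith) (by linarith))
      · exact no_end_pt913' S hS hφ (Or.inr (Or.inl w.2)) E2' E1' (by rw [w'.2, w.2, k3])
          (pt_inj913 (by linarith) (by linarith))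

/-- `e` meets no arc in the directions `[φ - 1, φ + 1]` -/
theorem F1.N0 (S : JPair U T z y a b c d e f) (hS : Sec4 T) (hφ : pt z φ = y)
    (F : F1 T z a b c d e f φ x0 x0' x1 x1' x2 x2') :
    ∀ t ∈ Icc (φ - 1) (φ + 1), e ∈ T (pt z t) → t ∉ Ad T z {a, b} {c, d} := by
  intro t ht he hA
  have B := F.blk
  obtain ⟨s1, s2⟩ := F.strict S hS hφ
  have L := lrs913 S.nd
  rcases ht.1.eq_or_lt with h0 | h0
  · have h1 := B.a0
    have h2 := B.c0
    have h3 := B.d0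
    rw [← h0, ← Ad_per, show φ - 1 + 6 = φ + 5 by ring, B.mem _ (by linarith) (by linarith)] at hA
    have := B.c1
    rcases hA with k | k | k <;> linarith [k.2]
  obtain ⟨⟨ab, ac, ad, ae, af⟩, ⟨bc, bd, be, bf⟩, ⟨cd, ce, cf⟩, ⟨de, df⟩, ef⟩ :=
    S5.H349.nd_ne S.nd
  have c1 := B.c1
  have a2 := B.a2
  rw [B.mem t h0 (by linarith [ht.2])] at hA
  rcases hA with k | k | k
  · rcases k.1.lt_or_eq with k1 | k1
    swap
    · rw [← k1, F.p0] at he; exact L.cdf he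
    rcases k.2.lt_or_eq with k2 | k2
    swap
    · rw [k2, F.p0'] at he; exact L.abf he
    rcases lt_trichotomy t φ with k3 | k3 | k3
    · rw [F.A0 t ⟨k1, k3⟩] at he
      rcases he with he | he
      · exact ce he.symm
      · exact de he.symm
    · rw [k3, hφ, S.Tyz] at he
      exact S.e_not he
    · rw [F.A0' t ⟨k3, k2⟩] at he
      rcases he with he | he
      · exact ae he.symm
      · exact be he.symm
  · linarith [k.1, ht.2]
  · linarith [k.1, ht.2, B.b1]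

/-! ### Signs -/

/-- the signs of the first circle -/
theorem F1.sgz (S : JPair U T z y a b c d e f) (F : F1 T z a b c d e f φ x0 x0' x1 x1' x2 x2') :
    (Bf (Sd T z y e f) x0 ∧ Af (Sd T z y e f) x0') ∧
    ((T (pt z x1) = {c, d, e} ∧ T (pt z x1') = {c, d, f} ∧ Bf (Sd T z y f e) x1 ∧
        Af (Sd T z y e f) x1') ∨ (Bf (Sd T z y e f) x1 ∧ Af (Sd T z y f e) x1')) ∧
    ((T (pt z x2) = {a, b, f} ∧ T (pt z x2') = {a, b, e} ∧ Bf (Sd T z y e f) x2 ∧
        Af (Sd T z y f e) x2') ∨ (Bf (Sd T z y f e) x2 ∧ Af (Sd T z y e f) x2')) := by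
  obtain ⟨⟨g0, g1, g2⟩, g0', g1', g2'⟩ := H838.Blk.evs F.blk (Ad_per _ _)
  have L := lrs913 S.nd
  refine ⟨⟨S.bz' g0 (by rw [F.p0]; exact L.cdf), S.az' g0' (by rw [F.p0']; exact L.abf)⟩, ?_, ?_⟩
  · rcases F.w1 with w | w
    · exact Or.inl ⟨w.1, w.2, S.bz g1 (by rw [w.1]; exact L.cde),
        S.az' g1' (by rw [w.2]; exact L.cdf)⟩
    · exact Or.inr ⟨S.bz' g1 (by rw [w.1]; exact L.cdf), S.az g1' (by rw [w.2]; exact L.cde)⟩
  · rcases F.w2 with w | w
    · exact Or.inl ⟨w.1, w.2, S.bz' g2 (by rw [w.1]; exact L.abf),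
        S.az g2' (by rw [w.2]; exact L.abe)⟩
    · exact Or.inr ⟨S.bz g2 (by rw [w.1]; exact L.abe), S.az' g2' (by rw [w.2]; exact L.abf)⟩

/-! ### Renaming of a pair -/

/-- exchange inside both pairs -/
theorem ren1 (S : JPair U T z y a b c d e f) : JPair U T z y b a d c e f where
  irr := S.irr
  hz := S.hz.swap12.swap34
  hy := S.hy.swap
  nd := by
    obtain ⟨⟨ab, ac, ad, ae, af⟩, ⟨bc, bd, be, bf⟩, ⟨cd, ce, cf⟩, ⟨de, df⟩, ef⟩ :=
      S5.H349.nd_ne S.nd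
    simp only [List.nodup_cons, List.mem_cons, List.not_mem_nil, or_false, not_or, List.nodup_nil,
      and_true, not_false_eq_true]
    exact ⟨⟨ab.symm, bd, bc, be, bf⟩, ⟨ad, ac, ae, af⟩, ⟨cd.symm, de, df⟩, ⟨ce, cf⟩, ef⟩
  dyz := S.dyz
  wz := S.wz
  wy := S.wy

/-- exchange of the pairs -/
theorem ren2 (S : JPair U T z y a b c d e f) : JPair U T z y c d a b e f where
  irr := S.irr
  hz := S.hz.swap
  hy := S.hy.swap12.swap34
  nd := by
    obtain ⟨⟨ab, ac, ad, ae, af⟩, ⟨bc, bd, be, bf⟩, ⟨cd, ce, cf⟩, ⟨de, df⟩, ef⟩ :=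
      S5.H349.nd_ne S.nd
    simp only [List.nodup_cons, List.mem_cons, List.not_mem_nil, or_false, not_or, List.nodup_nil,
      and_true, not_false_eq_true]
    exact ⟨⟨cd, ac.symm, bc.symm, ce, cf⟩, ⟨ad.symm, bd.symm, de, df⟩, ⟨ab, ae, af⟩, ⟨be, bf⟩, ef⟩
  dyz := S.dyz
  wz := S.wz
  wy := S.wy

/-! ### Two centres with full words -/

/-- shift of the blocks -/
theorem blk_shift {Z : Set ℝ} {c : ℝ} (B : Blk Z (c + φ) x0 x0' x1 x1' x2 x2') :
    Blk {t | t + φ ∈ Z} c (x0 - φ) (x0' - φ) (x1 - φ) (x1' - φ) (x2 - φ) (x2' - φ) where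
  a0 := by have := B.a0; linarith
  b0 := by have := B.b0; linarith
  c0 := by have := B.c0; linarith
  d0 := by have := B.d0; linarith
  a1 := by have := B.a1; linarith
  b1 := by have := B.b1; linarith
  c1 := by have := B.c1; linarith
  a2 := by have := B.a2; linarith
  b2 := by have := B.b2; linarith
  c2 := by have := B.c2; linarith
  mem := fun t h1 h2 => by
    show t + φ ∈ Z ↔ _
    rw [B.mem (t + φ) (by linarith) (by linarith)]
    simp only [sub_le_iff_le_add, le_sub_iff_add_le]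

theorem bf_of_sh {N : Set ℝ} {x : ℝ} (h : Bf {t | t + φ ∈ N} (x - φ)) : Bf N x := by
  obtain ⟨δ, hδ, h1⟩ := h.exists
  refine H594.bf_of hδ fun t k1 k2 k3 => h1 (t - φ) (by linarith) (by linarith) ?_
  show t - φ + φ ∈ N
  rw [sub_add_cancel]; exact k3

theorem af_of_sh {N : Set ℝ} {x : ℝ} (h : Af {t | t + φ ∈ N} (x - φ)) : Af N x := by
  obtain ⟨δ, hδ, h1⟩ := h.exists
  refine H594.af_of hδ fun t k1 k2 k3 => h1 (t - φ) (by linarith) (by linarith) ?_
  show t - φ + φ ∈ N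
  rw [sub_add_cancel]; exact k3

variable {y0 y0' y1 y1' y2 y2' : ℝ}

/-- the signs of the second circle and the conclusion, with signs as hypotheses -/
theorem f1f1_core913 (hS : Sec4 T) (S : JPair U T z y a b c d e f) (hφ : pt z φ = y)
    (FZ : F1 T z a b c d e f φ x0 x0' x1 x1' x2 x2')
    (FY : F1 T y b d a c f e (φ + 3) y0 y0' y1 y1' y2 y2' ∨
      F1 T y b d a c e f (φ + 3) y0 y0' y1 y1' y2 y2') : False := by
  have J := S.sg
  have BZ : Blk {t | t + φ ∈ Ad T z {a, b} {c, d}} 0 (x0 - φ) (x0' - φ) (x1 - φ) (x1' - φ)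
      (x2 - φ) (x2' - φ) := by
    refine blk_shift ?_
    rw [zero_add]; exact FZ.blk
  have BY : Blk {t | t + φ ∈ Ad T y {a, c} {b, d}} 3 (y0 - φ) (y0' - φ) (y1 - φ) (y1' - φ)
      (y2 - φ) (y2' - φ) := by
    refine blk_shift ?_
    rw [add_comm 3 φ, Ad_swap]
    rcases FY with F | F <;> exact F.blk
  have S' : JPair U T y z b d a c f e := (ren1 (ren2 (ren1 S.swap))).efs
  obtain ⟨⟨u1, u2⟩, u3, u4⟩ := FZ.sgz S
  have not1 : ∀ x, Bf (Sd T z y e f) x → Bf (Sd T z y f e) x → False := fun x h1 h2 =>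
    J.not_both_bf h2 h1
  have not2 : ∀ x, Af (Sd T z y e f) x → Af (Sd T z y f e) x → False := fun x h1 h2 =>
    J.not_both_af h2 h1
  have e0 : Eqs {t | t + φ ∈ Sd T z y e f} {t | t + φ ∈ Sd T z y f e} (x0 - φ) (x0' - φ) :=
    Or.inr ⟨H594.bf_sh u1, H594.af_sh u2⟩
  have d1 : Dif {t | t + φ ∈ Sd T z y e f} {t | t + φ ∈ Sd T z y f e} (x1 - φ) (x1' - φ) :=
    Dif.sh (by rcases u3 with k | k; exacts [Or.inl ⟨k.2.2.1, k.2.2.2⟩, Or.inr ⟨k.1, k.2⟩])
  have d2 : Dif {t | t + φ ∈ Sd T z y e f} {t | t + φ ∈ Sd T z y f e} (x2 - φ) (x2' - φ) :=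
    Dif.sh (by rcases u4 with k | k; exacts [Or.inr ⟨k.2.2.1, k.2.2.2⟩, Or.inl ⟨k.1, k.2⟩])
  rcases FY with FY | FY
  · obtain ⟨⟨v1, v2⟩, v3, v4⟩ := FY.sgz S'
    simp only [H594.Sd_swap (T := T) (z := z) (y := y)] at v1 v2 v3 v4
    have f0 : Eqs {t | t + φ ∈ Sd T z y e f} {t | t + φ ∈ Sd T z y f e} (y0 - φ) (y0' - φ) :=
      Or.inr ⟨H594.bf_sh v1, H594.af_sh v2⟩
    have g1 : Dif {t | t + φ ∈ Sd T z y e f} {t | t + φ ∈ Sd T z y f e} (y1 - φ) (y1' - φ) :=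
      Dif.sh (by rcases v3 with k | k; exacts [Or.inl ⟨k.2.2.1, k.2.2.2⟩, Or.inr ⟨k.1, k.2⟩])
    have g2 : Dif {t | t + φ ∈ Sd T z y e f} {t | t + φ ∈ Sd T z y f e} (y2 - φ) (y2' - φ) :=
      Dif.sh (by rcases v4 with k | k; exacts [Or.inr ⟨k.2.2.1, k.2.2.2⟩, Or.inl ⟨k.1, k.2⟩])
    obtain ⟨h1, h2, h3, h4, h5, h6, -, -, hq⟩ := (J.shift φ).j1j1 BZ BY e0 d1 d2 f0 g1 g2
    rcases hq with hq | hq
    · exact not1 _ u1 (bf_of_sh hq.z0)
    refine wd_false hS S (φ := φ) hφ.symm (z0 := x0) (z0' := x0') (z1 := x1) (z1' := x1')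
      (z2 := x2) (z2' := x2') (y0 := y0) (y0' := y0') (y1 := y1) (y1' := y1') (y2 := y2)
      (y2' := y2') ?_ ?_ (by linarith) (by linarith) (by linarith) (by linarith) (by linarith)
      (by linarith)
    · have w1 : T (pt z x1) = {c, d, e} ∧ T (pt z x1') = {c, d, f} := by
        rcases u3 with k | k
        · exact ⟨k.1, k.2.1⟩
        · exact (not1 _ k.1 (bf_of_sh hq.z1)).elim
      have w2 : T (pt z x2) = {a, b, f} ∧ T (pt z x2') = {a, b, e} := by
        rcases u4 with k | k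
        · exact ⟨k.1, k.2.1⟩
        · exact (not1 _ (bf_of_sh hq.z2) k.1).elim
      exact ⟨FZ.blk, FZ.A0, FZ.A0', FZ.A1, FZ.A2, FZ.p0, FZ.p0', w1.1, w1.2, w2.1, w2.2⟩
    · have w1 : T (pt y y1) = {a, c, f} ∧ T (pt y y1') = {a, c, e} := by
        rcases v3 with k | k
        · exact ⟨k.1, k.2.1⟩
        · exact (not1 _ k.1 (bf_of_sh hq.y1)).elim
      have w2 : T (pt y y2) = {b, d, e} ∧ T (pt y y2') = {b, d, f} := by
        rcases v4 with k | k
        · exact ⟨k.1, k.2.1⟩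
        · exact (not1 _ (bf_of_sh hq.y2) k.1).elim
      exact ⟨FY.blk, FY.A0, FY.A0', FY.A1, FY.A2, FY.p0, FY.p0', w1.1, w1.2, w2.1, w2.2⟩
  · obtain ⟨⟨v1, v2⟩, v3, v4⟩ := FY.sgz S'.efs
    simp only [H594.Sd_swap (T := T) (z := z) (y := y)] at v1 v2 v3 v4
    have f0 : Eqs {t | t + φ ∈ Sd T z y e f} {t | t + φ ∈ Sd T z y f e} (y0 - φ) (y0' - φ) :=
      Or.inl ⟨H594.bf_sh v1, H594.af_sh v2⟩
    have g1 : Dif {t | t + φ ∈ Sd T z y e f} {t | t + φ ∈ Sd T z y f e} (y1 - φ) (y1' - φ) :=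
      Dif.sh (by rcases v3 with k | k; exacts [Or.inr ⟨k.2.2.1, k.2.2.2⟩, Or.inl ⟨k.1, k.2⟩])
    have g2 : Dif {t | t + φ ∈ Sd T z y e f} {t | t + φ ∈ Sd T z y f e} (y2 - φ) (y2' - φ) :=
      Dif.sh (by rcases v4 with k | k; exacts [Or.inl ⟨k.2.2.1, k.2.2.2⟩, Or.inr ⟨k.1, k.2⟩])
    obtain ⟨-, -, -, -, -, -, -, -, hq⟩ := (J.shift φ).j1j1 BZ BY e0 d1 d2 f0 g1 g2
    rcases hq with hq | hq
    · exact not1 _ u1 (bf_of_sh hq.z0)
    · exact not1 _ (bf_of_sh hq.y0) v1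

end Vale.Agent.P032.H913
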