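import Vale.Agent.P032.H815.JLst
import Vale.Agent.P032.H913.NoJ1

/-!
# P032: from the word list of a centre with one `J`-partner to the full word (helper913)

Over `H546/FFin.list1`, `H987/Arcs` and the list lemmas of `H815/JLst`.

* `R7` : the circle as read from the list, directions relative to the `J`-partner;
* `r7_913` : from `list1`;
* `f1_913` : next to the `J`-partner: `F1`.
-/

open Set Filter Topology Metric

noncomputable section

namespace Vale.Agent.P032.H913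

open Vale.Agent.P032.Six Vale.Agent.P032.S5.H767 Vale.Agent.P032.S5.H349
  Vale.Agent.P032.S5.H450
open Vale.Agent.P032.H987 hiding lb
open Vale.Agent.P032.H546 (Lst wds1 Cnt list1)
open Vale.Agent.P032.H815
open Vale.Agent.P032.H594 (JPair Ad Sd Blk Bf Af SG Ad_swap Ad_per Comp Jp NoJ1 OnlyJT)
open Vale.Agent.P032.H471 (Sec4)

variable {U : Fin 6 → Set ℂ} {T : ℂ → Set (Fin 6)} {z y : ℂ} {a b c d e f : Fin 6} {p q : ℝ}

theorem w7_913 : ∀ w ∈ wds1, ∃ s1 s2 : Bool,
    w = [6, lA' false, lC s1, lC' (!s1), lA s2, lA' (!s2), lC false] := by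
  intro w hw
  simp only [wds1, List.mem_cons, List.not_mem_nil, or_false] at hw
  rcases hw with rfl | rfl | rfl | rfl
  · exact ⟨false, false, rfl⟩
  · exact ⟨true, false, rfl⟩
  · exact ⟨true, true, rfl⟩
  · exact ⟨false, true, rfl⟩

/-! ### Lists of seven entries -/

theorem seven913 {l : List (ℝ × ℕ)} {k0 k1 k2 k3 k4 k5 k6 : ℕ}
    (h : l.map Prod.snd = [k0, k1, k2, k3, k4, k5, k6]) :
    ∃ r0 r1 r2 r3 r4 r5 r6 : ℝ, l = [(r0, k0), (r1, k1), (r2, k2), (r3, k3), (r4, k4), (r5, k5),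
      (r6, k6)] := by
  rcases l with _ | ⟨x0, _ | ⟨x1, _ | ⟨x2, _ | ⟨x3, _ | ⟨x4, _ | ⟨x5, _ | ⟨x6, _ |
    ⟨x7, l⟩⟩⟩⟩⟩⟩⟩⟩ <;> simp only [List.map_cons, List.map_nil, List.cons.injEq, reduceCtorEq,
      and_false, and_true] at h
  obtain ⟨h0, h1, h2, h3, h4, h5, h6⟩ := h
  subst h0 h1 h2 h3 h4 h5 h6
  exact ⟨_, _, _, _, _, _, _, rfl⟩

/-- seven labelled directions -/
structure L7 (T : ℂ → Set (Fin 6)) (z : ℂ) (a b c d e f : Fin 6) (p r1 r2 r3 r4 r5 r6 : ℝ)
    (k1 k2 k3 k4 k5 k6 : ℕ) : Prop where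
  h1 : 0 < r1
  h2 : r1 < r2
  h3 : r2 < r3
  h4 : r3 < r4
  h5 : r4 < r5
  h6 : r5 < r6
  h7 : r6 < 6
  L0 : (lbF true true T z a b c d e f (pt z p)).val = 6
  L1 : (lbF true true T z a b c d e f (pt z (p + r1))).val = k1
  L2 : (lbF true true T z a b c d e f (pt z (p + r2))).val = k2
  L3 : (lbF true true T z a b c d e f (pt z (p + r3))).val = k3
  L4 : (lbF true true T z a b c d e f (pt z (p + r4))).val = k4
  L5 : (lbF true true T z a b c d e f (pt z (p + r5))).val = k5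
  L6 : (lbF true true T z a b c d e f (pt z (p + r6))).val = k6
  no : ∀ t, 0 ≤ t → t < 6 → lbF true true T z a b c d e f (pt z (p + t)) ≠ 0 →
    t = 0 ∨ t = r1 ∨ t = r2 ∨ t = r3 ∨ t = r4 ∨ t = r5 ∨ t = r6

/-- the list as seven directions -/
theorem l7_913 {wds : List (List ℕ)} {l : List (ℝ × ℕ)} {k1 k2 k3 k4 k5 k6 : ℕ}
    {n0 n1 n2 n3 n4 n5 n6 m0 m1 m2 m3 m4 m5 m6 : ℕ}
    (h : Lst true true T z a b c d e f p wds [n0, n1, n2, n3, n4, n5, n6]
      [m0, m1, m2, m3, m4, m5, m6] l)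
    (hw : l.map Prod.snd = [6, k1, k2, k3, k4, k5, k6])
    (hJ : lbF true true T z a b c d e f (pt z p) = 6) :
    ∃ r1 r2 r3 r4 r5 r6 : ℝ, L7 T z a b c d e f p r1 r2 r3 r4 r5 r6 k1 k2 k3 k4 k5 k6 ∧
      ((n1 : ℝ) ≤ r1 ∧ r1 < m1 + 1) ∧ ((n2 : ℝ) ≤ r2 ∧ r2 < m2 + 1) ∧
      ((n3 : ℝ) ≤ r3 ∧ r3 < m3 + 1) ∧ ((n4 : ℝ) ≤ r4 ∧ r4 < m4 + 1) ∧
      ((n5 : ℝ) ≤ r5 ∧ r5 < m5 + 1) ∧ ((n6 : ℝ) ≤ r6 ∧ r6 < m6 + 1) := by
  obtain ⟨h1, h2, h3, -, h5, h6⟩ := h
  obtain ⟨r0, r1, r2, r3, r4, r5, r6, rfl⟩ := seven913 hw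
  simp only [List.map_cons, List.map_nil, List.pairwise_cons, List.mem_cons, List.not_mem_nil,
    or_false, forall_eq_or_imp, forall_eq, List.Pairwise.nil, and_true, IsEmpty.forall_iff,
    implies_true] at h1
  simp only [List.mem_cons, List.not_mem_nil, or_false, forall_eq_or_imp, forall_eq] at h2
  simp only [List.map_cons, List.map_nil, List.forall₂_cons, List.Forall₂.nil, and_true] at h5 h6
  obtain ⟨⟨a01, a02, a03, a04, a05, a06⟩, ⟨a12, -⟩, ⟨a23, -⟩, ⟨a34, -⟩, ⟨a45, -⟩, a56⟩ := h1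
  obtain ⟨⟨b0, -, -, -⟩, ⟨b1, -, -, c1⟩, ⟨b2, -, -, c2⟩, ⟨b3, -, -, c3⟩, ⟨b4, -, -, c4⟩,
    ⟨b5, -, -, c5⟩, ⟨b6, b6', -, c6⟩⟩ := h2
  obtain ⟨-, d1, d2, d3, d4, d5, d6⟩ := h5
  obtain ⟨-, e1, e2, e3, e4, e5, e6⟩ := h6
  have hno : ∀ t, 0 ≤ t → t < 6 → lbF true true T z a b c d e f (pt z (p + t)) ≠ 0 →
      t = r0 ∨ t = r1 ∨ t = r2 ∨ t = r3 ∨ t = r4 ∨ t = r5 ∨ t = r6 := by
    intro t k1 k2 k3
    obtain ⟨x, hx, rfl⟩ := h3 t k1 k2 k3
    simp only [List.mem_cons, List.not_mem_nil, or_false] at hx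
    rcases hx with rfl | rfl | rfl | rfl | rfl | rfl | rfl <;> simp
  have hr0 : r0 = 0 := by
    have := hno 0 le_rfl (by norm_num) (by rw [add_zero, hJ]; decide)
    rcases this with h | h | h | h | h | h | h
    · exact h.symm
    all_goals linarith
  subst hr0
  exact ⟨r1, r2, r3, r4, r5, r6, ⟨a01, a12, a23, a34, a45, a56, b6', by rw [hJ]; rfl, c1,
    c2, c3, c4, c5, c6, hno⟩, ⟨fl_lo b1 d1, fl_hi e1⟩, ⟨fl_lo b2 d2, fl_hi e2⟩,
    ⟨fl_lo b3 d3, fl_hi e3⟩, ⟨fl_lo b4 d4, fl_hi e4⟩, ⟨fl_lo b5 d5, fl_hi e5⟩,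
    ⟨fl_lo b6 d6, fl_hi e6⟩⟩

namespace L7

variable {r1 r2 r3 r4 r5 r6 : ℝ} {k1 k2 k3 k4 k5 k6 : ℕ}

theorem mid913 (R : L7 T z a b c d e f p r1 r2 r3 r4 r5 r6 k1 k2 k3 k4 k5 k6)
    (S : CzF true true U T z a b c d e f) {x x' : ℝ} {n : ℕ} (hx0 : 0 ≤ x) (hx : x < x')
    (hx6 : x' ≤ 6)
    (hn : ∀ t, x < t → t < x' → t ≠ 0 ∧ t ≠ r1 ∧ t ≠ r2 ∧ t ≠ r3 ∧ t ≠ r4 ∧ t ≠ r5 ∧ t ≠ r6)
    (hl : aft (lbF true true T z a b c d e f (pt z (p + x))) = n ∧
      lbF true true T z a b c d e f (pt z (p + x)) ≠ 0) :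
    ∀ t ∈ Ioo x x', Stt T z a b c d n (pt z (p + t)) := by
  intro t ht
  have h := S.mid (t1 := p + x) (t2 := p + x') (by linarith) ?_ hl.2 (p + t)
    ⟨by linarith [ht.1], by linarith [ht.2]⟩
  · rw [hl.1] at h
    exact h
  · intro v hv
    by_contra hne
    have hv1 : x < v - p := by linarith [hv.1]
    have hv2 : v - p < x' := by linarith [hv.2]
    have := R.no (v - p) (by linarith) (by linarith) (by rwa [show p + (v - p) = v by ring])
    have h9 := hn (v - p) hv1 hv2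
    tauto

end L7

/-- the circle of a centre with one `J`-partner, relative directions -/
structure R7 (T : ℂ → Set (Fin 6)) (z : ℂ) (a b c d e f : Fin 6)
    (p x0 x0' x1 x1' x2 x2' : ℝ) (s1 s2 : Bool) : Prop where
  o0 : -1 ≤ x0
  o1 : x0 < 0
  o2 : 0 < x0'
  o3 : x0' < 2
  o4 : x0' < x1
  o5 : 1 ≤ x1
  o6 : x1 < x1'
  o7 : x1' < 3
  o8 : 3 ≤ x2
  o9 : x2 < x2'
  oa : x2 < 5
  ob : x2' < x0 + 6
  J : T (pt z p) = T z
  p0 : T (pt z (p + x0)) = {c, d, f}
  p0' : T (pt z (p + x0')) = {a, b, f}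
  p1 : T (pt z (p + x1)) = {c, d, cond s1 e f}
  p1' : T (pt z (p + x1')) = {c, d, cond s1 f e}
  p2 : T (pt z (p + x2)) = {a, b, cond s2 e f}
  p2' : T (pt z (p + x2')) = {a, b, cond s2 f e}
  m0 : ∀ t ∈ Ioo x0 0, pt z (p + t) ∈ Ex T z {c, d}
  m0' : ∀ t ∈ Ioo 0 x0', pt z (p + t) ∈ Ex T z {a, b}
  m1 : ∀ t ∈ Ioo x1 x1', pt z (p + t) ∈ Ex T z {c, d}
  m2 : ∀ t ∈ Ioo x2 x2', pt z (p + t) ∈ Ex T z {a, b}
  g0 : ∀ t ∈ Ioo x0' x1, pt z (p + t) ∉ closure (Ex T z {a, b}) ∧
    pt z (p + t) ∉ closure (Ex T z {c, d})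
  g1 : ∀ t ∈ Ioo x1' x2, pt z (p + t) ∉ closure (Ex T z {a, b}) ∧
    pt z (p + t) ∉ closure (Ex T z {c, d})
  g2 : ∀ t ∈ Ioo x2' (x0 + 6), pt z (p + t) ∉ closure (Ex T z {a, b}) ∧
    pt z (p + t) ∉ closure (Ex T z {c, d})

/-- **from `list1`** -/
theorem r7_913 (S : CzF true true U T z a b c d e f) (Z : Zn T z a b c d p q)
    (hfin : {y | dist y z = 1 ∧ lbF true true T z a b c d e f y ≠ 0}.Finite)
    (C : Cnt T z a b c d e f 1 2 1 2 1) (hJ : lbF true true T z a b c d e f (pt z p) = 6) :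
    ∃ x0 x0' x1 x1' x2 x2' s1 s2, R7 T z a b c d e f p x0 x0' x1 x1' x2 x2' s1 s2 := by
  obtain ⟨l, hl⟩ := list1 S Z hfin C hJ
  obtain ⟨s1, s2, hw⟩ := w7_913 _ hl.2.2.2.1
  obtain ⟨r1, r2, r3, r4, r5, r6, R, ⟨-, i1'⟩, ⟨i2, i2'⟩, ⟨i3, i3'⟩, ⟨i4, i4'⟩, ⟨i5, i5'⟩,
    ⟨i6, i6'⟩⟩ := l7_913 hl hw hJ
  push_cast at i1' i2 i2' i3 i3' i4 i4' i5 i5' i6 i6'
  have h1 := R.h1; have h2 := R.h2; have h3 := R.h3; have h4 := R.h4; have h5 := R.h5
  have h6 := R.h6; have h7 := R.h7
  have cn : ∀ s : Bool, cond (!s) e f = cond s f e := by intro s; cases s <;> rfl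
  have six : ∀ t, pt z (p + (t - 6)) = pt z (p + t) := fun t => by
    rw [← pt_six z (p + (t - 6))]; congr 1; ring
  have nn : ∀ {x x' t : ℝ}, x < t → t < x' → (0 ≤ x) →
      (r1 ≤ x ∨ x' ≤ r1) → (r2 ≤ x ∨ x' ≤ r2) → (r3 ≤ x ∨ x' ≤ r3) → (r4 ≤ x ∨ x' ≤ r4) →
      (r5 ≤ x ∨ x' ≤ r5) → (r6 ≤ x ∨ x' ≤ r6) →
      t ≠ 0 ∧ t ≠ r1 ∧ t ≠ r2 ∧ t ≠ r3 ∧ t ≠ r4 ∧ t ≠ r5 ∧ t ≠ r6 := by
    intro x x' t k k' k0 e1 e2 e3 e4 e5 e6
    refine ⟨?_, ?_, ?_, ?_, ?_, ?_, ?_⟩
    · intro h; linarith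
    · intro h; rcases e1 with e1 | e1 <;> linarith
    · intro h; rcases e2 with e1 | e1 <;> linarith
    · intro h; rcases e3 with e1 | e1 <;> linarith
    · intro h; rcases e4 with e1 | e1 <;> linarith
    · intro h; rcases e5 with e1 | e1 <;> linarith
    · intro h; rcases e6 with e1 | e1 <;> linarith
  refine ⟨r6 - 6, r1, r2, r3, r4, r5, s1, s2, ?_⟩
  exact
    { o0 := by linarith
      o1 := by linarith
      o2 := h1
      o3 := by linarith
      o4 := h2
      o5 := by linarith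
      o6 := h3
      o7 := by linarith
      o8 := by linarith
      o9 := h5
      oa := by linarith
      ob := by linarith
      J := pJ (Or.inr rfl) R.L0
      p0 := by rw [six]; exact pC R.L6
      p0' := pA' R.L1
      p1 := pC R.L2
      p1' := by rw [← cn]; exact pC' R.L3
      p2 := pA R.L4
      p2' := by rw [← cn]; exact pA' R.L5
      m0 := fun t ht => by
        have h := R.mid913 S (x := r6) (x' := 6) (n := 2) (by linarith) h7 le_rfl
          (fun t k1 k2 => nn k1 k2 (by linarith) (by left; linarith) (by left; linarith)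
            (by left; linarith) (by left; linarith) (by left; linarith) (by left; linarith))
          (fC R.L6) (t + 6) ⟨by linarith [ht.1], by linarith [ht.2]⟩
        have e : pt z (p + (t + 6)) = pt z (p + t) := by
          rw [← six (t + 6)]; congr 2; ring
        rw [← e]; exact h
      m0' := fun t ht => R.mid913 S (x := 0) (x' := r1) (n := 1) le_rfl h1 (by linarith)
          (fun t k1 k2 => nn k1 k2 le_rfl (by right; linarith) (by right; linarith)
            (by right; linarith) (by right; linarith) (by right; linarith) (by right; linarith))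
          (by rw [add_zero, hJ]; exact ⟨rfl, by decide⟩) t ht
      m1 := fun t ht => R.mid913 S (x := r2) (x' := r3) (n := 2) (by linarith) h3 (by linarith)
          (fun t k1 k2 => nn k1 k2 (by linarith) (by left; linarith) (by left; linarith)
            (by right; linarith) (by right; linarith) (by right; linarith) (by right; linarith))
          (fC R.L2) t ht
      m2 := fun t ht => R.mid913 S (x := r4) (x' := r5) (n := 1) (by linarith) h5 (by linarith)
          (fun t k1 k2 => nn k1 k2 (by linarith) (by left; linarith) (by left; linarith)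
            (by left; linarith) (by left; linarith) (by right; linarith) (by right; linarith))
          (fA R.L4) t ht
      g0 := fun t ht => R.mid913 S (x := r1) (x' := r2) (n := 0) (by linarith) h2 (by linarith)
          (fun t k1 k2 => nn k1 k2 (by linarith) (by left; linarith) (by right; linarith)
            (by right; linarith) (by right; linarith) (by right; linarith) (by right; linarith))
          (fA' R.L1) t ht
      g1 := fun t ht => R.mid913 S (x := r3) (x' := r4) (n := 0) (by linarith) h4 (by linarith)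
          (fun t k1 k2 => nn k1 k2 (by linarith) (by left; linarith) (by left; linarith)
            (by left; linarith) (by right; linarith) (by right; linarith) (by right; linarith))
          (fC' R.L3) t ht
      g2 := fun t ht => R.mid913 S (x := r5) (x' := r6) (n := 0) (by linarith) h6 (by linarith)
          (fun t k1 k2 => nn k1 k2 (by linarith) (by left; linarith) (by left; linarith)
            (by left; linarith) (by left; linarith) (by left; linarith) (by right; linarith))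
          (fA' R.L5) t ⟨ht.1, by linarith [ht.2]⟩ }

/-! ### Next to the `J`-partner -/

variable {x0 x0' x1 x1' x2 x2' : ℝ} {s1 s2 : Bool}

theorem R7.swapcd (R : R7 T z a b c d e f p x0 x0' x1 x1' x2 x2' s1 s2) :
    R7 T z a b d c e f p x0 x0' x1 x1' x2 x2' s1 s2 := by
  have h2 : ({d, c} : Set (Fin 6)) = {c, d} := Set.pair_comm _ _
  exact
    { o0 := R.o0, o1 := R.o1, o2 := R.o2, o3 := R.o3, o4 := R.o4, o5 := R.o5, o6 := R.o6
      o7 := R.o7, o8 := R.o8, o9 := R.o9, oa := R.oa, ob := R.ob, J := R.J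
      p0 := by rw [tri_congr h2]; exact R.p0
      p0' := R.p0'
      p1 := by rw [tri_congr h2]; exact R.p1
      p1' := by rw [tri_congr h2]; exact R.p1'
      p2 := R.p2
      p2' := R.p2'
      m0 := by rw [h2]; exact R.m0
      m0' := R.m0'
      m1 := by rw [h2]; exact R.m1
      m2 := R.m2
      g0 := by rw [h2]; exact R.g0
      g1 := by rw [h2]; exact R.g1
      g2 := by rw [h2]; exact R.g2 }

/-- **the full word next to the `J`-partner** -/
theorem f1_913 (S : JPair U T z y a b c d e f) (hp : pt z p = y)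
    (h5 : T (pt z (p + 5)) ≠ T z)
    (R : R7 T z a b c d e f p x0 x0' x1 x1' x2 x2' s1 s2) :
    F1 T z a b c d e f p (p + x0) (p + x0') (p + x1) (p + x1') (p + x2) (p + x2') := by
  have o0 := R.o0; have o1 := R.o1; have o2 := R.o2; have o3 := R.o3; have o4 := R.o4
  have o5 := R.o5; have o6 := R.o6; have o7 := R.o7; have o8 := R.o8; have o9 := R.o9
  have oa := R.oa; have ob := R.ob
  obtain ⟨⟨ab, ac, ad, ae, af⟩, ⟨bc, bd, be, bf⟩, ⟨cd, ce, cf⟩, ⟨de, df⟩, ef⟩ :=
    S5.H349.nd_ne S.nd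
  have L := lrs913 S.nd
  -- membership in `Ad`
  have inC : ∀ {x x' : ℝ}, x < x' → (∀ t ∈ Ioo x x', pt z (p + t) ∈ Ex T z {c, d}) →
      ∀ t, x ≤ t → t ≤ x' → p + t ∈ Ad T z {a, b} {c, d} := fun hx h t k1 k2 =>
    Or.inr (cl_Icc815 hx h ⟨k1, k2⟩)
  have inA : ∀ {x x' : ℝ}, x < x' → (∀ t ∈ Ioo x x', pt z (p + t) ∈ Ex T z {a, b}) →
      ∀ t, x ≤ t → t ≤ x' → p + t ∈ Ad T z {a, b} {c, d} := fun hx h t k1 k2 =>
    Or.inl (cl_Icc815 hx h ⟨k1, k2⟩)
  have out : ∀ {x x' : ℝ}, (∀ t ∈ Ioo x x', pt z (p + t) ∉ closure (Ex T z {a, b}) ∧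
      pt z (p + t) ∉ closure (Ex T z {c, d})) → ∀ t, x < t → t < x' →
      p + t ∉ Ad T z {a, b} {c, d} := by
    rintro x x' h t k1 k2 (k | k)
    exacts [(h t ⟨k1, k2⟩).1 k, (h t ⟨k1, k2⟩).2 k]
  -- no pair palette at the common points
  have noAB : ∀ {x : ℂ}, dist x z = 1 → dist x y = 1 → T x ≠ T z → T x ≠ {a, b} := by
    intro x k1 k2 k3 k4
    rcases free913 S k1 k2 k3 with k | k
    · rw [k4] at k
      rcases k with k | k
      · exact ae k.symm
      · exact be k.symm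
    · rw [k4] at k
      rcases k with k | k
      · exact af k.symm
      · exact bf k.symm
  -- `x2' ≤ 5`
  have i5 : x2' ≤ 5 := by
    by_contra hcon
    push Not at hcon
    have := R.m2 5 ⟨by linarith, hcon⟩
    exact noAB (dist_pt z _) (by rw [← pt_common' hp]; exact dist_pt y _) h5 (ex_self this)
  -- `3 < x2`
  have i3 : 3 < x2 := by
    rcases o8.lt_or_eq with k | k
    · exact k
    · exfalso
      refine anti913 S hp ?_
      rw [k]
      exact inA o9 R.m2 x2 le_rfl o9.le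
  -- the block of `J`
  have B0 : ∀ t, x0 ≤ t → t ≤ x0' → p + t ∈ Ad T z {a, b} {c, d} := by
    intro t k1 k2
    rcases le_total t 0 with k | k
    · exact inC o1 R.m0 t k1 k
    · exact inA o2 R.m0' t k k2
  have six : ∀ t, p + t ∈ Ad T z {a, b} {c, d} ↔ p + (t + 6) ∈ Ad T z {a, b} {c, d} := by
    intro t
    rw [← add_assoc, Ad_per]
  have eq := S.sg.eq_block' (b := p + x0) (b' := p + x0') (by linarith)
    (fun t ht => by
      have := B0 (t - p) (by linarith [ht.1]) (by linarith [ht.2])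
      rwa [add_sub_cancel] at this)
    (fun t k1 k2 => by
      have := out R.g2 (t - p + 6) (by linarith) (by linarith)
      rw [← six, add_sub_cancel] at this
      exact this)
    (fun t k1 k2 => by
      have := out R.g0 (t - p) (by linarith) (by linarith)
      rwa [add_sub_cancel] at this)
    (by
      filter_upwards [Ioo_mem_nhdsLT (show p + x2' - 6 < p + x0 by linarith)] with t ht
      have := out R.g2 (t - p + 6) (by linarith [ht.1]) (by linarith [ht.2])
      rw [← six, add_sub_cancel] at this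
      exact this)
    (by
      filter_upwards [Ioo_mem_nhdsGT (show p + x0' < p + x1 by linarith)] with t ht
      have := out R.g0 (t - p) (by linarith [ht.1]) (by linarith [ht.2])
      rwa [add_sub_cancel] at this)
    (Or.inr ⟨S.bz' (by
      filter_upwards [Ioo_mem_nhdsLT (show p + x2' - 6 < p + x0 by linarith)] with t ht
      have := out R.g2 (t - p + 6) (by linarith [ht.1]) (by linarith [ht.2])
      rw [← six, add_sub_cancel] at this
      exact this) (by rw [R.p0]; exact L.cdf), S.az' (by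
      filter_upwards [Ioo_mem_nhdsGT (show p + x0' < p + x1 by linarith)] with t ht
      have := out R.g0 (t - p) (by linarith [ht.1]) (by linarith [ht.2])
      rwa [add_sub_cancel] at this) (by rw [R.p0']; exact L.abf)⟩)
  have hlen : x0' = x0 + 1 := by linarith [eq.1]
  refine ⟨⟨by linarith, by linarith, by linarith, by linarith, by linarith, by linarith,
    by linarith, by linarith, by linarith, by linarith, ?_⟩, ?_, ?_, ?_, ?_, R.p0, R.p0', ?_, ?_⟩
  · intro t k1 k2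
    constructor
    · intro hA
      by_contra hcon
      push Not at hcon
      obtain ⟨n0, n1, n2⟩ := hcon
      have e1 : t = p + (t - p) := by ring
      rw [e1] at hA
      by_cases c0 : t - p < x0
      · rw [six] at hA
        exact out R.g2 (t - p + 6) (by linarith) (by linarith) hA
      by_cases c1 : t - p ≤ x0'
      · exact absurd (n0 (by linarith)) (by linarith)
      by_cases c2 : t - p < x1
      · exact out R.g0 (t - p) (by linarith) c2 hA
      by_cases c3 : t - p ≤ x1'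
      · exact absurd (n1 (by linarith)) (by linarith)
      by_cases c4 : t - p < x2
      · exact out R.g1 (t - p) (by linarith) c4 hA
      by_cases c5 : t - p ≤ x2'
      · exact absurd (n2 (by linarith)) (by linarith)
      · exact out R.g2 (t - p) (by linarith) (by linarith) hA
    · intro h
      have e1 : t = p + (t - p) := by ring
      rw [e1]
      rcases h with ⟨j1, j2⟩ | ⟨j1, j2⟩ | ⟨j1, j2⟩
      · exact B0 _ (by linarith) (by linarith)
      · exact inC o6 R.m1 _ (by linarith) (by linarith)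
      · exact inA o9 R.m2 _ (by linarith) (by linarith)
  · intro t ht
    have := ex_self (R.m0 (t - p) ⟨by linarith [ht.1], by linarith [ht.2]⟩)
    rwa [add_sub_cancel] at this
  · intro t ht
    have := ex_self (R.m0' (t - p) ⟨by linarith [ht.1], by linarith [ht.2]⟩)
    rwa [add_sub_cancel] at this
  · intro t ht
    have := ex_self (R.m1 (t - p) ⟨by linarith [ht.1], by linarith [ht.2]⟩)
    rwa [add_sub_cancel] at this
  · intro t ht
    have := ex_self (R.m2 (t - p) ⟨by linarith [ht.1], by linarith [ht.2]⟩)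
    rwa [add_sub_cancel] at this
  · have k1 := R.p1
    have k2 := R.p1'
    cases s1
    · exact Or.inr ⟨k1, k2⟩
    · exact Or.inl ⟨k1, k2⟩
  · have k1 := R.p2
    have k2 := R.p2'
    cases s2
    · exact Or.inl ⟨k1, k2⟩
    · exact Or.inr ⟨k1, k2⟩

/-- **the class `F1c`** -/
theorem f1c_913 (h : Irr U T) (hn5 : NoPair5 T) (hT : OnlyJT T)
    (S : CzF true true U T z a b c d e f) (Z : Zn T z a b c d p q)
    (hfin : {y | dist y z = 1 ∧ lbF true true T z a b c d e f y ≠ 0}.Finite)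
    (C : Cnt T z a b c d e f 1 2 1 2 1) (hJ : lbF true true T z a b c d e f (pt z p) = 6)
    (hp : pt z p = y) : F1c T z y := by
  obtain ⟨x0, x0', x1, x1', x2, x2', s1, s2, R⟩ := r7_913 S Z hfin C hJ
  have hTy : T y = T z := by rw [← hp]; exact R.J
  have hy : dist y z = 1 := by rw [← hp]; exact dist_pt z p
  have hDy : ∃ a b c d, DPt T y a b c d := by
    rcases h.dpt_cross824 S.dpt hy hTy with k | k
    exacts [⟨_, _, _, _, k⟩, ⟨_, _, _, _, k⟩]
  have wy : ∀ v, dist v y = 1 → (T v).ncard ≤ 3 ∨ T v = T y := fun v hv => hT.w0 hn5 hDy hv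
  obtain ⟨-, k2⟩ := no_JJ913 h hn5 S.dpt hp hTy
  rcases jpair913 h S.dpt S.nd hy hTy S.hJ wy with J | J
  · exact ⟨a, b, c, d, e, f, p, _, _, _, _, _, _, S.nd, S.dpt, hp, f1_913 J hp k2 R⟩
  · exact ⟨a, b, d, c, e, f, p, _, _, _, _, _, _, J.nd, J.hz, hp, f1_913 J hp k2 R.swapcd⟩

end Vale.Agent.P032.H913
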