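import Vale.Agent.P032.H913.Cnt1
import Vale.Agent.P032.H913.L1
import Vale.Agent.P032.H838.IV

/-!
# P032: no comp centre has exactly one `J`-partner, from the counts (helper913)

`noJ1_of913` : from the numbers of the complementary ends at the centres with one `J`-partner
(`Hc913`) and the numbers at the centres with two (`K2`).
-/

open Set Filter Topology Metric

noncomputable section

namespace Vale.Agent.P032.H913

open Vale.Agent.P032.Six Vale.Agent.P032.S5.H767 Vale.Agent.P032.S5.H349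
  Vale.Agent.P032.S5.H450
open Vale.Agent.P032.H594 (Comp Jp NoJ1 OnlyJT)
open Vale.Agent.P032.H471 (Sec4)

variable {U : Fin 6 → Set ℂ} {T : ℂ → Set (Fin 6)} {z y : ℂ}

/-- the class of a centre with one `J`-partner -/
theorem cls1_913 (h : Irr U T) (h5 : NoPair5 T) (hT : OnlyJT T) (hS : Sec4 T) {φ : ℝ}
    (D : Dat913 U T z φ) (hφ : pt z φ = y) : F1c T z y ∨ IVc T z y := by
  obtain ⟨a, b, c, d, e, f, q', Z, ⟨S, hF, C, h6⟩ |
    ⟨v, w, S, hF, nV, nQ, nJ, hno, h6, hv, hTv, hw, hTw⟩ |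
    ⟨v, w, S, hF, nV, nQ, nJ, hno, h6, hv, hTv, hw, hTw⟩⟩ := D
  · exact Or.inl (f1c_913 h h5 hT S Z hF C h6 hφ)
  · have := H838.ivc_S h h5 hT hS S Z hF nV nQ nJ hno h6 hv hTv hw hTw
    rw [hφ] at this
    exact Or.inr this
  · have := H838.ivc_T h h5 hT hS S Z hF nV nQ nJ hno h6 hv hTv hw hTw
    rw [hφ] at this
    exact Or.inr this

/-- **no comp centre has exactly one `J`-partner**, from the counts -/
theorem noJ1_of913 (h : Irr U T) (h5 : NoPair5 T) (hT : OnlyJT T) (hS : Sec4 T)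
    (HC : ∀ z y, Comp T z → Jp T z y → (∀ y', Jp T z y' → y' = y) → Hc913 T z)
    (HB : ∀ z y y', Comp T z → Jp T z y → Jp T z y' → y ≠ y' → K2 U T z) : NoJ1 T := by
  refine noJ1_913 h h5 hT hS (fun z y hz hy hu => ?_) HB
  obtain ⟨φ, hφ, D⟩ := dat1_913 h h5 hT hz hy hu (HC z y hz hy hu)
  exact cls1_913 h h5 hT hS D hφ

end Vale.Agent.P032.H913
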