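import Vale.Agent.P032.H695.Lift

/-!
# P032: heights of closed covers of the circle by three labels (helper913)

`Ht913 Q M` : `M` is a height of the cover `Q` (`Cov Q`) on `[0, 12]` (even = one label, odd = two
labels, the label `l` is present iff `M - 2 l` is `0, 1` or `5` modulo `6`).
`Ht913.E`, `W`, `W_eq`, `D` : differences of heights of incomparable covers.
`T913` : the window theorem; `N0_913`; `gap913`, `blk913`: windows along gaps and blocks.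
-/

open Set Filter Topology

noncomputable section

namespace Vale.Agent.P032.H913

open Vale.Agent.P032.H180 (Res eq_mod_of_res const_of_loc incomparable_mod)
open Vale.Agent.P032.H695 (Cov)

variable {Q Q' : ℝ → Set (Fin 3)} {M M' : ℝ → ℤ}

/-- a height of a closed cover, on `[0, 12]` -/
structure Ht913 (Q : ℝ → Set (Fin 3)) (M : ℝ → ℤ) : Prop where
  mem : ∀ t ∈ Icc (0 : ℝ) 12, ∀ l : Fin 3, l ∈ Q t ↔ Res (M t - 2 * (l : ℕ))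
  loc : ∀ t ∈ Icc (0 : ℝ) 12, ∀ᶠ s in 𝓝[Icc (0 : ℝ) 12] t, |M s - M t| ≤ 1

theorem exists_ht913 (h : Cov Q) : ∃ M, Ht913 Q M := by
  obtain ⟨ℓ, M, -, -, h1, h2, -⟩ := h.exM
  exact ⟨M, h1, h2⟩

namespace Ht913

theorem r0 (H : Ht913 Q M) {t : ℝ} (ht : t ∈ Icc (0 : ℝ) 12) :
    0 ∈ Q t ↔ M t % 6 = 0 ∨ M t % 6 = 1 ∨ M t % 6 = 5 := by
  have h := H.mem t ht 0
  simp [Res] at h
  rw [h]
  omega

theorem r1 (H : Ht913 Q M) {t : ℝ} (ht : t ∈ Icc (0 : ℝ) 12) :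
    1 ∈ Q t ↔ M t % 6 = 1 ∨ M t % 6 = 2 ∨ M t % 6 = 3 := by
  have h := H.mem t ht 1
  simp [Res] at h
  rw [h]
  omega

theorem r2 (H : Ht913 Q M) {t : ℝ} (ht : t ∈ Icc (0 : ℝ) 12) :
    2 ∈ Q t ↔ M t % 6 = 3 ∨ M t % 6 = 4 ∨ M t % 6 = 5 := by
  have h := H.mem t ht 2
  simp [Res] at h
  rw [h]
  omega

/-- a function of the height which does not change along an interval -/
theorem win (H : Ht913 Q M) {s t : ℝ} (hs : 0 ≤ s) (hst : s ≤ t) (ht : t ≤ 12) {G : ℤ → ℤ}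
    {P : ℤ → Prop} (hg : ∀ m n : ℤ, |m - n| ≤ 1 → P m → P n → G m = G n)
    (hP : ∀ u ∈ Icc s t, P (M u)) : G (M s) = G (M t) := by
  refine const_of_loc (a := s) (b := t) (f := fun u => G (M u)) (fun u hu => ?_) s ⟨le_rfl, hst⟩ t
    ⟨hst, le_rfl⟩
  have h1 := nhdsWithin_mono u (Icc_subset_Icc hs ht) (H.loc u ⟨hs.trans hu.1, hu.2.trans ht⟩)
  filter_upwards [h1, self_mem_nhdsWithin] with v hv hvI
  exact hg _ _ hv (hP v hvI) (hP u hu)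

/-- along a gap: a free label everywhere -/
theorem gap913 (H : Ht913 Q M) {s t : ℝ} (hs : 0 ≤ s) (hst : s ≤ t) (ht : t ≤ 12)
    (h : ∀ u ∈ Icc s t, 0 ∈ Q u ∨ 1 ∈ Q u) : (M s + 1) / 6 = (M t + 1) / 6 := by
  refine H.win (G := fun m => (m + 1) / 6) (P := fun m => m % 6 ≠ 4) hs hst ht
    (fun m n h1 h2 h3 => ?_) (fun u hu => ?_)
  · rw [abs_le] at h1
    omega
  · have hu' : u ∈ Icc (0 : ℝ) 12 := ⟨hs.trans hu.1, hu.2.trans ht⟩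
    rcases h u hu with h1 | h1
    · rw [H.r0 hu'] at h1; omega
    · rw [H.r1 hu'] at h1; omega

/-- along a block: the label `2` everywhere -/
theorem blk913 (H : Ht913 Q M) {s t : ℝ} (hs : 0 ≤ s) (hst : s ≤ t) (ht : t ≤ 12)
    (h : ∀ u ∈ Icc s t, 2 ∈ Q u) : M s / 6 = M t / 6 := by
  refine H.win (G := fun m => m / 6) (P := fun m => m % 6 = 3 ∨ m % 6 = 4 ∨ m % 6 = 5) hs hst ht
    (fun m n h1 h2 h3 => ?_) (fun u hu => ?_)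
  · rw [abs_le] at h1
    omega
  · exact (H.r2 ⟨hs.trans hu.1, hu.2.trans ht⟩).1 (h u hu)

/-- a block with the same free label at both ends -/
theorem blk_eq (H : Ht913 Q M) {s t : ℝ} (hs : 0 ≤ s) (hst : s ≤ t) (ht : t ≤ 12)
    (h : ∀ u ∈ Icc s t, 2 ∈ Q u) (h1 : (0 ∈ Q s ∧ 0 ∈ Q t) ∨ (1 ∈ Q s ∧ 1 ∈ Q t)) :
    (M t + 1) / 6 = (M s + 1) / 6 := by
  have k := H.blk913 hs hst ht h
  have s' : s ∈ Icc (0 : ℝ) 12 := ⟨hs, hst.trans ht⟩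
  have t' : t ∈ Icc (0 : ℝ) 12 := ⟨hs.trans hst, ht⟩
  have k1 := (H.r2 s').1 (h s ⟨le_rfl, hst⟩)
  have k2 := (H.r2 t').1 (h t ⟨hst, le_rfl⟩)
  rcases h1 with ⟨h1, h2⟩ | ⟨h1, h2⟩
  · rw [H.r0 s'] at h1; rw [H.r0 t'] at h2; omega
  · rw [H.r1 s'] at h1; rw [H.r1 t'] at h2; omega

/-- a block from the free label `1` to `0` -/
theorem blk_up (H : Ht913 Q M) {s t : ℝ} (hs : 0 ≤ s) (hst : s ≤ t) (ht : t ≤ 12)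
    (h : ∀ u ∈ Icc s t, 2 ∈ Q u) (h1 : 1 ∈ Q s) (h2 : 0 ∈ Q t) :
    (M t + 1) / 6 = (M s + 1) / 6 + 1 := by
  have k := H.blk913 hs hst ht h
  have s' : s ∈ Icc (0 : ℝ) 12 := ⟨hs, hst.trans ht⟩
  have t' : t ∈ Icc (0 : ℝ) 12 := ⟨hs.trans hst, ht⟩
  have k1 := (H.r2 s').1 (h s ⟨le_rfl, hst⟩)
  have k2 := (H.r2 t').1 (h t ⟨hst, le_rfl⟩)
  rw [H.r1 s'] at h1; rw [H.r0 t'] at h2; omega

/-- a block from the free label `0` to `1` -/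
theorem blk_dn (H : Ht913 Q M) {s t : ℝ} (hs : 0 ≤ s) (hst : s ≤ t) (ht : t ≤ 12)
    (h : ∀ u ∈ Icc s t, 2 ∈ Q u) (h1 : 0 ∈ Q s) (h2 : 1 ∈ Q t) :
    (M t + 1) / 6 = (M s + 1) / 6 - 1 := by
  have k := H.blk913 hs hst ht h
  have s' : s ∈ Icc (0 : ℝ) 12 := ⟨hs, hst.trans ht⟩
  have t' : t ∈ Icc (0 : ℝ) 12 := ⟨hs.trans hst, ht⟩
  have k1 := (H.r2 s').1 (h s ⟨le_rfl, hst⟩)
  have k2 := (H.r2 t').1 (h t ⟨hst, le_rfl⟩)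
  rw [H.r0 s'] at h1; rw [H.r1 t'] at h2; omega

/-- **(N0)** one free label never meets the label `2` on the interval: the window does not change -/
theorem N0 (H : Ht913 Q M) {s t : ℝ} (hs : 0 ≤ s) (hst : s ≤ t) (ht : t ≤ 12)
    (h : (∀ u ∈ Icc s t, ¬ (0 ∈ Q u ∧ 2 ∈ Q u)) ∨ ∀ u ∈ Icc s t, ¬ (1 ∈ Q u ∧ 2 ∈ Q u))
    (h1 : 0 ∈ Q s ∨ 1 ∈ Q s) (h2 : 0 ∈ Q t ∨ 1 ∈ Q t) : (M t + 1) / 6 = (M s + 1) / 6 := by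
  have s' : s ∈ Icc (0 : ℝ) 12 := ⟨hs, hst.trans ht⟩
  have t' : t ∈ Icc (0 : ℝ) 12 := ⟨hs.trans hst, ht⟩
  rw [H.r0 s', H.r1 s'] at h1
  rw [H.r0 t', H.r1 t'] at h2
  rcases h with h | h
  · have k0 : ∀ u ∈ Icc s t, M u % 6 ≠ 5 := fun u hu h5 => by
      have u' : u ∈ Icc (0 : ℝ) 12 := ⟨hs.trans hu.1, hu.2.trans ht⟩
      refine h u hu ⟨?_, ?_⟩
      · rw [H.r0 u']; omega
      · rw [H.r2 u']; omega
    have k := H.win (G := fun m => m / 6) (P := fun m => m % 6 ≠ 5) hs hst ht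
      (fun m n h1 h2 h3 => by rw [abs_le] at h1; omega) k0
    have k1 := k0 s ⟨le_rfl, hst⟩
    have k2 := k0 t ⟨hst, le_rfl⟩
    omega
  · have k0 : ∀ u ∈ Icc s t, M u % 6 ≠ 3 := fun u hu h5 => by
      have u' : u ∈ Icc (0 : ℝ) 12 := ⟨hs.trans hu.1, hu.2.trans ht⟩
      refine h u hu ⟨?_, ?_⟩
      · rw [H.r1 u']; omega
      · rw [H.r2 u']; omega
    have k := H.win (G := fun m => (m - 4) / 6) (P := fun m => m % 6 ≠ 3) hs hst ht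
      (fun m n h1 h2 h3 => by rw [abs_le] at h1; omega) k0
    have k1 := k0 s ⟨le_rfl, hst⟩
    have k2 := k0 t ⟨hst, le_rfl⟩
    omega

end Ht913

/-- a locally almost constant function with residues `2, 3, 4` -/
theorem const_band {a b : ℝ} {F : ℝ → ℤ}
    (h : ∀ t ∈ Icc a b, ∀ᶠ s in 𝓝[Icc a b] t, |F s - F t| ≤ 2)
    (hm : ∀ t ∈ Icc a b, F t % 6 = 2 ∨ F t % 6 = 3 ∨ F t % 6 = 4) :
    ∀ s ∈ Icc a b, ∀ t ∈ Icc a b, (F s - 2) / 6 = (F t - 2) / 6 := by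
  refine const_of_loc (f := fun u => (F u - 2) / 6) fun t ht => ?_
  filter_upwards [h t ht, self_mem_nhdsWithin] with s hs hsI
  have h1 := hm t ht
  have h2 := hm s hsI
  rw [abs_le] at hs
  omega

/-- a locally almost constant function with residue `0` -/
theorem const_zero {a b : ℝ} {F : ℝ → ℤ}
    (h : ∀ t ∈ Icc a b, ∀ᶠ s in 𝓝[Icc a b] t, |F s - F t| ≤ 2)
    (hm : ∀ t ∈ Icc a b, F t % 6 = 0) :
    ∀ s ∈ Icc a b, ∀ t ∈ Icc a b, F s = F t := by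
  refine const_of_loc fun t ht => ?_
  filter_upwards [h t ht, self_mem_nhdsWithin] with s hs hsI
  have h1 := hm t ht
  have h2 := hm s hsI
  rw [abs_le] at hs
  omega

/-- incomparable label sets -/
theorem Ht913.inc (H : Ht913 Q M) (H' : Ht913 Q' M') {s t : ℝ} (hs : s ∈ Icc (0 : ℝ) 12)
    (ht : t ∈ Icc (0 : ℝ) 12) (h1 : ¬ Q s ⊆ Q' t) (h2 : ¬ Q' t ⊆ Q s) :
    (M' t - M s) % 6 = 2 ∨ (M' t - M s) % 6 = 3 ∨ (M' t - M s) % 6 = 4 := by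
  obtain ⟨l, k1, k2⟩ := Set.not_subset.1 h1
  obtain ⟨m, k3, k4⟩ := Set.not_subset.1 h2
  rw [H.mem s hs] at k1 k4
  rw [H'.mem t ht] at k2 k3
  exact incomparable_mod ⟨l, k1, k2⟩ ⟨m, k3, k4⟩

/-- equal label sets -/
theorem Ht913.eqm (H : Ht913 Q M) (H' : Ht913 Q' M') {s t : ℝ} (hs : s ∈ Icc (0 : ℝ) 12)
    (ht : t ∈ Icc (0 : ℝ) 12) (h : Q s = Q' t) : (M' t - M s) % 6 = 0 := by
  refine eq_mod_of_res fun l => ?_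
  rw [← H.mem s hs, ← H'.mem t ht, h]

theorem tend_shift {a b c : ℝ} {a' b' : ℝ} (h1 : a' ≤ a + c) (h2 : b + c ≤ b') {t : ℝ} :
    Tendsto (fun s : ℝ => s + c) (𝓝[Icc a b] t) (𝓝[Icc a' b'] (t + c)) := by
  refine tendsto_nhdsWithin_iff.2 ⟨?_, ?_⟩
  · exact ((continuous_add_const c).tendsto t).mono_left nhdsWithin_le_nhds
  · filter_upwards [self_mem_nhdsWithin] with s hs
    exact ⟨by linarith [hs.1], by linarith [hs.2]⟩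

/-- two incomparable covers -/
theorem Ht913.E (H : Ht913 Q M) (H' : Ht913 Q' M')
    (hinc : ∀ t ∈ Icc (0 : ℝ) 12, ¬ Q t ⊆ Q' t ∧ ¬ Q' t ⊆ Q t) :
    ∃ k : ℤ, ∀ t ∈ Icc (0 : ℝ) 12, 6 * k + 2 ≤ M' t - M t ∧ M' t - M t ≤ 6 * k + 4 := by
  have hm : ∀ t ∈ Icc (0 : ℝ) 12, (M' t - M t) % 6 = 2 ∨ (M' t - M t) % 6 = 3 ∨
      (M' t - M t) % 6 = 4 := fun t ht => H.inc H' ht ht (hinc t ht).1 (hinc t ht).2
  have hc := const_band (F := fun t => M' t - M t) (fun t ht => by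
    filter_upwards [H.loc t ht, H'.loc t ht] with s h1 h2
    rw [abs_le] at h1 h2 ⊢
    omega) hm
  have h0 : (0 : ℝ) ∈ Icc (0 : ℝ) 12 := ⟨le_rfl, by norm_num⟩
  refine ⟨(M' 0 - M 0 - 2) / 6, fun t ht => ?_⟩
  have h1 := hc t ht 0 h0
  have h2 := hm t ht
  omega

/-- the winding number -/
theorem Ht913.W (hc : Cov Q) (H : Ht913 Q M) :
    ∃ W : ℤ, ∀ t ∈ Icc (0 : ℝ) 6, M (t + 6) = M t + 6 * W := by
  have hm : ∀ t ∈ Icc (0 : ℝ) 6, (M (t + 6) - M t) % 6 = 0 := fun t ht =>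
    H.eqm H ⟨ht.1, by linarith [ht.2]⟩ ⟨by linarith [ht.1], by linarith [ht.2]⟩ (hc.per t).symm
  have h2 := const_zero (F := fun t => M (t + 6) - M t) (fun t ht => by
    have k1 := nhdsWithin_mono t (Icc_subset_Icc le_rfl (by norm_num : (6 : ℝ) ≤ 12))
      (H.loc t ⟨ht.1, by linarith [ht.2]⟩)
    have k2 := (tend_shift (t := t) (a := 0) (b := 6) (c := 6) (a' := 0) (b' := 12) (by norm_num)
      (by norm_num)).eventually (H.loc (t + 6) ⟨by linarith [ht.1], by linarith [ht.2]⟩)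
    filter_upwards [k1, k2] with s h1 h2
    rw [abs_le] at h1 h2 ⊢
    omega) hm
  have h0 : (0 : ℝ) ∈ Icc (0 : ℝ) 6 := ⟨le_rfl, by norm_num⟩
  refine ⟨(M (0 + 6) - M 0) / 6, fun t ht => ?_⟩
  have h3 := h2 t ht 0 h0
  have h4 := hm 0 h0
  omega

/-- **the winding numbers of incomparable covers are equal** -/
theorem Ht913.W_eq (H : Ht913 Q M) (H' : Ht913 Q' M')
    (hinc : ∀ t ∈ Icc (0 : ℝ) 12, ¬ Q t ⊆ Q' t ∧ ¬ Q' t ⊆ Q t) {W W' : ℤ}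
    (hW : ∀ t ∈ Icc (0 : ℝ) 6, M (t + 6) = M t + 6 * W)
    (hW' : ∀ t ∈ Icc (0 : ℝ) 6, M' (t + 6) = M' t + 6 * W') : W = W' := by
  obtain ⟨k, hk⟩ := H.E H' hinc
  have h1 := hW 0 ⟨le_rfl, by norm_num⟩
  have h2 := hW' 0 ⟨le_rfl, by norm_num⟩
  have h3 := hk 0 ⟨le_rfl, by norm_num⟩
  have h4 := hk (0 + 6) ⟨by norm_num, by norm_num⟩
  omega

/-- steps of one -/
theorem Ht913.D (H : Ht913 Q M) {a b : ℝ} (ha : 0 ≤ a) (hab : a ≤ b) (hb : b + 1 ≤ 12)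
    (hinc : ∀ t ∈ Icc a b, ¬ Q t ⊆ Q (t + 1) ∧ ¬ Q (t + 1) ⊆ Q t) :
    ∃ m : ℤ, ∀ t ∈ Icc a b, 6 * m + 2 ≤ M (t + 1) - M t ∧ M (t + 1) - M t ≤ 6 * m + 4 := by
  have i1 : ∀ t ∈ Icc a b, t ∈ Icc (0 : ℝ) 12 := fun t ht =>
    ⟨ha.trans ht.1, by linarith [ht.2]⟩
  have i2 : ∀ t ∈ Icc a b, t + 1 ∈ Icc (0 : ℝ) 12 := fun t ht =>
    ⟨by linarith [ht.1], by linarith [ht.2]⟩
  have hm : ∀ t ∈ Icc a b, (M (t + 1) - M t) % 6 = 2 ∨ (M (t + 1) - M t) % 6 = 3 ∨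
      (M (t + 1) - M t) % 6 = 4 := fun t ht => H.inc H (i1 t ht) (i2 t ht) (hinc t ht).1 (hinc t ht).2
  have hc := const_band (F := fun t => M (t + 1) - M t) (fun t ht => by
    have k1 := nhdsWithin_mono t (Icc_subset_Icc ha (by linarith : b ≤ 12)) (H.loc t (i1 t ht))
    have k2 := (tend_shift (t := t) (a := a) (b := b) (c := 1) (a' := 0) (b' := 12) (by linarith)
      (by linarith)).eventually (H.loc (t + 1) (i2 t ht))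
    filter_upwards [k1, k2] with s h1 h2
    rw [abs_le] at h1 h2 ⊢
    omega) hm
  refine ⟨(M (a + 1) - M a - 2) / 6, fun t ht => ?_⟩
  have h1 := hc t ht a ⟨le_rfl, hab⟩
  have h2 := hm t ht
  omega

theorem st2a {a b m : ℤ} (h1 : 12 * m + 4 ≤ b - a) (h2 : b - a ≤ 12 * m + 8) (ha : a % 6 ≠ 4)
    (hb : b % 6 = 0 ∨ b % 6 = 1 ∨ b % 6 = 2) : (b + 1) / 6 = (a + 1) / 6 + 2 * m + 1 := by
  rcases hb with hb | hb | hb <;> omega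

theorem st2b {a b m : ℤ} (h1 : 12 * m + 4 ≤ b - a) (h2 : b - a ≤ 12 * m + 8) (hb : b % 6 ≠ 4)
    (ha : a % 6 = 0 ∨ a % 6 = 1 ∨ a % 6 = 2) : (b + 1) / 6 = (a + 1) / 6 + 2 * m + 1 := by
  rcases ha with ha | ha | ha <;> omega

theorem st3 {a b n : ℤ} (h1 : 6 * n + 4 ≤ b - a) (h2 : b - a ≤ 6 * n + 8)
    (x : ((a % 6 = 0 ∨ a % 6 = 1 ∨ a % 6 = 5) ∧ (b % 6 = 0 ∨ b % 6 = 1 ∨ b % 6 = 5)) ∨
      ((a % 6 = 1 ∨ a % 6 = 2 ∨ a % 6 = 3) ∧ (b % 6 = 1 ∨ b % 6 = 2 ∨ b % 6 = 3))) :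
    (b + 1) / 6 = (a + 1) / 6 + n + 1 := by
  rcases x with ⟨x1 | x1 | x1, x2 | x2 | x2⟩ | ⟨x1 | x1 | x1, x2 | x2 | x2⟩ <;> omega

theorem st4 {a b n : ℤ} (h1 : 6 * n - 2 ≤ b - a) (h2 : b - a ≤ 6 * n + 2)
    (x : ((a % 6 = 0 ∨ a % 6 = 1 ∨ a % 6 = 5) ∧ (b % 6 = 0 ∨ b % 6 = 1 ∨ b % 6 = 5)) ∨
      ((a % 6 = 1 ∨ a % 6 = 2 ∨ a % 6 = 3) ∧ (b % 6 = 1 ∨ b % 6 = 2 ∨ b % 6 = 3))) :
    (b + 1) / 6 = (a + 1) / 6 + n := by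
  rcases x with ⟨x1 | x1 | x1, x2 | x2 | x2⟩ | ⟨x1 | x1 | x1, x2 | x2 | x2⟩ <;> omega

theorem T_int913 {a1 a2 a3 a4 a5 b5 b7 k m : ℤ} (d1 : 6 * m + 2 ≤ a2 - a1 ∧ a2 - a1 ≤ 6 * m + 4)
    (d2 : 6 * m + 2 ≤ a3 - a2 ∧ a3 - a2 ≤ 6 * m + 4) (d3 : 6 * m + 2 ≤ a4 - a3 ∧ a4 - a3 ≤ 6 * m + 4)
    (d4 : 6 * m + 2 ≤ a5 - a4 ∧ a5 - a4 ≤ 6 * m + 4) (e2 : 6 * k + 2 ≤ b5 - a2 ∧ b5 - a2 ≤ 6 * k + 4)
    (e4 : 6 * k + 2 ≤ b7 - a4 ∧ b7 - a4 ≤ 6 * k + 4)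
    (r3 : a3 % 6 = 0 ∨ a3 % 6 = 1 ∨ a3 % 6 = 2)
    (x1 : ((a1 % 6 = 0 ∨ a1 % 6 = 1 ∨ a1 % 6 = 5) ∧ (b5 % 6 = 0 ∨ b5 % 6 = 1 ∨ b5 % 6 = 5)) ∨
      ((a1 % 6 = 1 ∨ a1 % 6 = 2 ∨ a1 % 6 = 3) ∧ (b5 % 6 = 1 ∨ b5 % 6 = 2 ∨ b5 % 6 = 3)))
    (x2 : ((a5 % 6 = 0 ∨ a5 % 6 = 1 ∨ a5 % 6 = 5) ∧ (b7 % 6 = 0 ∨ b7 % 6 = 1 ∨ b7 % 6 = 5)) ∨
      ((a5 % 6 = 1 ∨ a5 % 6 = 2 ∨ a5 % 6 = 3) ∧ (b7 % 6 = 1 ∨ b7 % 6 = 2 ∨ b7 % 6 = 3))) :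
    (b7 + 1) / 6 = (b5 + 1) / 6 + 2 * m + 1 ∧ (a5 + 1) / 6 = (a1 + 1) / 6 + 4 * m + 2 := by
  have n1 : a1 % 6 ≠ 4 := by
    rcases x1 with ⟨x, -⟩ | ⟨x, -⟩ <;> rcases x with x | x | x <;> rw [x] <;> decide
  have n5 : a5 % 6 ≠ 4 := by
    rcases x2 with ⟨x, -⟩ | ⟨x, -⟩ <;> rcases x with x | x | x <;> rw [x] <;> decide
  have s1 : (a3 + 1) / 6 = (a1 + 1) / 6 + 2 * m + 1 :=
    st2a (by linarith [d1.1, d2.1]) (by linarith [d1.2, d2.2]) n1 r3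
  have s2 : (a5 + 1) / 6 = (a3 + 1) / 6 + 2 * m + 1 :=
    st2b (by linarith [d3.1, d4.1]) (by linarith [d3.2, d4.2]) n5 r3
  have s3 : (b5 + 1) / 6 = (a1 + 1) / 6 + (k + m) + 1 :=
    st3 (by linarith [d1.1, e2.1]) (by linarith [d1.2, e2.2]) x1
  have s4 : (b7 + 1) / 6 = (a5 + 1) / 6 + (k - m) :=
    st4 (by linarith [d4.2, e4.1]) (by linarith [d4.1, e4.2]) x2
  constructor <;> linarith

/-- **The window theorem.** `Q, Q'` incomparable covers, `Q t, Q (t + 1)` incomparable on `[4, 7]`, a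
common free label of `Q 4, Q' 5` and of `Q 8, Q' 7`, no label `2` in `Q 6`. -/
theorem T913 (H : Ht913 Q M) (H' : Ht913 Q' M')
    (hinc : ∀ t ∈ Icc (0 : ℝ) 12, ¬ Q t ⊆ Q' t ∧ ¬ Q' t ⊆ Q t)
    (hincz : ∀ t ∈ Icc (4 : ℝ) 7, ¬ Q t ⊆ Q (t + 1) ∧ ¬ Q (t + 1) ⊆ Q t)
    (g1 : (0 ∈ Q 4 ∧ 0 ∈ Q' 5) ∨ (1 ∈ Q 4 ∧ 1 ∈ Q' 5))
    (g2 : (0 ∈ Q 8 ∧ 0 ∈ Q' 7) ∨ (1 ∈ Q 8 ∧ 1 ∈ Q' 7)) (h6 : 2 ∉ Q 6) :
    ∃ m : ℤ, (M' 7 + 1) / 6 = (M' 5 + 1) / 6 + 2 * m + 1 ∧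
      (M 8 + 1) / 6 = (M 4 + 1) / 6 + 4 * m + 2 := by
  obtain ⟨k, hk⟩ := H.E H' hinc
  obtain ⟨m, hm⟩ := H.D (by norm_num) (by norm_num) (by norm_num) hincz
  have i4 : (4 : ℝ) ∈ Icc (0 : ℝ) 12 := ⟨by norm_num, by norm_num⟩
  have i5 : (5 : ℝ) ∈ Icc (0 : ℝ) 12 := ⟨by norm_num, by norm_num⟩
  have i6 : (6 : ℝ) ∈ Icc (0 : ℝ) 12 := ⟨by norm_num, by norm_num⟩
  have i7 : (7 : ℝ) ∈ Icc (0 : ℝ) 12 := ⟨by norm_num, by norm_num⟩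
  have i8 : (8 : ℝ) ∈ Icc (0 : ℝ) 12 := ⟨by norm_num, by norm_num⟩
  have d1 := hm 4 ⟨by norm_num, by norm_num⟩
  have d2 := hm 5 ⟨by norm_num, by norm_num⟩
  have d3 := hm 6 ⟨by norm_num, by norm_num⟩
  have d4 := hm 7 ⟨by norm_num, by norm_num⟩
  rw [show (4 : ℝ) + 1 = 5 by norm_num] at d1
  rw [show (5 : ℝ) + 1 = 6 by norm_num] at d2
  rw [show (6 : ℝ) + 1 = 7 by norm_num] at d3
  rw [show (7 : ℝ) + 1 = 8 by norm_num] at d4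
  rw [H.r0 i4, H'.r0 i5, H.r1 i4, H'.r1 i5] at g1
  rw [H.r0 i8, H'.r0 i7, H.r1 i8, H'.r1 i7] at g2
  rw [H.r2 i6] at h6
  exact ⟨m, T_int913 d1 d2 d3 d4 (hk 5 i5) (hk 7 i7) (by omega) g1 g2⟩

end Vale.Agent.P032.H913
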