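import Vale.Agent.P032.H913.Fin1
import Vale.Agent.P032.H594.CntC
import Vale.Agent.P032.H815.NoJ2
import Vale.Agent.P032.H471.Sec4T

/-!
# P032: the block on complementary ends is closed (helper913)

`noJ1_all913` : no comp centre has exactly one `J`-partner (world `NW`, `OnlyJT`, `Sec4`).
`noJ2_all913` : no comp centre has two `J`-partners.
`noCompJ913` : `NoCompJ`, without hypotheses.
-/

open Set Filter Topology Metric

noncomputable section

namespace Vale.Agent.P032.H913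

open Vale.Agent.P032.Six Vale.Agent.P032.S5.H767 Vale.Agent.P032.S5.H349
  Vale.Agent.P032.S5.H450
open Vale.Agent.P032.H594 (Comp Jp NoJ1 NoJ2 OnlyJT NW NoJ1J NoJ2J NoCompJ cnt594 cntJ2_594
  noCompJ_of)
open Vale.Agent.P032.H471 (Sec4 no_comp11 no_comp22 sec4J)

variable {U : Fin 6 → Set ℂ} {T : ℂ → Set (Fin 6)} {z y : ℂ}

/-- **no comp centre has exactly one `J`-partner** -/
theorem noJ1_all913 (W : NW U T) (hT : OnlyJT T) (hS : Sec4 T) : NoJ1 T := by
  have h := W.irr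
  have h5 := W.np
  have hJC := hT.onlyJC h h5
  have h11 := no_comp11 h W.mn h5 hJC
  have h22 := no_comp22 h W.mn h5 hJC
  refine noJ1_of913 h h5 hT hS (fun z y _ _ _ v q hv hq hc => cnt594 h hS h11 h22 hv hq hc) ?_
  intro z y y' hz hy hy' hne
  obtain ⟨φ, hφ⟩ := S5.H349.exists_pt hy.1
  obtain ⟨a, b, c, d, e, f, r, S, -, hF, hC, -⟩ := cntJ2_594 (φ := φ) h h5 hT hS h11 h22 hz
    (by rw [← hφ]; exact hy.2) hy'.1 hy'.2 (by rw [← hφ]; exact hne)
  exact ⟨a, b, c, d, e, f, S, hF, hC⟩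

/-- **no comp centre has two `J`-partners** -/
theorem noJ2_all913 (W : NW U T) (hT : OnlyJT T) (hS : Sec4 T) : NoJ2 T := by
  have h := W.irr
  have h5 := W.np
  have hJC := hT.onlyJC h h5
  have h11 := no_comp11 h W.mn h5 hJC
  have h22 := no_comp22 h W.mn h5 hJC
  refine H815.noJ2_815 h h5 hT hS (noJ1_all913 W hT hS) ?_ ?_
  · intro z v v' x x' e1 e2 e3 e4 t1 t2 t3 n1 n2
    exact h22 z v v' x x' ⟨e1, e2, e3, e4, t1, by rw [t3, t2], t2, n1, n2⟩
  · intro z y y' hz hy hy' hne φ hφ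
    obtain ⟨a, b, c, d, e, f, r, S, Z, hF, hC, h6⟩ := cntJ2_594 (φ := φ) h h5 hT hS h11 h22 hz
      (by rw [hφ]; exact hy.2) hy'.1 hy'.2 (by rw [hφ]; exact hne)
    exact ⟨a, b, c, d, e, f, r, S, Z, hF, hC, h6⟩

theorem noJ1J913 : NoJ1J := fun _ _ W hT hS => noJ1_all913 W hT hS

theorem noJ2J913 : NoJ2J := fun _ _ W hT hS _ => noJ2_all913 W hT hS

/-- **the block on complementary ends** -/
theorem noCompJ913 : NoCompJ := noCompJ_of sec4J noJ1J913 noJ2J913

end Vale.Agent.P032.H913
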