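import Vale.Agent.P032.H838.Blk

/-!
# P032: parity of the winding number by counting (helper913)

`Xs Q` : the directions with the labels `1` and `2`.  `Cr Q x` : the label changes between `1` and `2`
at `x`.
`Ht.par913` : if all points of `Xs Q` in a period are such changes, their number and the winding
number have the same parity.
-/

open Set Filter Topology

noncomputable section

namespace Vale.Agent.P032.H913

open Vale.Agent.P032.H180 (const_of_loc)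
open Vale.Agent.P032.H695 (Cov)
open Vale.Agent.P032.H838 (Ht)

variable {Q : ℝ → Set (Fin 3)} {M : ℝ → ℤ} {W : ℤ}

/-- the directions with the labels `1` and `2` -/
def Xs (Q : ℝ → Set (Fin 3)) : Set ℝ := {t | 1 ∈ Q t ∧ 2 ∈ Q t}

/-- the label changes between `1` and `2` at `x` -/
def Cr (Q : ℝ → Set (Fin 3)) (x : ℝ) : Prop :=
  ((∀ᶠ s in 𝓝[<] x, 2 ∉ Q s) ∧ ∀ᶠ s in 𝓝[>] x, 1 ∉ Q s) ∨
    ((∀ᶠ s in 𝓝[<] x, 1 ∉ Q s) ∧ ∀ᶠ s in 𝓝[>] x, 2 ∉ Q s)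

/-- the window is locally constant away from `Xs` -/
theorem loc_k (h : Cov Q) (H : Ht Q M W) {t : ℝ} (ht : t ∉ Xs Q) :
    ∀ᶠ s in 𝓝 t, (M s + 2) / 6 = (M t + 2) / 6 := by
  have h3 : ¬ (M t % 6 = 3) := by
    intro h3
    exact ht ⟨(H.res1 t).2 (by omega), (H.res2 t).2 (by omega)⟩
  filter_upwards [H.loc t, h.usc t] with s h1 h2
  have k0 : (M s % 6 = 0 ∨ M s % 6 = 1 ∨ M s % 6 = 5) → (M t % 6 = 0 ∨ M t % 6 = 1 ∨ M t % 6 = 5) :=
    fun k => (H.res0 t).1 (h2 ((H.res0 s).2 k))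
  have k1 : (M s % 6 = 1 ∨ M s % 6 = 2 ∨ M s % 6 = 3) → (M t % 6 = 1 ∨ M t % 6 = 2 ∨ M t % 6 = 3) :=
    fun k => (H.res1 t).1 (h2 ((H.res1 s).2 k))
  have k2 : (M s % 6 = 3 ∨ M s % 6 = 4 ∨ M s % 6 = 5) → (M t % 6 = 3 ∨ M t % 6 = 4 ∨ M t % 6 = 5) :=
    fun k => (H.res2 t).1 (h2 ((H.res2 s).2 k))
  rw [abs_le] at h1
  omega

/-- the window is constant on an interval without points of `Xs` -/
theorem const_k (h : Cov Q) (H : Ht Q M W) {s t : ℝ} (hst : s ≤ t)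
    (hx : ∀ x ∈ Icc s t, x ∉ Xs Q) : (M t + 2) / 6 = (M s + 2) / 6 :=
  const_of_loc (f := fun x => (M x + 2) / 6)
    (fun x hxI => nhdsWithin_le_nhds (loc_k h H (hx x hxI))) t ⟨hst, le_rfl⟩ s ⟨le_rfl, hst⟩

/-- near a point of `Xs` with a change -/
theorem jump_k (h : Cov Q) (H : Ht Q M W) {x : ℝ} (hx : x ∈ Xs Q) (hc : Cr Q x) {p q : ℝ}
    (hp : p < x) (hq : x < q) : ∃ x1 x2, p < x1 ∧ x1 < x ∧ x < x2 ∧ x2 < q ∧
      (∀ u ∈ Ico x1 x, u ∉ Xs Q) ∧ (∀ u ∈ Ioc x x2, u ∉ Xs Q) ∧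
      ((M x2 + 2) / 6 - (M x1 + 2) / 6) % 2 = 1 := by
  have hx3 : M x % 6 = 3 := by
    have h1 := (H.res1 x).1 hx.1
    have h2 := (H.res2 x).1 hx.2
    omega
  have nb : ∀ᶠ s in 𝓝 x, |M s - M x| ≤ 1 ∧ Q s ⊆ Q x := (H.loc x).and (h.usc x)
  -- values on the two sides
  have v2 : ∀ s, |M s - M x| ≤ 1 ∧ Q s ⊆ Q x → 2 ∉ Q s → (M s + 2) / 6 = (M x + 2) / 6 := by
    rintro s ⟨h1, h2⟩ h3
    rw [abs_le] at h1
    rw [H.res2] at h3
    omega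
  have v1 : ∀ s, |M s - M x| ≤ 1 ∧ Q s ⊆ Q x → 1 ∉ Q s → (M s + 2) / 6 = (M x + 2) / 6 + 1 := by
    rintro s ⟨h1, h2⟩ h3
    rw [abs_le] at h1
    rw [H.res1] at h3
    omega
  have L : ∀ l : Fin 3, (l = 1 ∨ l = 2) → (∀ᶠ s in 𝓝[<] x, l ∉ Q s) →
      ∃ x1, p < x1 ∧ x1 < x ∧ (∀ u ∈ Ico x1 x, u ∉ Xs Q) ∧ l ∉ Q x1 ∧
        (|M x1 - M x| ≤ 1 ∧ Q x1 ⊆ Q x) := by
    intro l hl hev
    have hev2 : ∀ᶠ s in 𝓝[<] x, l ∉ Q s ∧ (|M s - M x| ≤ 1 ∧ Q s ⊆ Q x) :=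
      hev.and (nhdsWithin_le_nhds nb)
    obtain ⟨r, hr, hs⟩ := (mem_nhdsLT_iff_exists_Ioo_subset (a := x)).1 hev2
    have hr : r < x := hr
    obtain ⟨x1, h1, h2⟩ := exists_between (max_lt hr hp)
    refine ⟨x1, lt_of_le_of_lt (le_max_right _ _) h1, h2, ?_, ?_⟩
    · intro u hu hX
      have hm := hs (show u ∈ Ioo r x from
        ⟨lt_of_lt_of_le (lt_of_le_of_lt (le_max_left _ _) h1) hu.1, hu.2⟩)
      rcases hl with rfl | rfl
      · exact hm.1 hX.1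
      · exact hm.1 hX.2
    · exact hs (show x1 ∈ Ioo r x from ⟨lt_of_le_of_lt (le_max_left _ _) h1, h2⟩)
  have R : ∀ l : Fin 3, (l = 1 ∨ l = 2) → (∀ᶠ s in 𝓝[>] x, l ∉ Q s) →
      ∃ x1, x < x1 ∧ x1 < q ∧ (∀ u ∈ Ioc x x1, u ∉ Xs Q) ∧ l ∉ Q x1 ∧
        (|M x1 - M x| ≤ 1 ∧ Q x1 ⊆ Q x) := by
    intro l hl hev
    have hev2 : ∀ᶠ s in 𝓝[>] x, l ∉ Q s ∧ (|M s - M x| ≤ 1 ∧ Q s ⊆ Q x) :=
      hev.and (nhdsWithin_le_nhds nb)
    obtain ⟨r, hr, hs⟩ := (mem_nhdsGT_iff_exists_Ioo_subset (a := x)).1 hev2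
    have hr : x < r := hr
    obtain ⟨x1, h1, h2⟩ := exists_between (lt_min hr hq)
    refine ⟨x1, h1, lt_of_lt_of_le h2 (min_le_right _ _), ?_, ?_⟩
    · intro u hu hX
      have hm := hs (show u ∈ Ioo x r from
        ⟨hu.1, lt_of_le_of_lt hu.2 (lt_of_lt_of_le h2 (min_le_left _ _))⟩)
      rcases hl with rfl | rfl
      · exact hm.1 hX.1
      · exact hm.1 hX.2
    · exact hs (show x1 ∈ Ioo x r from ⟨h1, lt_of_lt_of_le h2 (min_le_left _ _)⟩)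
  rcases hc with ⟨hc1, hc2⟩ | ⟨hc1, hc2⟩
  · obtain ⟨x1, a1, a2, a3, a4, a5⟩ := L 2 (Or.inr rfl) hc1
    obtain ⟨x2, b1, b2, b3, b4, b5⟩ := R 1 (Or.inl rfl) hc2
    refine ⟨x1, x2, a1, a2, b1, b2, a3, b3, ?_⟩
    rw [v2 x1 a5 a4, v1 x2 b5 b4]
    omega
  · obtain ⟨x1, a1, a2, a3, a4, a5⟩ := L 1 (Or.inl rfl) hc1
    obtain ⟨x2, b1, b2, b3, b4, b5⟩ := R 2 (Or.inr rfl) hc2
    refine ⟨x1, x2, a1, a2, b1, b2, a3, b3, ?_⟩
    rw [v1 x1 a5 a4, v2 x2 b5 b4]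
    omega

/-- **parity of the number of changes in an interval** -/
theorem par_k (h : Cov Q) (H : Ht Q M W) : ∀ (n : ℕ) (s t : ℝ), s < t → s ∉ Xs Q → t ∉ Xs Q →
    (Xs Q ∩ Ioo s t).Finite → (Xs Q ∩ Ioo s t).ncard = n → (∀ x ∈ Xs Q ∩ Ioo s t, Cr Q x) →
    ((M t + 2) / 6 - (M s + 2) / 6) % 2 = (n : ℤ) % 2 := by
  intro n
  induction n with
  | zero =>
    intro s t hst hs ht hfin hn _
    rw [Set.ncard_eq_zero hfin] at hn
    have h1 := const_k h H hst.le (fun x hx hX => by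
      rcases hx.1.eq_or_lt with k | k
      · exact hs (k ▸ hX)
      rcases hx.2.eq_or_lt with k' | k'
      · exact ht (k' ▸ hX)
      have : x ∈ Xs Q ∩ Ioo s t := ⟨hX, k, k'⟩
      rw [hn] at this
      exact this)
    rw [h1]
    simp
  | succ n ih =>
    intro s t hst hs ht hfin hn hcr
    have hne : (Xs Q ∩ Ioo s t).Nonempty := by
      rw [← Set.ncard_pos hfin, hn]; omega
    obtain ⟨x, hx, hmax⟩ := Set.exists_max_image _ id hfin hne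
    have hmax : ∀ u ∈ Xs Q ∩ Ioo s t, u ≤ x := hmax
    obtain ⟨x1, x2, p1, p2, p3, p4, p5, p6, p7⟩ := jump_k h H hx.1 (hcr x hx) hx.2.1 hx.2.2
    have hset : Xs Q ∩ Ioo s x1 = (Xs Q ∩ Ioo s t) \ {x} := by
      ext u
      constructor
      · rintro ⟨k1, k2⟩
        exact ⟨⟨k1, k2.1, by linarith [k2.2]⟩, fun k3 => by
          rw [mem_singleton_iff] at k3
          linarith [k2.2]⟩
      · rintro ⟨k1, k2⟩
        have k3 := hmax u k1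
        have k4 : u < x := lt_of_le_of_ne k3 k2
        refine ⟨k1.1, k1.2.1, ?_⟩
        by_contra hcon
        exact p5 u ⟨not_lt.1 hcon, k4⟩ k1.1
    have i1 := ih s x1 p1 hs (p5 x1 ⟨le_rfl, p2⟩) (by rw [hset]; exact hfin.subset sdiff_subset)
      (by rw [hset, Set.ncard_sdiff_singleton_of_mem hx, hn]; rfl)
      (fun u hu => hcr u (by rw [hset] at hu; exact hu.1))
    have i2 := const_k h H p4.le (fun u hu hX => by
      rcases hu.2.eq_or_lt with k' | k'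
      · exact ht (k' ▸ hX)
      have := hmax u ⟨hX, by linarith [hu.1, hx.2.1], k'⟩
      linarith [hu.1])
    push_cast
    omega

/-- **the winding number and the number of changes in a period have the same parity** -/
theorem par913 (h : Cov Q) (H : Ht Q M W) (h0 : (0 : ℝ) ∉ Xs Q)
    (hfin : (Xs Q ∩ Ioo 0 6).Finite) (hcr : ∀ x ∈ Xs Q ∩ Ioo 0 6, Cr Q x) :
    W % 2 = ((Xs Q ∩ Ioo (0 : ℝ) 6).ncard : ℤ) % 2 := by
  have h6 : (6 : ℝ) ∉ Xs Q := by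
    have := h.per 0
    rw [zero_add] at this
    intro k
    apply h0
    unfold Xs at k ⊢
    rw [mem_ofPred_eq, this] at k
    exact k
  have h1 := par_k h H _ 0 6 (by norm_num) h0 h6 hfin rfl hcr
  have h2 := H.per 0
  rw [zero_add] at h2
  rw [h2] at h1
  omega

end Vale.Agent.P032.H913
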