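import Vale.Agent.P032.H913.Cnt

/-!
# P032: parity of the number of the borders of the arcs of one pair (helper913)

`even_f913` : a periodic function, locally constant off a finite set, with different values on the
two sides of each point of it: the set has an even number of points.
`parA_913` : the number of the points `{a, b, e}`, the ends `{a, b, f}` and the `J`-partners is even.
-/

open Set Filter Topology Metric

noncomputable section

namespace Vale.Agent.P032.H913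

open Vale.Agent.P032.H180 (const_of_loc)

/-! ### Abstract -/

section

variable {X : Set ℝ} {f : ℝ → ℤ}

/-- the values on the two sides differ by an odd number -/
def Jmp (f : ℝ → ℤ) (x : ℝ) : Prop :=
  ∃ k : ℤ, (∀ᶠ s in 𝓝[<] x, f s = k) ∧ ∀ᶠ s in 𝓝[>] x, (f s - k) % 2 = 1

theorem Jmp.near {x : ℝ} (h : Jmp f x) (hX : ∀ᶠ s in 𝓝[≠] x, s ∉ X) {p q : ℝ} (hp : p < x)
    (hq : x < q) : ∃ x1 x2, p < x1 ∧ x1 < x ∧ x < x2 ∧ x2 < q ∧ (∀ u ∈ Ico x1 x, u ∉ X) ∧
      (∀ u ∈ Ioc x x2, u ∉ X) ∧ (f x2 - f x1) % 2 = 1 := by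
  obtain ⟨k, h1, h2⟩ := h
  have hl : ∀ᶠ s in 𝓝[<] x, s ∉ X ∧ f s = k :=
    (hX.filter_mono (nhdsWithin_mono _ fun s hs => (ne_of_lt hs))).and h1
  have hr : ∀ᶠ s in 𝓝[>] x, s ∉ X ∧ (f s - k) % 2 = 1 :=
    (hX.filter_mono (nhdsWithin_mono _ fun s hs => (ne_of_gt hs))).and h2
  obtain ⟨r, hr1, hs⟩ := (mem_nhdsLT_iff_exists_Ioo_subset (a := x)).1 hl
  obtain ⟨r', hr2, hs'⟩ := (mem_nhdsGT_iff_exists_Ioo_subset (a := x)).1 hr
  have hr1 : r < x := hr1
  have hr2 : x < r' := hr2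
  obtain ⟨x1, a1, a2⟩ := exists_between (max_lt hr1 hp)
  obtain ⟨x2, b1, b2⟩ := exists_between (lt_min hr2 hq)
  have a3 := le_max_left r p
  have a4 := le_max_right r p
  have b3 := min_le_left r' q
  have b4 := min_le_right r' q
  have m1 := hs (show x1 ∈ Ioo r x from ⟨by linarith, a2⟩)
  have m2 := hs' (show x2 ∈ Ioo x r' from ⟨b1, by linarith⟩)
  refine ⟨x1, x2, by linarith, a2, b1, by linarith, fun u hu => ?_, fun u hu => ?_, ?_⟩
  · exact (hs (show u ∈ Ioo r x from ⟨by linarith [hu.1], hu.2⟩)).1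
  · exact (hs' (show u ∈ Ioo x r' from ⟨hu.1, by linarith [hu.2]⟩)).1
  · rw [m1.2]; exact m2.2

theorem par_f913 (hloc : ∀ t, t ∉ X → ∀ᶠ s in 𝓝 t, f s = f t)
    (hiso : ∀ x ∈ X, ∀ᶠ s in 𝓝[≠] x, s ∉ X) : ∀ (n : ℕ) (s t : ℝ), s < t → s ∉ X → t ∉ X →
    (X ∩ Ioo s t).Finite → (X ∩ Ioo s t).ncard = n → (∀ x ∈ X ∩ Ioo s t, Jmp f x) →
    (f t - f s) % 2 = (n : ℤ) % 2 := by
  have const : ∀ s t : ℝ, s ≤ t → (∀ x ∈ Icc s t, x ∉ X) → f t = f s := fun s t hst hx =>
    const_of_loc (f := f) (fun x hxI => nhdsWithin_le_nhds (hloc x (hx x hxI))) t ⟨hst, le_rfl⟩ s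
      ⟨le_rfl, hst⟩
  intro n
  induction n with
  | zero =>
    intro s t hst hs ht hfin hn _
    rw [Set.ncard_eq_zero hfin] at hn
    have h1 := const s t hst.le (fun x hx hX => by
      rcases hx.1.eq_or_lt with k | k
      · exact hs (k ▸ hX)
      rcases hx.2.eq_or_lt with k' | k'
      · exact ht (k' ▸ hX)
      have : x ∈ X ∩ Ioo s t := ⟨hX, k, k'⟩
      rw [hn] at this
      exact this)
    rw [h1]
    simp
  | succ n ih =>
    intro s t hst hs ht hfin hn hcr
    have hne : (X ∩ Ioo s t).Nonempty := by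
      rw [← Set.ncard_pos hfin, hn]; omega
    obtain ⟨x, hx, hmax⟩ := Set.exists_max_image _ id hfin hne
    have hmax : ∀ u ∈ X ∩ Ioo s t, u ≤ x := hmax
    obtain ⟨x1, x2, p1, p2, p3, p4, p5, p6, p7⟩ := (hcr x hx).near (hiso x hx.1) hx.2.1 hx.2.2
    have hset : X ∩ Ioo s x1 = (X ∩ Ioo s t) \ {x} := by
      ext u
      constructor
      · rintro ⟨k1, k2⟩
        exact ⟨⟨k1, k2.1, by linarith [k2.2]⟩, fun k3 => by
          rw [mem_singleton_iff] at k3
          linarith [k2.2]⟩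
      · rintro ⟨k1, k2⟩
        have k3 := hmax u k1
        have k4 : u < x := lt_of_le_of_ne k3 k2
        refine ⟨k1.1, k1.2.1, ?_⟩
        by_contra hcon
        exact p5 u ⟨not_lt.1 hcon, k4⟩ k1.1
    have i1 := ih s x1 p1 hs (p5 x1 ⟨le_rfl, p2⟩) (by rw [hset]; exact hfin.subset sdiff_subset)
      (by rw [hset, Set.ncard_sdiff_singleton_of_mem hx, hn]; rfl)
      (fun u hu => hcr u (by rw [hset] at hu; exact hu.1))
    have i2 := const x2 t p4.le (fun u hu hX => by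
      rcases hu.2.eq_or_lt with k' | k'
      · exact ht (k' ▸ hX)
      have := hmax u ⟨hX, by linarith [hu.1, hx.2.1], k'⟩
      linarith [hu.1])
    push_cast
    omega

end

/-! ### The borders of the `ab`-arcs -/

open Vale.Agent.P032.Six Vale.Agent.P032.S5.H767 Vale.Agent.P032.S5.H122 Vale.Agent.P032.Sweep
open Vale.Agent.P032.H987 (CzF CzE Cz lbF aftP befP Fr pt_int)

variable {U : Fin 6 → Set ℂ} {T : ℂ → Set (Fin 6)} {z : ℂ} {a b c d e f : Fin 6} {g2 : Bool}

/-- the borders of the `ab`-arcs -/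
def BdA (T : ℂ → Set (Fin 6)) (z : ℂ) (a b e f : Fin 6) (y : ℂ) : Prop :=
  T y = {a, b, e} ∨ (T y = {a, b, f} ∧ y ∈ closure (Ex T z {a, b})) ∨ T y = T z

theorem lab_abe (S : Cz U T z a b c d e f) {g1 g2 : Bool} {y : ℂ} (hT : T y = {a, b, e}) :
    lbF g1 g2 T z a b c d e f y = 1 ∨ lbF g1 g2 T z a b c d e f y = 2 := by
  have h1 : T y ≠ T z := H546.ne_four S.four hT
  unfold lbF
  rw [if_neg h1, if_pos hT]
  split_ifs <;> simp

theorem lab_abf' (S : Cz U T z a b c d e f) {y : ℂ} (hT : T y = {a, b, f})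
    (hcl : y ∈ closure (Ex T z {a, b})) :
    lbF true g2 T z a b c d e f y = 7 ∨ lbF true g2 T z a b c d e f y = 8 := by
  have h1 : T y ≠ T z := H546.ne_four S.four hT
  have h2 : T y ≠ {a, b, e} := by rw [hT]; exact (H546.nd_ne S.nd).2.1.symm
  have h3 : T y ≠ {c, d, f} := by rw [hT]; exact (H546.nd_ne S.nd).2.2.2.1.symm
  unfold lbF
  rw [if_neg h1, if_neg h2, if_neg h3, if_pos ⟨rfl, hT, hcl⟩]
  split_ifs <;> simp

theorem lab_J {g1 g2 : Bool} {y : ℂ} (hT : T y = T z) :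
    lbF g1 g2 T z a b c d e f y = 5 ∨ lbF g1 g2 T z a b c d e f y = 6 := by
  unfold lbF
  rw [if_pos hT]
  split_ifs <;> simp

open Classical in
/-- indicator of the `ab`-arcs -/
def inA (T : ℂ → Set (Fin 6)) (z : ℂ) (a b : Fin 6) (φ t : ℝ) : ℤ :=
  if pt z (φ + t) ∈ closure (Ex T z {a, b}) then 1 else 0

theorem inA_one {φ t : ℝ} (h : pt z (φ + t) ∈ closure (Ex T z {a, b})) :
    inA T z a b φ t = 1 := by
  unfold inA; rw [if_pos h]

theorem inA_zero {φ t : ℝ} (h : pt z (φ + t) ∉ closure (Ex T z {a, b})) :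
    inA T z a b φ t = 0 := by
  unfold inA; rw [if_neg h]

theorem exC_notA (S : Cz U T z a b c d e f) {y : ℂ} (h : y ∈ Ex T z {c, d}) :
    y ∉ closure (Ex T z {a, b}) := by
  intro h1
  have h2 := sub_of_closure S.irr h1
  rw [ex_self h] at h2
  rcases h2 (show a ∈ ({a, b} : Set (Fin 6)) by simp) with k | k
  · exact S.dpt.ac k
  · exact S.dpt.ad k

/-- off the borders the indicator is locally constant -/
theorem inA_loc (S : Cz U T z a b c d e f) {φ t : ℝ} (ht : ¬ BdA T z a b e f (pt z (φ + t))) :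
    ∀ᶠ s in 𝓝 t, inA T z a b φ s = inA T z a b φ t := by
  have hc : Continuous fun s : ℝ => pt z (φ + s) :=
    (continuous_pt z).comp (continuous_const.add continuous_id)
  by_cases h : pt z (φ + t) ∈ closure (Ex T z {a, b})
  · have hE : pt z (φ + t) ∈ Ex T z {a, b} := by
      rcases S.cl_cases h with k | k | k | k
      · exact k
      · exact absurd (Or.inr (Or.inr k)) ht
      · exact absurd (Or.inl k) ht
      · exact absurd (Or.inr (Or.inl ⟨k, h⟩)) ht
    have h1 : {s : ℝ | φ + s ∈ {t : ℝ | pt z t ∈ Ex T z {a, b}}} ∈ 𝓝 t :=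
      ((H987.isOpen_ex z {a, b}).preimage (continuous_const.add continuous_id)).mem_nhds hE
    filter_upwards [h1] with s hs
    rw [inA_one h, inA_one (subset_closure hs)]
  · have h1 : ∀ᶠ s in 𝓝 t, pt z (φ + s) ∉ closure (Ex T z {a, b}) :=
      (isClosed_closure.isOpen_compl.preimage hc).mem_nhds h
    filter_upwards [h1] with s hs
    rw [inA_zero h, inA_zero hs]

/-- the indicator jumps at the borders -/
theorem inA_jmp (S : CzF true g2 U T z a b c d e f) {φ x : ℝ}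
    (hx : BdA T z a b e f (pt z (φ + x))) : Jmp (inA T z a b φ) x := by
  have C := S.toCz
  obtain ⟨s1, s2⟩ := S.sides (φ + x)
  have upA : (∃ β > φ + x, ∀ v ∈ Ioo (φ + x) β, pt z v ∈ Ex T z {a, b}) →
      ∀ᶠ s in 𝓝[>] x, inA T z a b φ s = 1 := fun h => by
    filter_upwards [ev_gt h] with s hs
    exact inA_one (subset_closure hs)
  have dnA : (∃ α < φ + x, ∀ v ∈ Ioo α (φ + x), pt z v ∈ Ex T z {a, b}) →
      ∀ᶠ s in 𝓝[<] x, inA T z a b φ s = 1 := fun h => by
    filter_upwards [ev_lt h] with s hs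
    exact inA_one (subset_closure hs)
  have up0 : ∀ {P : ℂ → Prop}, (∀ y, P y → y ∉ closure (Ex T z {a, b})) →
      (∃ β > φ + x, ∀ v ∈ Ioo (φ + x) β, P (pt z v)) →
      ∀ᶠ s in 𝓝[>] x, inA T z a b φ s = 0 := fun hP h => by
    filter_upwards [ev_gt h] with s hs
    exact inA_zero (hP _ hs)
  have dn0 : ∀ {P : ℂ → Prop}, (∀ y, P y → y ∉ closure (Ex T z {a, b})) →
      (∃ α < φ + x, ∀ v ∈ Ioo α (φ + x), P (pt z v)) →
      ∀ᶠ s in 𝓝[<] x, inA T z a b φ s = 0 := fun hP h => by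
    filter_upwards [ev_lt h] with s hs
    exact inA_zero (hP _ hs)
  have j1 : (∀ᶠ s in 𝓝[<] x, inA T z a b φ s = 0) → (∀ᶠ s in 𝓝[>] x, inA T z a b φ s = 1) →
      Jmp (inA T z a b φ) x := fun h1 h2 =>
    ⟨0, h1, h2.mono fun s hs => by rw [hs]; rfl⟩
  have j2 : (∀ᶠ s in 𝓝[<] x, inA T z a b φ s = 1) → (∀ᶠ s in 𝓝[>] x, inA T z a b φ s = 0) →
      Jmp (inA T z a b φ) x := fun h1 h2 =>
    ⟨1, h1, h2.mono fun s hs => by rw [hs]; rfl⟩
  rcases hx with k | ⟨k, k'⟩ | k
  · rcases lab_abe C (g1 := true) (g2 := g2) k with l | l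
    · rw [l] at s1 s2
      exact j2 (dnA s2) (up0 (P := Fr T z a b c d e f) (fun y hy => hy.1.1) s1)
    · rw [l] at s1 s2
      exact j1 (dn0 (P := Fr T z a b c d e f) (fun y hy => hy.1.1) s2) (upA s1)
  · rcases lab_abf' C (g2 := g2) k k' with l | l
    · rw [l] at s1 s2
      exact j2 (dnA s2) (up0 (P := Fr T z a b c d f e) (fun y hy => hy.1.1) s1)
    · rw [l] at s1 s2
      exact j1 (dn0 (P := Fr T z a b c d f e) (fun y hy => hy.1.1) s2) (upA s1)
  · rcases lab_J (g1 := true) (g2 := g2) (a := a) (b := b) (c := c) (d := d) (e := e) (f := f) k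
      with l | l
    · rw [l] at s1 s2
      exact j2 (dnA s2) (up0 (P := fun y => y ∈ Ex T z {c, d}) (fun y hy => exC_notA C hy) s1)
    · rw [l] at s1 s2
      exact j1 (dn0 (P := fun y => y ∈ Ex T z {c, d}) (fun y hy => exC_notA C hy) s2) (upA s1)

/-- **the number of the borders of the `ab`-arcs is even** -/
theorem parA_913 (S : CzF true g2 U T z a b c d e f)
    (hfin : {y | dist y z = 1 ∧ lbF true g2 T z a b c d e f y ≠ 0}.Finite) {n0 n1 n4 : ℕ}
    (c0 : {y | dist y z = 1 ∧ T y = {a, b, e}}.ncard = n0)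
    (c1 : {y | dist y z = 1 ∧ T y = {a, b, f} ∧ y ∈ closure (Ex T z {a, b})}.ncard = n1)
    (c4 : {y | dist y z = 1 ∧ T y = T z}.ncard = n4) : (n0 + n1 + n4) % 2 = 0 := by
  have C := S.toCz
  obtain ⟨p, hp⟩ := C.dpt.arc1
  obtain ⟨φ, hφ⟩ := S5.H349.exists_pt (show dist p z = 1 from hp.1)
  have hTp : T (pt z φ) = {a, b} := by rw [← hφ]; exact hp.mem
  set X : Set ℝ := {t | BdA T z a b e f (pt z (φ + t))} with hX
  have c2 : ({a, b} : Set (Fin 6)).ncard = 2 := Set.ncard_pair C.dpt.ab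
  obtain ⟨⟨ab, ac, ad, ae, af⟩, ⟨bc, bd, be, bf⟩, ⟨cd, ce, cf⟩, ⟨de, df⟩, ef⟩ :=
    S5.H349.nd_ne C.nd
  have n3 : ∀ g : Fin 6, a ≠ g → b ≠ g → ({a, b, g} : Set (Fin 6)).ncard = 3 := fun g h1 h2 =>
    Set.ncard_eq_three.2 ⟨a, b, g, ab, h1, h2, rfl⟩
  have h0 : (0 : ℝ) ∉ X := by
    intro h
    have h : BdA T z a b e f (pt z (φ + 0)) := h
    rw [add_zero] at h
    rcases h with k | ⟨k, -⟩ | k
    · rw [hTp] at k
      have := n3 e ae be
      rw [← k, c2] at this; omega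
    · rw [hTp] at k
      have := n3 f af bf
      rw [← k, c2] at this; omega
    · rw [hTp] at k
      have := C.four
      rw [← k, c2] at this; omega
  have h6 : (6 : ℝ) ∉ X := by
    intro h
    apply h0
    have h : BdA T z a b e f (pt z (φ + 6)) := h
    rw [pt_six] at h
    show BdA T z a b e f (pt z (φ + 0))
    rw [add_zero]; exact h
  set A0 : Set ℂ := {y | dist y z = 1 ∧ T y = {a, b, e}} with hA0
  set A1 : Set ℂ := {y | dist y z = 1 ∧ T y = {a, b, f} ∧ y ∈ closure (Ex T z {a, b})} with hA1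
  set A4 : Set ℂ := {y | dist y z = 1 ∧ T y = T z} with hA4
  have f0 : A0.Finite := hfin.subset fun y hy => ⟨hy.1, fun h => by
    rcases lab_abe C (g1 := true) (g2 := g2) hy.2 with k | k <;> rw [k] at h <;>
      exact absurd h (by decide)⟩
  have f1 : A1.Finite := hfin.subset fun y hy => ⟨hy.1, fun h => by
    rcases lab_abf' C (g2 := g2) hy.2.1 hy.2.2 with k | k <;> rw [k] at h <;>
      exact absurd h (by decide)⟩
  have f4 : A4.Finite := hfin.subset fun y hy => ⟨hy.1, fun h => by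
    rcases lab_J (g1 := true) (g2 := g2) (a := a) (b := b) (c := c) (d := d) (e := e) (f := f)
      hy.2 with k | k <;> rw [k] at h <;> exact absurd h (by decide)⟩
  have d01 : Disjoint A0 A1 := by
    rw [Set.disjoint_left]
    intro y h1 h3
    exact (H546.nd_ne C.nd).2.1 (by rw [← h1.2, h3.2.1])
  have d04 : Disjoint (A0 ∪ A1) A4 := by
    rw [Set.disjoint_left]
    rintro y (h1 | h1) h3
    · exact H546.ne_four C.four h1.2 h3.2
    · exact H546.ne_four C.four h1.2.1 h3.2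
  have himg : (fun t : ℝ => pt z (φ + t)) '' (X ∩ Ioo 0 6) = (A0 ∪ A1) ∪ A4 := by
    ext y
    constructor
    · rintro ⟨t, ⟨ht, -⟩, rfl⟩
      rcases ht with k | k | k
      · exact Or.inl (Or.inl ⟨dist_pt z _, k⟩)
      · exact Or.inl (Or.inr ⟨dist_pt z _, k.1, k.2⟩)
      · exact Or.inr ⟨dist_pt z _, k⟩
    · intro hy
      have hyz : dist y z = 1 := by rcases hy with (h | h) | h; exacts [h.1, h.1, h.1]
      have hB : BdA T z a b e f y := by
        rcases hy with (h | h) | h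
        exacts [Or.inl h.2, Or.inr (Or.inl h.2), Or.inr (Or.inr h.2)]
      obtain ⟨s, hs, rfl⟩ := H987.exists_pt_Ico hyz φ
      refine ⟨s - φ, ⟨?_, ?_, by linarith [hs.2]⟩,
        by show pt z (φ + (s - φ)) = pt z s; congr 1; ring⟩
      · show BdA T z a b e f (pt z (φ + (s - φ)))
        rw [show φ + (s - φ) = s by ring]; exact hB
      · rcases hs.1.lt_or_eq with k | k
        · linarith
        · exfalso
          apply h0
          show BdA T z a b e f (pt z (φ + 0))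
          rw [add_zero, k]; exact hB
  have hinj : InjOn (fun t : ℝ => pt z (φ + t)) (X ∩ Ioo 0 6) := by
    rintro s ⟨-, hs⟩ t ⟨-, ht⟩ hst
    have hst : pt z (φ + s) = pt z (φ + t) := hst
    obtain ⟨n, hn⟩ := S5.H349.pt_eq hst
    have h1 := hs.1
    have h2 := hs.2
    have h3 := ht.1
    have h4 := ht.2
    have hn0 : n = 0 := by
      have k1 : (n : ℝ) < 1 := by linarith
      have k2 : (-1 : ℝ) < n := by linarith
      have k3 : n < 1 := by exact_mod_cast k1
      have k4 : -1 < n := by exact_mod_cast k2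
      omega
    rw [hn0] at hn
    push_cast at hn
    linarith
  have hXfin : (X ∩ Ioo 0 6).Finite :=
    Set.Finite.of_finite_image (by rw [himg]; exact (f0.union f1).union f4) hinj
  have hcard : (X ∩ Ioo 0 6).ncard = n0 + n1 + n4 := by
    rw [← hinj.ncard_image, himg, Set.ncard_union_eq d04 (f0.union f1) f4,
      Set.ncard_union_eq d01 f0 f1, c0, c1, c4]
  have hjmp : ∀ x ∈ X, Jmp (inA T z a b φ) x := fun x hx => inA_jmp S hx
  have hiso : ∀ x ∈ X, ∀ᶠ s in 𝓝[≠] x, s ∉ X := by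
    intro x hx
    have hc : Continuous fun s : ℝ => pt z (φ + s) :=
      (continuous_pt z).comp (continuous_const.add continuous_id)
    have hG : (((A0 ∪ A1) ∪ A4) \ {pt z (φ + x)}).Finite :=
      ((f0.union f1).union f4).subset sdiff_subset
    have h1 : ∀ᶠ s in 𝓝 x, pt z (φ + s) ∉ (((A0 ∪ A1) ∪ A4) \ {pt z (φ + x)}) :=
      (hG.isClosed.isOpen_compl.preimage hc).mem_nhds (fun h => h.2 rfl)
    filter_upwards [nhdsWithin_le_nhds h1, nhdsWithin_le_nhds (Ioo_mem_nhds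
      (show x - 3 < x by linarith) (show x < x + 3 by linarith)), self_mem_nhdsWithin]
      with s k1 k2 k3 k4
    have hsF : pt z (φ + s) ∈ (A0 ∪ A1) ∪ A4 := by
      rcases k4 with k | k | k
      · exact Or.inl (Or.inl ⟨dist_pt z _, k⟩)
      · exact Or.inl (Or.inr ⟨dist_pt z _, k.1, k.2⟩)
      · exact Or.inr ⟨dist_pt z _, k⟩
    have e : pt z (φ + s) = pt z (φ + x) := by
      by_contra hne
      exact k1 ⟨hsF, hne⟩
    obtain ⟨n, hn⟩ := S5.H349.pt_eq e
    have l1 := k2.1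
    have l2 := k2.2
    have hn0 : n = 0 := by
      have k1 : (n : ℝ) < 1 := by linarith
      have k2 : (-1 : ℝ) < n := by linarith
      have k3 : n < 1 := by exact_mod_cast k1
      have k4 : -1 < n := by exact_mod_cast k2
      omega
    rw [hn0] at hn
    push_cast at hn
    exact k3 (by rw [mem_singleton_iff]; linarith)
  have h1 := par_f913 (X := X) (f := inA T z a b φ) (fun t ht => inA_loc C ht) hiso _ 0 6
    (by norm_num) h0 h6 hXfin hcard (fun x hx => hjmp x hx.1)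
  have h2 : inA T z a b φ 6 = inA T z a b φ 0 := by
    unfold inA
    rw [pt_six, add_zero]
  rw [h2] at h1
  omega

end Vale.Agent.P032.H913
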